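import Crest.Agent.Grot.Hty

/-!
Row 248 chunk D: insertion of an `(n+1)`-globe in a shape.
(`Hty.refl/symm/trans`, units, composites are in `Grot/Hty.lean`, done.)
-/

set_option autoImplicit false

open CategoryTheory CategoryTheory.Limits Opposite Crest.GeometryTopology.Coherator

universe v w u

namespace Crest.Agent.Grot

variable {𝓜 : Type w} [Category.{v} 𝓜] (R : Shape ⥤ 𝓜)

/-- the last globe of a shape, as a map of shapes -/
noncomputable def apx (S : Shape) : Shape.globe S.last ⟶ S := S.apex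

theorem hinge_eq_apx (S : Shape) {c : ℕ} (hc : c < S.last) :
    S.hinge hc = Shape.faceMap hc true ≫ apx S := rfl

theorem apx_glue (S : Shape) (b h : ℕ) (hb : b < S.last) (hh : b < h) :
    apx (S.glue b h hb hh) = S.inRight b h hb hh := rfl

theorem apx_globe (n : ℕ) : apx (Shape.globe n) = 𝟙 _ := rfl

/-- gluing a globe on both sides of a map of shapes compatible with hinges -/
theorem glue_lift (hR : Glues R) (S₀ S₁ : Shape) (c h : ℕ) (hb : c < S₀.last) (hb' : c < S₁.last)
    (hh : c < h) (u₀ : S₀ ⟶ S₁) (hu : S₀.hinge hb ≫ u₀ = S₁.hinge hb') :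
    ∃ u' : S₀.glue c h hb hh ⟶ S₁.glue c h hb' hh,
      S₀.inRight c h hb hh ≫ u' = S₁.inRight c h hb' hh ∧
      IsPushout (R.map (S₀.inLeft c h hb hh)) (R.map u₀) (R.map u')
        (R.map (S₁.inLeft c h hb' hh)) := by
  have h0 := glues_id S₀ c h hb hh
  have h1 := glues_id S₁ c h hb' hh
  simp only [Functor.id_map, Functor.id_obj] at h0 h1
  have w : S₀.hinge hb ≫ (u₀ ≫ S₁.inLeft c h hb' hh) =
      Shape.faceMap hh false ≫ S₁.inRight c h hb' hh := by
    rw [← Category.assoc, hu]
    exact h1.w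
  let u' : S₀.glue c h hb hh ⟶ S₁.glue c h hb' hh := h0.desc _ _ w
  have hul : S₀.inLeft c h hb hh ≫ u' = u₀ ≫ S₁.inLeft c h hb' hh := h0.inl_desc _ _ w
  have hur : S₀.inRight c h hb hh ≫ u' = S₁.inRight c h hb' hh := h0.inr_desc _ _ w
  refine ⟨u', hur, ?_⟩
  have s := hR S₁ c h hb' hh
  rw [← hu, ← hur, R.map_comp, R.map_comp] at s
  have t := hR S₀ c h hb hh
  exact (IsPushout.of_left s (by rw [← R.map_comp, ← R.map_comp, hul]) t).flip

/-- an insertion square -/
structure InsSq (n : ℕ) {S S' : Shape} (e : Shape.globe n ⟶ S) (u : S ⟶ S')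
    (k : Shape.globe (n + 1) ⟶ S') : Prop where
  po : IsPushout (R.map e) (R.map (Shape.σ n)) (R.map u) (R.map k)
  dim : S'.dim ≤ max S.dim (n + 1)

/-- an insertion square stays one after gluing a globe -/
theorem InsSq.glue (hR : Glues R) {n : ℕ} {S₀ S₁ : Shape} {e : Shape.globe n ⟶ S₀}
    {u₀ : S₀ ⟶ S₁} {k : Shape.globe (n + 1) ⟶ S₁} (sq : InsSq R n e u₀ k) (c h : ℕ)
    (hb : c < S₀.last) (hb' : c < S₁.last) (hh : c < h) (hu : S₀.hinge hb ≫ u₀ = S₁.hinge hb') :
    ∃ u' : S₀.glue c h hb hh ⟶ S₁.glue c h hb' hh,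
      S₀.inRight c h hb hh ≫ u' = S₁.inRight c h hb' hh ∧
      InsSq R n (e ≫ S₀.inLeft c h hb hh) u' (k ≫ S₁.inLeft c h hb' hh) := by
  obtain ⟨u', hur, hpo⟩ := glue_lift R hR S₀ S₁ c h hb hb' hh u₀ hu
  refine ⟨u', hur, ?_, ?_⟩
  · rw [R.map_comp, R.map_comp]
    exact sq.po.paste_horiz hpo
  · have := sq.dim
    rw [dim_glue, dim_glue]
    omega

/-- raising the last globe of a shape -/
theorem raise (hR : Glues R) {l : ℕ} (P : Pasting l) :
    ∃ (P' : Pasting (l + 1)) (u : (⟨l, P⟩ : Shape) ⟶ ⟨l + 1, P'⟩)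
      (k : Shape.globe (l + 1) ⟶ (⟨l + 1, P'⟩ : Shape)),
      InsSq R l (apx ⟨l, P⟩) u k ∧
      ∀ (c : ℕ) (hc : c < l) (hc' : c < l + 1),
        Shape.hinge (⟨l, P⟩ : Shape) hc ≫ u = Shape.hinge (⟨l + 1, P'⟩ : Shape) hc' := by
  cases P with
  | single l =>
    refine ⟨.single (l + 1), Shape.σ l, 𝟙 _, ⟨?_, ?_⟩, ?_⟩
    · have key : IsPushout (𝟙 (R.obj (Shape.globe l))) (R.map (Shape.σ l)) (R.map (Shape.σ l))
          (𝟙 (R.obj (Shape.globe (l + 1)))) := IsPushout.of_id_fst
      rw [← R.map_id, ← R.map_id] at key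
      exact key
    · show l + 1 ≤ max l (l + 1)
      omega
    · intro c hc hc'
      have h1 : Shape.hinge (⟨l, .single l⟩ : Shape) hc = Shape.faceMap hc true := hinge_globe hc
      have h2 : Shape.hinge (⟨l + 1, .single (l + 1)⟩ : Shape) hc' = Shape.faceMap hc' true :=
        hinge_globe hc'
      rw [h1, h2]
      exact faceMap_comp hc (Nat.lt_succ_self l) true false
  | @glue l₀ Q b _ hb hh =>
    have hh' : b < l + 1 := by omega
    let S₀ : Shape := ⟨l₀, Q⟩
    have h0 := glues_id S₀ b l hb hh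
    have h1 := glues_id S₀ b (l + 1) hb hh'
    simp only [Functor.id_map, Functor.id_obj] at h0 h1
    have w : S₀.hinge hb ≫ S₀.inLeft b (l + 1) hb hh' =
        Shape.faceMap hh false ≫ (Shape.σ l ≫ S₀.inRight b (l + 1) hb hh') := by
      rw [← Category.assoc]
      have : Shape.faceMap hh false ≫ Shape.σ l = Shape.faceMap hh' false :=
        faceMap_comp hh (Nat.lt_succ_self l) false false
      rw [this]
      exact h1.w
    let u : S₀.glue b l hb hh ⟶ S₀.glue b (l + 1) hb hh' := h0.desc _ _ w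
    have hul : S₀.inLeft b l hb hh ≫ u = S₀.inLeft b (l + 1) hb hh' := h0.inl_desc _ _ w
    have hur : S₀.inRight b l hb hh ≫ u = Shape.σ l ≫ S₀.inRight b (l + 1) hb hh' :=
      h0.inr_desc _ _ w
    refine ⟨.glue Q b (l + 1) hb hh', u, S₀.inRight b (l + 1) hb hh', ⟨?_, ?_⟩, ?_⟩
    · -- the pushout
      have t := (hR S₀ b l hb hh).flip
      have s := (hR S₀ b (l + 1) hb hh').flip
      have e1 : Shape.faceMap hh' false = Shape.faceMap hh false ≫ Shape.σ l :=
        (faceMap_comp hh (Nat.lt_succ_self l) false false).symm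
      rw [e1, ← hul, R.map_comp, R.map_comp] at s
      exact (IsPushout.of_left s (by rw [← R.map_comp, ← R.map_comp, hur]) t).flip
    · show max S₀.dim (l + 1) ≤ max (max S₀.dim l) (l + 1)
      omega
    · intro c hc hc'
      have h2 : Shape.hinge (⟨l, .glue Q b l hb hh⟩ : Shape) hc =
          Shape.faceMap hc true ≫ S₀.inRight b l hb hh := rfl
      have h3 : Shape.hinge (⟨l + 1, .glue Q b (l + 1) hb hh'⟩ : Shape) hc' =
          Shape.faceMap hc' true ≫ S₀.inRight b (l + 1) hb hh' := rfl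
      have h5 : Shape.faceMap hc true ≫ Shape.σ l = Shape.faceMap hc' true :=
        faceMap_comp hc (Nat.lt_succ_self l) true false
      have h6 : (Shape.faceMap hc true ≫ S₀.inRight b l hb hh) ≫ u =
          Shape.faceMap hc' true ≫ S₀.inRight b (l + 1) hb hh' := by
        rw [Category.assoc, hur, ← Category.assoc, h5]
      rw [h2, h3]
      exact h6

theorem Hty.push {n : ℕ} {S T : Shape} {a b : Shape.globe n ⟶ S} (f : S ⟶ T)
    (h : Hty R (R.map a) (R.map b)) : Hty R (R.map (a ≫ f)) (R.map (b ≫ f)) := by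
  rw [R.map_comp, R.map_comp]
  exact h.comp _

/-- lower pole ~ upper pole -/
theorem pole_hty {n h : ℕ} (hn : n < h) :
    Hty R (R.map (Shape.faceMap hn false)) (R.map (Shape.faceMap hn true)) := by
  rcases Nat.lt_or_ge (n + 1) h with h1 | h1
  · refine ⟨R.map (Shape.faceMap h1 false), ?_, ?_⟩
    · rw [← R.map_comp]
      congr 1
      exact faceMap_comp (Nat.lt_succ_self n) h1 false false
    · rw [← R.map_comp]
      congr 1
      exact faceMap_comp (Nat.lt_succ_self n) h1 true false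
  · obtain rfl : h = n + 1 := by omega
    exact ⟨𝟙 _, Category.comp_id _, Category.comp_id _⟩

/-- the three alternatives -/
def Alt (n : ℕ) {l : ℕ} (P : Pasting l) (x : Shape.globe n ⟶ (⟨l, P⟩ : Shape)) : Prop :=
  (∃ hn : n < l, Hty R (R.map x) (R.map (Shape.hinge (⟨l, P⟩ : Shape) hn))) ∨
  (∃ hn : n = l, x = eqToHom (by rw [hn]) ≫ apx ⟨l, P⟩) ∨
  (∃ (P' : Pasting l) (e : Shape.globe n ⟶ (⟨l, P⟩ : Shape)) (u : (⟨l, P⟩ : Shape) ⟶ ⟨l, P'⟩)
    (k : Shape.globe (n + 1) ⟶ (⟨l, P'⟩ : Shape)),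
    apx ⟨l, P⟩ ≫ u = apx ⟨l, P'⟩ ∧ InsSq R n e u k ∧ Hty R (R.map x) (R.map e))

theorem alt (hR : RData R) (n : ℕ) {l : ℕ} (P : Pasting l) :
    ∀ x : Shape.globe n ⟶ (⟨l, P⟩ : Shape), Alt R n P x := by
  induction P with
  | single h =>
    intro x
    rcases cell_globe (m := n) (h := h) x with ⟨e, hx⟩ | ⟨hlt, s, hx⟩
    · right; left
      refine ⟨e, ?_⟩
      rw [hx]
      subst e
      simp only [eqToHom_refl]
      rfl
    · left
      refine ⟨hlt, ?_⟩
      have h1 : Shape.hinge (⟨h, .single h⟩ : Shape) hlt = Shape.faceMap hlt true := hinge_globe hlt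
      rw [h1, hx]
      cases s
      · exact pole_hty R hlt
      · exact Hty.refl hR _
  | @glue l₀ P c h hb hh ih =>
    intro x
    let S₀ : Shape := ⟨l₀, P⟩
    rcases cell_glue S₀ c h hb hh x with ⟨y, hy⟩ | ⟨y, hy⟩
    · rcases ih y with ⟨hn, hyt⟩ | ⟨hn, hye⟩ | ⟨P', e, u, k, hau, sq, hye⟩
      · -- y ~ hinge
        subst hy
        have hxh := Hty.push R (S₀.inLeft c h hb hh) hyt
        rcases Nat.lt_trichotomy n c with h1 | h1 | h1
        · -- n < c
          left
          have hnh : n < h := h1.trans hh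
          refine ⟨hnh, ?_⟩
          have e1 : Shape.hinge (⟨l₀, P⟩ : Shape) hn = Shape.faceMap h1 true ≫ S₀.hinge hb :=
            (faceMap_true_hinge S₀ hb h1).symm
          have e2 : Shape.hinge (⟨l₀, P⟩ : Shape) hn ≫ S₀.inLeft c h hb hh =
              Shape.hinge (⟨h, .glue P c h hb hh⟩ : Shape) hnh := by
            rw [e1, Category.assoc, hinge_inLeft, ← Category.assoc, faceMap_comp]
            exact (hinge_glue S₀ c h hb hh hnh).symm
          rw [← e2]
          exact hxh
        · -- n = c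
          subst h1
          left
          refine ⟨hh, ?_⟩
          have e2 : Shape.hinge (⟨l₀, P⟩ : Shape) hn ≫ S₀.inLeft n h hb hh =
              Shape.faceMap hh false ≫ S₀.inRight n h hb hh := hinge_inLeft S₀ n h hb hh
          have e3 : Shape.hinge (⟨h, .glue P n h hb hh⟩ : Shape) hh =
              Shape.faceMap hh true ≫ S₀.inRight n h hb hh := rfl
          rw [e3]
          refine Hty.trans hR hxh ?_
          have h4 := Hty.push R (S₀.inRight n h hb hh) (pole_hty R hh)
          rw [← e2] at h4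
          exact h4
        · -- c < n
          right; right
          let S₁ : Shape := S₀.glue n (n + 1) hn (Nat.lt_succ_self n)
          have hb' : c < S₁.last := by show c < n + 1; omega
          have sq : InsSq R n (S₀.hinge hn) (S₀.inLeft n (n + 1) hn (Nat.lt_succ_self n))
              (S₀.inRight n (n + 1) hn (Nat.lt_succ_self n)) := by
            refine ⟨hR.glue S₀ n (n + 1) hn (Nat.lt_succ_self n), ?_⟩
            rw [dim_glue]
          have hu : S₀.hinge hb ≫ S₀.inLeft n (n + 1) hn (Nat.lt_succ_self n) = S₁.hinge hb' := by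
            have e1 : S₀.hinge hb = Shape.faceMap h1 true ≫ S₀.hinge hn :=
              (faceMap_true_hinge S₀ hn h1).symm
            rw [e1, Category.assoc, hinge_inLeft, ← Category.assoc, faceMap_comp]
            rfl
          obtain ⟨u', hur, sq'⟩ := sq.glue R hR.glue c h hb hb' hh hu
          exact ⟨.glue S₁.pasting c h hb' hh, _, u', _, hur, sq', hxh⟩
      · -- y is the apex
        right; right
        subst hn
        rw [eqToHom_refl, Category.id_comp] at hye
        obtain ⟨P', u, k, sq, hhg⟩ := raise R hR.glue P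
        have hb' : c < n + 1 := by
          have : c < n := hb
          omega
        obtain ⟨u', hur, sq'⟩ := sq.glue R hR.glue c h hb hb' hh (hhg c hb hb')
        refine ⟨.glue P' c h hb' hh, _, u', _, hur, sq', ?_⟩
        subst hy
        rw [hye]
        exact Hty.refl hR _
      · -- insertion in the left part
        right; right
        have hu : S₀.hinge hb ≫ u = Shape.hinge (⟨l₀, P'⟩ : Shape) hb := by
          rw [hinge_eq_apx, hinge_eq_apx, Category.assoc]
          have : apx S₀ ≫ u = apx ⟨l₀, P'⟩ := hau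
          rw [this]
        obtain ⟨u', hur, sq'⟩ := sq.glue R hR.glue c h hb hb hh hu
        refine ⟨.glue P' c h hb hh, _, u', _, hur, sq', ?_⟩
        subst hy
        exact Hty.push R (S₀.inLeft c h hb hh) hye
    · rcases cell_globe y with ⟨e, hye⟩ | ⟨hlt, s, hye⟩
      · right; left
        refine ⟨e, ?_⟩
        rw [← hy, hye]
        rfl
      · left
        refine ⟨hlt, ?_⟩
        have e3 : Shape.hinge (⟨h, .glue P c h hb hh⟩ : Shape) hlt =
            Shape.faceMap hlt true ≫ S₀.inRight c h hb hh := rfl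
        subst hy
        subst hye
        rw [e3]
        cases s
        · exact Hty.push R (S₀.inRight c h hb hh) (pole_hty R hlt)
        · exact Hty.refl hR _

theorem ins (hR : RData R) (n : ℕ) (S : Shape) (x : Shape.globe n ⟶ S) :
    ∃ (S' : Shape) (e : Shape.globe n ⟶ S) (u : S ⟶ S') (k : Shape.globe (n + 1) ⟶ S'),
      IsPushout (R.map e) (R.map (Shape.σ n)) (R.map u) (R.map k) ∧
      S'.dim ≤ max S.dim (n + 1) ∧ Hty R (R.map x) (R.map e) := by
  obtain ⟨l, P⟩ := S
  rcases alt R hR n P x with ⟨hn, hxt⟩ | ⟨hn, hxe⟩ | ⟨P', e, u, k, _, sq, hxe⟩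
  · let S : Shape := ⟨l, P⟩
    exact ⟨S.glue n (n + 1) hn (Nat.lt_succ_self n), S.hinge hn, S.inLeft _ _ _ _,
      S.inRight _ _ _ _, hR.glue S n (n + 1) hn (Nat.lt_succ_self n), by rw [dim_glue], hxt⟩
  · subst hn
    rw [eqToHom_refl, Category.id_comp] at hxe
    obtain ⟨P', u, k, sq, _⟩ := raise R hR.glue P
    exact ⟨_, _, u, k, sq.po, sq.dim, by rw [hxe]; exact Hty.refl hR _⟩
  · exact ⟨_, e, u, k, sq.po, sq.dim, hxe⟩

end Crest.Agent.Grot
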