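import Crest.Agent.Grot.GoodLemmas
import Crest.Agent.Grot.Ins

/-!
Row 248: the class `BC` of finite cell complexes over a free object on a shape and the
contractibility lemma `BC.ctr`.
-/

set_option autoImplicit false

open CategoryTheory CategoryTheory.Limits Opposite Crest.GeometryTopology.Coherator

universe v w u

namespace Crest.Agent.Grot

variable {𝓜 : Type w} [Category.{v} 𝓜] {R : Shape ⥤ 𝓜}

/-- pushouts of lower faces are composites of pushouts of `sg` -/
theorem Cof.pushout_face [HasPushouts 𝓜] {b h : ℕ} (hh : b < h) {X X' : 𝓜}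
    {a : dk R b ⟶ X} {j : X ⟶ X'} {c : dk R h ⟶ X'}
    (hX : Cof R X) (sq : IsPushout a (R.map (Shape.faceMap hh false)) j c) : Cof R X' := by
  induction h generalizing X' with
  | zero => exact absurd hh (by omega)
  | succ h ih =>
    rcases Nat.lt_or_ge b h with hlt | hge
    · have e : Shape.faceMap hh false = Shape.faceMap hlt false ≫ Shape.σ h := by
        unfold Shape.σ; rw [faceMap_comp]
      rw [e, R.map_comp] at sq
      have sq1 := IsPushout.of_hasPushout a (R.map (Shape.faceMap hlt false))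
      have hc : Cof R (Limits.pushout a (R.map (Shape.faceMap hlt false))) := ih hlt sq1
      exact Cof.pushout hc (IsPushout.of_top' sq sq1)
    · obtain rfl : b = h := by omega
      exact hX.pushout sq

/-- disks are cofibrant -/
theorem cof_dk (m : ℕ) : Cof R (dk R m) := by
  induction m with
  | zero => exact fun _ _ p hp f => hp.zero f
  | succ m ih => exact ih.pushout (IsPushout.of_id_fst (f := sg R m))

/-- free objects on shapes are cofibrant -/
theorem cof_obj [HasPushouts 𝓜] (hR : Glues R) (S : Shape) : Cof R (R.obj S) := by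
  obtain ⟨last, P⟩ := S
  induction P with
  | single h => exact cof_dk h
  | glue P b h hb hh ih =>
    exact ih.pushout_face hh (hR ⟨_, P⟩ b h hb hh)

/-- `BC R n S r f`: the map `f : R.obj S ⟶ X` is a finite composite of attachments of disks
`dk (m+1)` along `dk m`, either with `m > n`, or (at most `r` times) with `m = n` and attached at the
image of an `n`-cell of the shape `S`. -/
inductive BC (R : Shape ⥤ 𝓜) (n : ℕ) (S : Shape) : ℕ → {X : 𝓜} → (R.obj S ⟶ X) → Prop
  | iso {X : 𝓜} (f : R.obj S ⟶ X) (hf : IsIso f) : BC R n S 0 f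
  | low {r : ℕ} {X X' : 𝓜} (f : R.obj S ⟶ X) (h : BC R n S r f) (x : Shape.globe n ⟶ S)
      (j : X ⟶ X') (b : dk R (n + 1) ⟶ X') (sq : IsPushout (R.map x ≫ f) (sg R n) j b) :
      BC R n S (r + 1) (f ≫ j)
  | high {r : ℕ} {X X' : 𝓜} (f : R.obj S ⟶ X) (h : BC R n S r f) (m : ℕ) (hm : n < m)
      (a : dk R m ⟶ X) (j : X ⟶ X') (b : dk R (m + 1) ⟶ X')
      (sq : IsPushout a (sg R m) j b) : BC R n S r (f ≫ j)

theorem BC.cof [HasPushouts 𝓜] (hR : Glues R) {n : ℕ} {S : Shape} {r : ℕ} {X : 𝓜}
    {f : R.obj S ⟶ X} (h : BC R n S r f) : Cof R X := by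
  induction h with
  | iso f hf =>
    intro A B p hp g
    obtain ⟨k, hk⟩ := cof_obj hR S p hp (f ≫ g)
    exact ⟨inv f ≫ k, by rw [Category.assoc, hk]; simp⟩
  | low f h x j b sq ih => exact ih.pushout sq
  | high f h m hm a j b sq ih => exact ih.pushout sq

/-- pushforward of a complex along a map of shapes -/
theorem BC.push [HasPushouts 𝓜] {n : ℕ} {S S' : Shape} (u : S ⟶ S') {r : ℕ} {X : 𝓜}
    {f : R.obj S ⟶ X} (h : BC R n S r f) :
    ∀ {X' : 𝓜} {f' : R.obj S' ⟶ X'} {u' : X ⟶ X'}, IsPushout (R.map u) f f' u' →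
      BC R n S' r f' := by
  induction h with
  | iso f hf =>
    intro X' f' u' sq
    exact BC.iso f' (sq.isIso_inl_of_isIso hf)
  | low f h x j b sq ih =>
    intro X' f' u' sq'
    have sq1 := IsPushout.of_hasPushout (R.map u) f
    have h1 := ih sq1
    have sq2 := IsPushout.of_top' sq' sq1
    have sq3 := IsPushout.paste_horiz sq sq2
    rw [Category.assoc, ← sq1.w, ← Category.assoc, ← R.map_comp] at sq3
    have := BC.low _ h1 (x ≫ u) _ _ sq3
    rw [sq1.inl_desc] at this
    exact this
  | high f h m hm a j b sq ih =>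
    intro X' f' u' sq'
    have sq1 := IsPushout.of_hasPushout (R.map u) f
    have h1 := ih sq1
    have sq2 := IsPushout.of_top' sq' sq1
    have sq3 := IsPushout.paste_horiz sq sq2
    have := BC.high _ h1 m hm _ _ _ sq3
    rw [sq1.inl_desc] at this
    exact this


/-- composition with an isomorphism -/
theorem BC.comp_iso {n : ℕ} {S : Shape} {r : ℕ} {X X' : 𝓜} {f : R.obj S ⟶ X} (h : BC R n S r f)
    (e : X ⟶ X') [IsIso e] : BC R n S r (f ≫ e) := by
  cases h with
  | iso f hf => exact BC.iso _ inferInstance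
  | low f h x j b sq =>
    rw [Category.assoc]
    have := sq.paste_horiz (IsPushout.of_horiz_isIso (f := 𝟙 _) (g := j) (inl := j ≫ e)
        (inr := e) ⟨by simp⟩)
    rw [Category.comp_id] at this
    exact BC.low _ h x (j ≫ e) (b ≫ e) this
  | high f h m hm a j b sq =>
    rw [Category.assoc]
    have := sq.paste_horiz (IsPushout.of_horiz_isIso (f := 𝟙 _) (g := j) (inl := j ≫ e)
        (inr := e) ⟨by simp⟩)
    rw [Category.comp_id] at this
    exact BC.high _ h m hm a (j ≫ e) (b ≫ e) this

/-- the main induction: complexes are good -/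
theorem BC.good_aux [HasPushouts 𝓜] [HasTerminal 𝓜] (hR : RData R) {n : ℕ}
    (hn : ∀ m, n < m → PLG R m) (N : ℕ) :
    ∀ (r : ℕ), r ≤ N → ∀ {S : Shape} {X : 𝓜} {f : R.obj S ⟶ X}, BC R n S r f →
      ∀ l : ℕ, S.dim ≤ l + 1 → (r = 0 ∨ n ≤ l) → Good R l f := by
  induction N with
  | zero =>
    intro r hr S X f h
    induction h with
    | iso f hf => intro l _ _; exact Good.of_isIso l f
    | low f h x j b sq ih => exact absurd hr (by omega)
    | high f h m hm a j b sq ih =>
      intro l hl hrl
      exact Good.comp (ih hr l hl hrl) (hn m hm a j b (h.cof hR.glue) sq l)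
  | succ N IH =>
    intro r hr S X f h
    induction h with
    | iso f hf => intro l _ _; exact Good.of_isIso l f
    | high f h m hm a j b sq ih =>
      intro l hl hrl
      exact Good.comp (ih hr l hl hrl) (hn m hm a j b (h.cof hR.glue) sq l)
    | low f h x j b sq ih =>
      rename_i r X X'
      intro l hl hrl
      have hnl : n ≤ l := by
        rcases hrl with h | h
        · omega
        · exact h
      refine Good.comp (ih (by omega) l hl (Or.inr hnl)) ?_
      obtain ⟨S', e, u, k, po, hdim, hty⟩ := ins R hR n S x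
      -- attach at `e` instead
      have sq' := IsPushout.of_hasPushout (R.map e ≫ f) (sg R n)
      refine slide hR (hn (n + 1) (by omega)) (h.cof hR.glue) sq sq' (hty.comp f) ?_
      -- `R S' ⟶ X_e`
      have sq1 := IsPushout.of_left' sq'.flip.flip po
      have hb : BC R n S' r _ := h.push u sq1.flip
      refine Good.of_ctr _ ?_
      exact Good.ctr (IH r (by omega) hb l (by omega) (Or.inr hnl)) (hR.rc S' l (by omega))

theorem BC.good [HasPushouts 𝓜] [HasTerminal 𝓜] (hR : RData R) {n : ℕ}
    (hn : ∀ m, n < m → PLG R m) {r : ℕ} {S : Shape} {X : 𝓜} {f : R.obj S ⟶ X}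
    (h : BC R n S r f) (l : ℕ) (hS : S.dim ≤ l + 1) (hr : r = 0 ∨ n ≤ l) : Good R l f :=
  BC.good_aux hR hn r r le_rfl h l hS hr

/-- the contractibility lemma -/
theorem BC.ctr [HasPushouts 𝓜] [HasTerminal 𝓜] (hR : RData R) {n : ℕ}
    (hn : ∀ m, n < m → PLG R m) {r : ℕ} {S : Shape} {X : 𝓜} {f : R.obj S ⟶ X}
    (h : BC R n S r f) (l : ℕ) (hS : S.dim ≤ l + 1) (hr : r = 0 ∨ n ≤ l) : Ctr R l X :=
  Good.ctr (h.good hR hn l hS hr) (hR.rc S l hS)

end Crest.Agent.Grot
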