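import Mathlib
import Crest.Prelude.Def_GlobularCoherator

/-!
Row 248 (S0382), basic vocabulary of the abstract argument.

`𝓜` is a category (later: the `K`-truncated models of a coherator), `R : Shape ⥤ 𝓜` the functor of
free objects on shapes.  Cells of dimension `l` of `Y : 𝓜` are maps `dk R l ⟶ Y`.
-/

set_option autoImplicit false

open CategoryTheory CategoryTheory.Limits Crest.GeometryTopology.Coherator

universe v w

namespace Crest.Agent.Grot

/-- a functor on shapes sends the designated gluing squares to pushouts -/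
def Glues {𝓒 : Type w} [Category.{v} 𝓒] (F : Shape ⥤ 𝓒) : Prop :=
  ∀ (S : Shape) (b h : ℕ) (hb : b < S.last) (hh : b < h),
    IsPushout (F.map (S.hinge hb)) (F.map (Shape.faceMap hh false))
      (F.map (S.inLeft b h hb hh)) (F.map (S.inRight b h hb hh))

section

variable {𝓜 : Type w} [Category.{v} 𝓜] (R : Shape ⥤ 𝓜)

/-- disks -/
noncomputable abbrev dk (l : ℕ) : 𝓜 := R.obj (Shape.globe l)
/-- source face -/
noncomputable abbrev sg (l : ℕ) : dk R l ⟶ dk R (l + 1) := R.map (Shape.σ l)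
/-- target face -/
noncomputable abbrev tg (l : ℕ) : dk R l ⟶ dk R (l + 1) := R.map (Shape.τ l)

/-- parallel cells -/
def Par : {l : ℕ} → {Y : 𝓜} → (x y : dk R l ⟶ Y) → Prop
  | 0, _, _, _ => True
  | _ + 1, _, x, y => sg R _ ≫ x = sg R _ ≫ y ∧ tg R _ ≫ x = tg R _ ≫ y

/-- `x ~ y` : some `(l+1)`-cell goes from `x` to `y` -/
def Hty {l : ℕ} {Y : 𝓜} (x y : dk R l ⟶ Y) : Prop :=
  ∃ h : dk R (l + 1) ⟶ Y, sg R l ≫ h = x ∧ tg R l ≫ h = y

/-- all parallel `l`-cells of `Y` are homotopic -/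
def Ctr (l : ℕ) (Y : 𝓜) : Prop := ∀ x y : dk R l ⟶ Y, Par R x y → Hty R x y

/-- `m` reflects homotopy of parallel `l`-cells -/
def Refl (l : ℕ) {Y Δ : 𝓜} (m : Y ⟶ Δ) : Prop :=
  ∀ u v : dk R l ⟶ Y, Par R u v → Hty R (u ≫ m) (v ≫ m) → Hty R u v

/-- `F` is good at level `l` -/
def Good (l : ℕ) {X Y : 𝓜} (F : X ⟶ Y) : Prop :=
  ∀ ⦃Δ : 𝓜⦄ (m : Y ⟶ Δ), Refl R l (F ≫ m) → Refl R l m

/-- trivial fibrations: right lifting property against all sphere inclusions -/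
structure TF {A B : 𝓜} (p : A ⟶ B) : Prop where
  zero : ∀ b : dk R 0 ⟶ B, ∃ a : dk R 0 ⟶ A, a ≫ p = b
  succ : ∀ (l : ℕ) (x y : dk R l ⟶ A), Par R x y → ∀ b : dk R (l + 1) ⟶ B,
    sg R l ≫ b = x ≫ p → tg R l ≫ b = y ≫ p →
    ∃ a : dk R (l + 1) ⟶ A, sg R l ≫ a = x ∧ tg R l ≫ a = y ∧ a ≫ p = b

/-- cofibrant objects: left lifting property (from the initial object) against `TF` -/
def Cof (X : 𝓜) : Prop :=
  ∀ ⦃A B : 𝓜⦄ (p : A ⟶ B), TF R p → ∀ f : X ⟶ B, ∃ g : X ⟶ A, g ≫ p = f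

/-- the pushout lemma for the `m`-disk -/
def PLG (m : ℕ) : Prop :=
  ∀ ⦃X X' : 𝓜⦄ (a : dk R m ⟶ X) (j : X ⟶ X') (b : dk R (m + 1) ⟶ X'),
    Cof R X → IsPushout a (sg R m) j b → ∀ l : ℕ, Good R l j

/-- the hypotheses on `R` used in the abstract argument -/
structure RData : Prop where
  glue : Glues R
  rc : ∀ (S : Shape) (l : ℕ), S.dim ≤ l + 1 → Ctr R l (R.obj S)

/-- parallel cells for a functor `E` on shapes used as cylinders -/
def EPar (E : Shape ⥤ 𝓜) {l : ℕ} {Y : 𝓜} (x y : E.obj (Shape.globe l) ⟶ Y) : Prop :=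
  Par E x y

end

end Crest.Agent.Grot
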