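import Crest.Agent.Grot.Basic

/-!
Row 248 chunk C: models of a globular theory are cocomplete.
-/

set_option autoImplicit false
set_option linter.style.haveILetI false

open CategoryTheory CategoryTheory.Limits Opposite Crest.GeometryTopology.Coherator
open Crest.GeometryTopology.Coherator.GlobTheory

universe v w u

namespace Crest.Agent.Grot

/-- the forgetful functor from models to presheaves -/
def toPsh (C : GlobTheory.{u}) : GlobModel C ⥤ (C.Obᵒᵖ ⥤ Type u) where
  obj X := X.functor
  map f := f

namespace Colim

variable (C : GlobTheory.{u})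

theorem presentable_yoneda (X : C.Ob) (κ : Cardinal.{u}) [Fact κ.IsRegular] :
    IsCardinalPresentable (yoneda.obj X : C.Obᵒᵖ ⥤ Type u) κ where
  preservesColimitOfShape J _ _ := by
    let e : (coyoneda.obj (op (yoneda.obj X))) ≅ (evaluation C.Obᵒᵖ (Type u)).obj (op X) :=
      NatIso.ofComponents (fun P ↦ Equiv.toIso yonedaEquiv)
    exact preservesColimitsOfShape_of_natIso e.symm

/-- indices of the designated squares -/
abbrev SqIdx : Type := { p : Shape × ℕ × ℕ // p.2.1 < p.1.last ∧ p.2.1 < p.2.2 }

/-- the comparison map from the pushout of representables to the representable -/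
noncomputable def cmpMap (i : SqIdx) :
    pushout (yoneda.map (C.incl.map (i.1.1.hinge i.2.1)) : _ ⟶ (yoneda.obj _ : C.Obᵒᵖ ⥤ Type u))
      (yoneda.map (C.incl.map (Shape.faceMap i.2.2 false))) ⟶
    (yoneda.obj (C.incl.obj (i.1.1.glue i.1.2.1 i.1.2.2 i.2.1 i.2.2)) : C.Obᵒᵖ ⥤ Type u) :=
  pushout.desc (yoneda.map (C.incl.map (i.1.1.inLeft _ _ i.2.1 i.2.2)))
    (yoneda.map (C.incl.map (i.1.1.inRight _ _ i.2.1 i.2.2))) (by
      rw [← yoneda.map_comp, ← yoneda.map_comp]
      congr 1
      exact (C.respectsSums i.1.1 i.1.2.1 i.1.2.2 i.2.1 i.2.2).w)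

/-- the small class of morphisms whose local objects are the models -/
noncomputable def WW : MorphismProperty (C.Obᵒᵖ ⥤ Type u) := MorphismProperty.ofHoms (cmpMap C)

theorem finite_arrow_span : Finite (Arrow WalkingSpan) := by
  have h : Function.Injective (fun f : Arrow WalkingSpan => (f.left, f.right)) := by
    rintro ⟨a, b, f⟩ ⟨a', b', f'⟩ h
    obtain ⟨rfl, rfl⟩ := Prod.mk.inj h
    have : f = f' := Subsingleton.elim _ _
    subst this
    rfl
  haveI : Finite WalkingSpan := inferInstance
  exact Finite.of_injective _ h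

attribute [local instance] Cardinal.fact_isRegular_aleph0

theorem presentable_of_WW {X Y : C.Obᵒᵖ ⥤ Type u} (f : X ⟶ Y) (hf : WW C f) :
    IsCardinalPresentable X Cardinal.aleph0.{u} ∧ IsCardinalPresentable Y Cardinal.aleph0.{u} := by
  obtain ⟨i⟩ := hf
  refine ⟨?_, presentable_yoneda C _ _⟩
  have hfin := finite_arrow_span
  have hK : HasCardinalLT (Arrow WalkingSpan) Cardinal.aleph0.{u} := by
    rw [hasCardinalLT_aleph0_iff]
    exact hfin
  have h : ∀ k : WalkingSpan, IsCardinalPresentable
      ((span (yoneda.map (C.incl.map (i.1.1.hinge i.2.1)) : _ ⟶ (yoneda.obj _ : C.Obᵒᵖ ⥤ Type u))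
      (yoneda.map (C.incl.map (Shape.faceMap i.2.2 false)))).obj k) Cardinal.aleph0.{u} := by
    rintro (_ | _ | _)
    · exact presentable_yoneda C _ _
    · exact presentable_yoneda C _ _
    · exact presentable_yoneda C _ _
  exact isCardinalPresentable_of_isColimit _ (pushoutIsPushout _ _) Cardinal.aleph0.{u} hK

theorem isLocal_iff_sums (F : C.Obᵒᵖ ⥤ Type u) :
    (WW C).isLocal F ↔ ∀ (S : Shape) (b h : ℕ) (hb : b < S.last) (hh : b < h),
    IsPullback (F.map (C.incl.map (S.inLeft b h hb hh)).op)
      (F.map (C.incl.map (S.inRight b h hb hh)).op)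
      (F.map (C.incl.map (S.hinge hb)).op)
      (F.map (C.incl.map (Shape.faceMap hh false)).op) := by
  have key : ∀ i : SqIdx, (Function.Bijective (fun g : _ ⟶ F => cmpMap C i ≫ g)) ↔
      IsPullback (F.map (C.incl.map (i.1.1.inLeft i.1.2.1 i.1.2.2 i.2.1 i.2.2)).op)
      (F.map (C.incl.map (i.1.1.inRight i.1.2.1 i.1.2.2 i.2.1 i.2.2)).op)
      (F.map (C.incl.map (i.1.1.hinge i.2.1)).op)
      (F.map (C.incl.map (Shape.faceMap i.2.2 false)).op) := by
    intro i
    have hw := (C.respectsSums i.1.1 i.1.2.1 i.1.2.2 i.2.1 i.2.2).w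
    have inl_cmp : pushout.inl _ _ ≫ cmpMap C i
        = yoneda.map (C.incl.map (i.1.1.inLeft _ _ i.2.1 i.2.2)) := pushout.inl_desc _ _ _
    have inr_cmp : pushout.inr _ _ ≫ cmpMap C i
        = yoneda.map (C.incl.map (i.1.1.inRight _ _ i.2.1 i.2.2)) := pushout.inr_desc _ _ _
    rw [Types.isPullback_iff]
    constructor
    · rintro ⟨hinj, hsurj⟩
      refine ⟨?_, ?_, ?_⟩
      · rw [← F.map_comp, ← F.map_comp, ← op_comp, ← op_comp]
        congr 2
      · rintro x₁ y₁ ⟨h1, h2⟩
        have h3 : yonedaEquiv.symm x₁ = yonedaEquiv.symm y₁ := by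
          apply hinj
          apply pushout.hom_ext
          · simp only
            rw [← Category.assoc, ← Category.assoc, inl_cmp]
            erw [yonedaEquiv_symm_naturality_left, yonedaEquiv_symm_naturality_left]
            exact congrArg _ h1
          · simp only
            rw [← Category.assoc, ← Category.assoc, inr_cmp]
            erw [yonedaEquiv_symm_naturality_left, yonedaEquiv_symm_naturality_left]
            exact congrArg _ h2
        exact yonedaEquiv.symm.injective h3
      · intro x₂ x₃ h
        obtain ⟨g, hg⟩ := hsurj (pushout.desc (yonedaEquiv.symm x₂) (yonedaEquiv.symm x₃) (by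
          erw [yonedaEquiv_symm_naturality_left, yonedaEquiv_symm_naturality_left]
          exact congrArg _ h))
        refine ⟨yonedaEquiv g, ?_, ?_⟩
        · rw [yonedaEquiv_naturality, ← inl_cmp, Category.assoc]
          simp only at hg
          rw [hg, pushout.inl_desc, Equiv.apply_symm_apply]
        · rw [yonedaEquiv_naturality, ← inr_cmp, Category.assoc]
          simp only at hg
          rw [hg, pushout.inr_desc, Equiv.apply_symm_apply]
    · rintro ⟨_, hinj, hsurj⟩
      constructor
      · intro g g' hgg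
        simp only at hgg
        apply yonedaEquiv.injective
        apply hinj
        constructor
        · rw [yonedaEquiv_naturality, yonedaEquiv_naturality, ← inl_cmp, Category.assoc,
            Category.assoc, hgg]
        · rw [yonedaEquiv_naturality, yonedaEquiv_naturality, ← inr_cmp, Category.assoc,
            Category.assoc, hgg]
      · intro p
        obtain ⟨x, h1, h2⟩ := hsurj (yonedaEquiv (pushout.inl _ _ ≫ p))
          (yonedaEquiv (pushout.inr _ _ ≫ p)) (by
            rw [yonedaEquiv_naturality, yonedaEquiv_naturality, ← Category.assoc,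
              ← Category.assoc, pushout.condition])
        refine ⟨yonedaEquiv.symm x, ?_⟩
        simp only
        apply pushout.hom_ext
        · rw [← Category.assoc, inl_cmp]
          erw [yonedaEquiv_symm_naturality_left]
          rw [h1, Equiv.symm_apply_apply]
        · rw [← Category.assoc, inr_cmp]
          erw [yonedaEquiv_symm_naturality_left]
          rw [h2, Equiv.symm_apply_apply]
  constructor
  · intro hF S b h hb hh
    have h1 : WW C (cmpMap C ⟨(S, b, h), hb, hh⟩) :=
      MorphismProperty.ofHoms.mk (f := cmpMap C) ⟨(S, b, h), hb, hh⟩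
    exact (key ⟨(S, b, h), hb, hh⟩).1 (hF (cmpMap C ⟨(S, b, h), hb, hh⟩) h1)
  · rintro hF _ _ _ ⟨i⟩
    exact (key i).2 (hF i.1.1 i.1.2.1 i.1.2.2 i.2.1 i.2.2)

/-- the comparison functor with local objects -/
def toLoc : GlobModel C ⥤ (WW C).isLocal.FullSubcategory where
  obj X := ⟨X.functor, (isLocal_iff_sums C _).2 X.sums⟩
  map f := ⟨f⟩
  map_id _ := rfl
  map_comp _ _ := rfl

instance : (toLoc C).Full where
  map_surjective f := ⟨f.hom, rfl⟩

instance : (toLoc C).Faithful where
  map_injective h := congrArg (fun f => f.hom) h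

instance : (toLoc C).EssSurj where
  mem_essImage Y := ⟨⟨Y.obj, (isLocal_iff_sums C _).1 Y.property⟩, ⟨Iso.refl _⟩⟩

instance : (toLoc C).IsEquivalence where

theorem isRightAdjoint_ι : (WW C).isLocal.ι.IsRightAdjoint := by
  haveI : MorphismProperty.IsSmall.{u} (WW C) := by
    unfold WW
    haveI : Small.{u} SqIdx := small_zero _
    exact MorphismProperty.isSmall_ofHoms _
  exact MorphismProperty.isRightAdjoint_ι_isLocal (WW C) Cardinal.aleph0.{u}
    (fun X Y f hf => presentable_of_WW C f hf)

end Colim

instance (C : GlobTheory.{u}) : (toPsh C).Full where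
  map_surjective f := ⟨f, rfl⟩

instance (C : GlobTheory.{u}) : (toPsh C).Faithful where
  map_injective h := h

theorem isRightAdjoint_toPsh (C : GlobTheory.{u}) : (toPsh C).IsRightAdjoint := by
  haveI := Colim.isRightAdjoint_ι C
  have h : (Colim.toLoc C ⋙ (Colim.WW C).isLocal.ι).IsRightAdjoint := inferInstance
  exact h

theorem hasColimits_globModel (C : GlobTheory.{u}) : HasColimitsOfSize.{u, u} (GlobModel C) := by
  haveI := isRightAdjoint_toPsh C
  haveI : Reflective (toPsh C) :=
    { L := (toPsh C).leftAdjoint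
      adj := Adjunction.ofIsRightAdjoint _ }
  exact hasColimits_of_reflective (toPsh C)

theorem hasTerminal_globModel (C : GlobTheory.{u}) : HasTerminal (GlobModel C) := by
  haveI := isRightAdjoint_toPsh C
  haveI : Reflective (toPsh C) :=
    { L := (toPsh C).leftAdjoint
      adj := Adjunction.ofIsRightAdjoint _ }
  exact hasLimitsOfShape_of_reflective (toPsh C)

end Crest.Agent.Grot
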