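import Crest.Agent.Grot.CoskTup

/-!
Row 248 chunk B2: the `K`-coskeleton of a model of a coherator.
-/

set_option autoImplicit false

open CategoryTheory CategoryTheory.Limits Opposite Crest.GeometryTopology.Coherator
open Crest.GeometryTopology.Coherator.GlobTheory Crest.GeometryTopology.Coherator.GlobPsh

universe v w u

namespace Crest.Agent.Grot

/-- chaotic above dimension `K`: parallel pairs of `l`-cells, `l ≥ K`, have a unique filler -/
def Chaotic {C : GlobTheory.{u}} (K : ℕ) (X : GlobModel C) : Prop :=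
  ∀ l, K ≤ l → ∀ x y : X.cells.cell l, X.cells.AreParallel l x y →
    ∃! z : X.cells.cell (l + 1), X.cells.src l z = x ∧ X.cells.tgt l z = y

namespace Cosk

variable {C : GlobTheory.{u}}

theorem act_one (X : GlobModel C) {S : Shape} (x : X.functor.obj (op (⟨S⟩ : C.Ob))) :
    X.act (C.one S) x = x :=
  types_congr_hom (X.functor.map_id (op (⟨S⟩ : C.Ob))) x

theorem act_seq (X : GlobModel C) {S T U : Shape} (f : C.arr S T) (g : C.arr T U)
    (x : X.functor.obj (op (⟨U⟩ : C.Ob))) :
    X.act (C.seq f g) x = X.act f (X.act g x) :=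
  types_congr_hom (X.functor.map_comp
    (Quiver.Hom.op (X := (⟨T⟩ : C.Ob)) (Y := (⟨U⟩ : C.Ob)) g)
    (Quiver.Hom.op (X := (⟨S⟩ : C.Ob)) (Y := (⟨T⟩ : C.Ob)) f)) x

theorem act_nat {X Z : GlobModel C} (f : X ⟶ Z) {S T : Shape} (o : C.arr S T)
    (x : X.functor.obj (op (⟨T⟩ : C.Ob))) :
    f.app (op (⟨S⟩ : C.Ob)) (X.act o x) = Z.act o (f.app (op (⟨T⟩ : C.Ob)) x) :=
  types_congr_hom (f.naturality (Quiver.Hom.op (X := (⟨S⟩ : C.Ob)) (Y := (⟨T⟩ : C.Ob)) o)) x

theorem src_eq (X : GlobModel C) (l : ℕ) (x : X.cells.cell (l + 1)) :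
    X.cells.src l x = X.act (C.ofShape (Shape.σ l)) x := rfl

theorem tgt_eq (X : GlobModel C) (l : ℕ) (x : X.cells.cell (l + 1)) :
    X.cells.tgt l x = X.act (C.ofShape (Shape.τ l)) x := rfl

/-- the map of shapes named by a cell -/
noncomputable def cm {l : ℕ} {S : Shape} (a : S.psh.obj (op ⟨l⟩)) : Shape.globe l ⟶ S :=
  (yonedaEquiv.symm a : yoneda.obj (GlobeObj.mk l) ⟶ S.psh)

theorem cm_app {l : ℕ} {S T : Shape} (g : S ⟶ T) (a : S.psh.obj (op ⟨l⟩)) :
    cm (S := T) ((show S.psh ⟶ T.psh from g).app _ a) = cm a ≫ g :=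
  (yonedaEquiv_symm_naturality_right (GlobeObj.mk l) (show S.psh ⟶ T.psh from g) a).symm

theorem cm_σ {l : ℕ} {S : Shape} (a : S.psh.obj (op ⟨l + 1⟩)) :
    cm (S.psh.map (GlobeObj.σ l).op a) = Shape.σ l ≫ cm a :=
  (yonedaEquiv_symm_naturality_left (GlobeObj.σ l) S.psh a).symm

theorem cm_τ {l : ℕ} {S : Shape} (a : S.psh.obj (op ⟨l + 1⟩)) :
    cm (S.psh.map (GlobeObj.τ l).op a) = Shape.τ l ≫ cm a :=
  (yonedaEquiv_symm_naturality_left (GlobeObj.τ l) S.psh a).symm

theorem cm_refl (n : ℕ) : cm (S := Shape.globe n) (arr _ _ (.refl n)) = 𝟙 (Shape.globe n) := by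
  have h : yonedaEquiv (𝟙 (yoneda.obj (GlobeObj.mk n))) = arr _ _ (.refl n) := by
    rw [yonedaEquiv_apply]; rfl
  have h2 := yonedaEquiv.symm_apply_apply (𝟙 (yoneda.obj (GlobeObj.mk n)))
  rw [h] at h2
  exact h2

theorem act_comp (X : GlobModel C) {R S T : Shape} (f : R ⟶ S) (g : S ⟶ T)
    (x : X.functor.obj (op (⟨T⟩ : C.Ob))) :
    X.act (C.ofShape (f ≫ g)) x = X.act (C.ofShape f) (X.act (C.ofShape g) x) := by
  rw [C.ofShape_comp, act_seq]

theorem act_id (X : GlobModel C) {S : Shape} (x : X.functor.obj (op (⟨S⟩ : C.Ob))) :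
    X.act (C.ofShape (𝟙 S)) x = x := by
  rw [C.ofShape_id, act_one]

variable {K : ℕ}

/-- the tuple of cells of an element of `X(S)` -/
noncomputable def can (K : ℕ) (X : GlobModel C) (S : Shape)
    (x : X.functor.obj (op (⟨S⟩ : C.Ob))) : Tup K X.cells S.psh where
  app _l _ a := X.act (C.ofShape (cm a)) x
  app_src l _ a :=
    (congrArg (fun g => X.act (C.ofShape g) x) (cm_σ a)).trans (act_comp X (Shape.σ l) (cm a) x)
  app_tgt l _ a :=
    (congrArg (fun g => X.act (C.ofShape g) x) (cm_τ a)).trans (act_comp X (Shape.τ l) (cm a) x)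

theorem can_pull (X : GlobModel C) {S T : Shape} (g : S ⟶ T)
    (x : X.functor.obj (op (⟨T⟩ : C.Ob))) :
    (can K X T x).pull (show S.psh ⟶ T.psh from g) = can K X S (X.act (C.ofShape g) x) := by
  ext l hl a
  exact (congrArg (fun g => X.act (C.ofShape g) x) (cm_app g a)).trans (act_comp X (cm a) g x)

theorem can_push {X Z : GlobModel C} (f : X ⟶ Z) {S : Shape}
    (x : X.functor.obj (op (⟨S⟩ : C.Ob))) :
    (can K X S x).push (GlobModel.cellsMap f) = can K Z S (f.app (op (⟨S⟩ : C.Ob)) x) := by
  ext l hl a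
  exact act_nat f (C.ofShape (cm a)) x

/-! ### injectivity and surjectivity of `can` -/

theorem can_refl (X : GlobModel C) {n : ℕ} (hn : n ≤ K)
    (x : X.functor.obj (op (⟨Shape.globe n⟩ : C.Ob))) :
    (can K X (Shape.globe n) x).app n hn (arr _ _ (.refl n)) = x :=
  (congrArg (fun g => X.act (C.ofShape g) x) (cm_refl n)).trans (act_id X x)

theorem can_bij_low (X : GlobModel C) {n : ℕ} (hn : n ≤ K) :
    Function.Bijective (can K X (Shape.globe n)) := by
  constructor
  · intro x y h
    have h1 := can_refl X hn x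
    rw [h, can_refl X hn y] at h1
    exact h1.symm
  · intro t
    refine ⟨t.app n hn (arr _ _ (.refl n)), ?_⟩
    exact tup_ext_low hn (can_refl X hn _)

theorem can_pull_σ (X : GlobModel C) {n : ℕ} (x : X.cells.cell (n + 1)) :
    (can K X (Shape.globe (n + 1)) x).pull (globeRepFace (Nat.lt_succ_self n) false) =
      can K X (Shape.globe n) (X.cells.src n x) :=
  can_pull X (Shape.σ n) x

theorem can_pull_τ (X : GlobModel C) {n : ℕ} (x : X.cells.cell (n + 1)) :
    (can K X (Shape.globe (n + 1)) x).pull (globeRepFace (Nat.lt_succ_self n) true) =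
      can K X (Shape.globe n) (X.cells.tgt n x) :=
  can_pull X (Shape.τ n) x

theorem src_tgt_par (G : GlobSet.{u}) (n : ℕ) (z : G.cell (n + 1)) :
    G.AreParallel n (G.src n z) (G.tgt n z) := by
  cases n with
  | zero => trivial
  | succ n => exact ⟨G.src_src n z, G.tgt_tgt n z⟩

theorem face_face {a b c : ℕ} (h : a < b) (h' : b < c) (s s' : Bool) :
    globeRepFace h s ≫ globeRepFace h' s' = globeRepFace (h.trans h') s :=
  (yoneda.map_comp (GlobeObj.faceArrow h s) (GlobeObj.faceArrow h' s')).symm

theorem pull_face_face {G : GlobSet.{u}} {n : ℕ} (t : Tup K G (globeRep (n + 1 + 1))) (s : Bool) :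
    (t.pull (globeRepFace (Nat.lt_succ_self (n + 1)) false)).pull
        (globeRepFace (Nat.lt_succ_self n) s) =
      (t.pull (globeRepFace (Nat.lt_succ_self (n + 1)) true)).pull
        (globeRepFace (Nat.lt_succ_self n) s) := by
  rw [← Tup.pull_comp, ← Tup.pull_comp, face_face, face_face]

theorem can_bij_chaotic (Z : GlobModel C) (hZ : Chaotic K Z) (n : ℕ) :
    Function.Bijective (can K Z (Shape.globe n)) := by
  induction n using Nat.strong_induction_on with
  | _ n IH =>
  cases n with
  | zero => exact can_bij_low Z (Nat.zero_le _)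
  | succ n =>
    rcases Nat.lt_or_ge n K with h1 | h1
    · exact can_bij_low Z h1
    have ih := IH n (Nat.lt_succ_self n)
    constructor
    · intro z z' h
      have h2 : can K Z (Shape.globe n) (Z.cells.src n z) =
          can K Z (Shape.globe n) (Z.cells.src n z') := by
        rw [← can_pull_σ, ← can_pull_σ, h]
      have h3 : can K Z (Shape.globe n) (Z.cells.tgt n z) =
          can K Z (Shape.globe n) (Z.cells.tgt n z') := by
        rw [← can_pull_τ, ← can_pull_τ, h]
      obtain ⟨w, -, hw⟩ := hZ n h1 _ _ (src_tgt_par Z.cells n z)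
      exact (hw z ⟨rfl, rfl⟩).trans (hw z' ⟨(ih.1 h2).symm, (ih.1 h3).symm⟩).symm
    · intro t
      obtain ⟨x, hx⟩ := ih.2 (t.pull (globeRepFace (Nat.lt_succ_self n) false))
      obtain ⟨y, hy⟩ := ih.2 (t.pull (globeRepFace (Nat.lt_succ_self n) true))
      have hpar : Z.cells.AreParallel n x y := by
        cases n with
        | zero => trivial
        | succ n =>
          have hinj := (IH n (by omega)).1
          constructor
          · apply hinj
            rw [← can_pull_σ, ← can_pull_σ, hx, hy]
            exact pull_face_face t false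
          · apply hinj
            rw [← can_pull_τ, ← can_pull_τ, hx, hy]
            exact pull_face_face t true
      obtain ⟨z, ⟨hz1, hz2⟩, -⟩ := hZ n h1 x y hpar
      refine ⟨z, ?_⟩
      apply fill_uniq h1
      · exact (can_pull_σ Z z).trans ((congrArg (can K Z (Shape.globe n)) hz1).trans hx)
      · exact (can_pull_τ Z z).trans ((congrArg (can K Z (Shape.globe n)) hz2).trans hy)

/-- the canonical map is bijective when it is so on the globes of the shape -/
theorem can_bij (X : GlobModel C) {m : ℕ} (P : Pasting m)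
    (hX : ∀ n, n ≤ P.dim → Function.Bijective (can K X (Shape.globe n))) :
    Function.Bijective (can K X ⟨m, P⟩) := by
  induction P with
  | single h => exact hX h le_rfl
  | @glue last P b h hb hh ih =>
    have hS := ih fun n hn => hX n (hn.trans (le_max_left _ _))
    have hh' := hX h (le_max_right _ _)
    have hb' := hX b (hh.le.trans (le_max_right _ _))
    let S : Shape := ⟨last, P⟩
    have hpb := X.sums S b h hb hh
    constructor
    · intro x y hxy
      apply Types.ext_of_isPullback hpb
      · apply hS.1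
        exact (can_pull X (S.inLeft b h hb hh) x).symm.trans
          ((congrArg (Tup.pull (S.inLeft b h hb hh)) hxy).trans (can_pull X (S.inLeft b h hb hh) y))
      · apply hh'.1
        exact (can_pull X (S.inRight b h hb hh) x).symm.trans
          ((congrArg (Tup.pull (S.inRight b h hb hh)) hxy).trans
            (can_pull X (S.inRight b h hb hh) y))
    · intro t
      obtain ⟨x₁, hx₁⟩ := hS.2 (t.pull (S.inLeft b h hb hh))
      obtain ⟨x₂, hx₂⟩ := hh'.2 (t.pull (S.inRight b h hb hh))
      have hw : S.hinge hb ≫ S.inLeft b h hb hh = Shape.faceMap hh false ≫ S.inRight b h hb hh :=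
        pushout.condition (f := globeRepFace hb true ≫ S.apex) (g := globeRepFace hh false)
      have hc : X.act (C.ofShape (S.hinge hb)) x₁ =
          X.act (C.ofShape (Shape.faceMap hh false)) x₂ := by
        apply hb'.1
        rw [← can_pull, ← can_pull]
        exact (congrArg (Tup.pull (S.hinge hb)) hx₁).trans
          ((congrArg (fun g => t.pull g) hw).trans
            (congrArg (Tup.pull (Shape.faceMap hh false)) hx₂).symm)
      obtain ⟨x, h1, h2⟩ := Types.exists_of_isPullback hpb x₁ x₂ hc
      refine ⟨x, ?_⟩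
      obtain ⟨t₀, -, hu⟩ := tup_glue S b h hb hh (t.pull (S.inLeft b h hb hh))
        (t.pull (S.inRight b h hb hh)) (congrArg (fun g => t.pull g) hw)
      refine (hu _ ⟨?_, ?_⟩).trans (hu t ⟨rfl, rfl⟩).symm
      · exact (can_pull X (S.inLeft b h hb hh) x).trans ((congrArg (can K X S) h1).trans hx₁)
      · exact (can_pull X (S.inRight b h hb hh) x).trans
          ((congrArg (can K X (Shape.globe h)) h2).trans hx₂)

/-! ### the theory of pairs -/

theorem hinge_w (S : Shape) (b h : ℕ) (hb : b < S.last) (hh : b < h) :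
    S.hinge hb ≫ S.inLeft b h hb hh = Shape.faceMap hh false ≫ S.inRight b h hb hh :=
  pushout.condition (f := globeRepFace hb true ≫ S.apex) (g := globeRepFace hh false)

/-- operations with a compatible action on truncated tuples -/
noncomputable def pairPre (K : ℕ) (X : GlobModel C) : PreTheory.{u} where
  arr S T := {p : C.arr S T × (Tup K X.cells T.psh → Tup K X.cells S.psh) //
    ∀ x : X.functor.obj (op (⟨T⟩ : C.Ob)), p.2 (can K X T x) = can K X S (X.act p.1 x)}
  one S := ⟨(C.one S, fun t => t), fun x => by rw [act_one]⟩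
  seq f g := ⟨(C.seq f.1.1 g.1.1, fun t => f.1.2 (g.1.2 t)), fun x => by
    rw [act_seq, ← f.2, ← g.2]⟩
  one_seq f := Subtype.ext (Prod.ext (C.one_seq _) rfl)
  seq_one f := Subtype.ext (Prod.ext (C.seq_one _) rfl)
  seq_assoc f g h := Subtype.ext (Prod.ext (C.seq_assoc _ _ _) rfl)
  ofShape {S T} f := ⟨(C.ofShape f, Tup.pull (P := S.psh) (Q := T.psh) f), fun x => can_pull X f x⟩
  ofShape_id S := Subtype.ext (Prod.ext (C.ofShape_id S) rfl)
  ofShape_comp f g := Subtype.ext (Prod.ext (C.ofShape_comp f g) rfl)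

theorem glue_ext {G : GlobSet.{u}} (S : Shape) (b h : ℕ) (hb : b < S.last) (hh : b < h)
    {t t' : Tup K G (S.glue b h hb hh).psh}
    (h1 : t.pull (S.inLeft b h hb hh) = t'.pull (S.inLeft b h hb hh))
    (h2 : t.pull (S.inRight b h hb hh) = t'.pull (S.inRight b h hb hh)) : t = t' := by
  obtain ⟨t₀, -, hu⟩ := tup_glue S b h hb hh (t.pull (S.inLeft b h hb hh))
    (t.pull (S.inRight b h hb hh)) (congrArg (fun g => t.pull g) (hinge_w S b h hb hh))
  exact (hu t ⟨rfl, rfl⟩).trans (hu t' ⟨h1.symm, h2.symm⟩).symm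

/-- the theory of pairs -/
noncomputable def pairTheory (K : ℕ) (X : GlobModel C) : GlobTheory.{u} where
  toPreTheory := pairPre K X
  respectsSums := by
    intro S b h hb hh
    refine pushout_intro _ ?_ ?_
    · apply Subtype.ext
      apply Prod.ext
      · exact (C.respectsSums S b h hb hh).w
      · funext t
        exact congrArg (fun g => t.pull g) (hinge_w S b h hb hh)
    · intro T f g hfg
      have hfg1 : C.seq (C.ofShape (S.hinge hb)) f.1.1 =
          C.seq (C.ofShape (Shape.faceMap hh false)) g.1.1 := congrArg (fun p => p.1.1) hfg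
      have hfg2 : ∀ t, (f.1.2 t).pull (S.hinge hb) = (g.1.2 t).pull (Shape.faceMap hh false) :=
        fun t => congrFun (congrArg (fun p => p.1.2) hfg) t
      obtain ⟨k, ⟨hk1, hk2⟩, hku⟩ := pushout_elim C.toPreTheory (C.respectsSums S b h hb hh)
        f.1.1 g.1.1 hfg1
      have hψ := fun t => tup_glue S b h hb hh (f.1.2 t) (g.1.2 t) (hfg2 t)
      choose ψ hψ1 hψu using hψ
      refine ⟨⟨(k, ψ), fun x => ?_⟩, ⟨?_, ?_⟩, ?_⟩
      · apply glue_ext
        · refine (hψ1 _).1.trans ((f.2 x).trans ?_)
          refine Eq.trans ?_ (can_pull X (S.inLeft b h hb hh) (X.act k x)).symm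
          rw [← act_seq, hk1]
        · refine (hψ1 _).2.trans ((g.2 x).trans ?_)
          refine Eq.trans ?_ (can_pull X (S.inRight b h hb hh) (X.act k x)).symm
          rw [← act_seq, hk2]
      · exact Subtype.ext (Prod.ext hk1 (funext fun t => (hψ1 t).1))
      · exact Subtype.ext (Prod.ext hk2 (funext fun t => (hψ1 t).2))
      · rintro k' ⟨h1, h2⟩
        apply Subtype.ext
        apply Prod.ext
        · exact hku k'.1.1 ⟨congrArg (fun p => p.1.1) h1, congrArg (fun p => p.1.1) h2⟩
        · funext t
          exact hψu t (k'.1.2 t) ⟨congrFun (congrArg (fun p => p.1.2) h1) t,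
            congrFun (congrArg (fun p => p.1.2) h2) t⟩

/-- projection to the original theory -/
noncomputable def pairProj (K : ℕ) (X : GlobModel C) : TheoryMap (pairTheory K X) C where
  map f := f.1.1
  map_one _ := rfl
  map_seq _ _ := rfl
  map_ofShape _ := rfl

theorem tpar_of_par {n : ℕ} {S : Shape} {X : GlobModel C}
    {f g : (pairTheory K X).arr (Shape.globe n) S}
    (h : (pairTheory K X).OpsParallel n f g) (t : Tup K X.cells S.psh) :
    TPar (f.1.2 t) (g.1.2 t) := by
  cases n with
  | zero => trivial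
  | succ n =>
    exact ⟨congrFun (congrArg (fun p => p.1.2) h.1) t, congrFun (congrArg (fun p => p.1.2) h.2) t⟩

theorem pair_lifting (K : ℕ) (X : GlobModel C) : FillerLifting (pairProj K X) := by
  rintro ⟨n, S, hd, f, g, hp⟩ z ⟨hz1, hz2⟩
  change C.seq (C.ofShape (Shape.σ n)) z = f.1.1 at hz1
  change C.seq (C.ofShape (Shape.τ n)) z = g.1.1 at hz2
  have hzs : ∀ x : X.functor.obj (op (⟨S⟩ : C.Ob)),
      (can K X (Shape.globe (n + 1)) (X.act z x)).pull
        (globeRepFace (Nat.lt_succ_self n) false) = f.1.2 (can K X S x) := by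
    intro x
    refine (can_pull X (Shape.σ n) (X.act z x)).trans ?_
    rw [← act_seq, hz1]
    exact (f.2 x).symm
  have hzt : ∀ x : X.functor.obj (op (⟨S⟩ : C.Ob)),
      (can K X (Shape.globe (n + 1)) (X.act z x)).pull
        (globeRepFace (Nat.lt_succ_self n) true) = g.1.2 (can K X S x) := by
    intro x
    refine (can_pull X (Shape.τ n) (X.act z x)).trans ?_
    rw [← act_seq, hz2]
    exact (g.2 x).symm
  rcases Nat.lt_or_ge n K with hn | hn
  · -- low dimension: transport along the bijection
    have hbij : Function.Bijective (can K X S) :=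
      can_bij X S.pasting fun k hk => can_bij_low X (hk.trans (hd.trans hn))
    let e := Equiv.ofBijective _ hbij
    refine ⟨⟨(z, fun t => can K X (Shape.globe (n + 1)) (X.act z (e.symm t))), fun x => ?_⟩,
      ⟨?_, ?_⟩, rfl⟩
    · have : e.symm (can K X S x) = x := e.symm_apply_apply x
      simp only [this]
    · apply Subtype.ext
      apply Prod.ext
      · exact hz1
      · funext t
        refine (hzs (e.symm t)).trans ?_
        exact congrArg f.1.2 (e.apply_symm_apply t)
    · apply Subtype.ext
      apply Prod.ext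
      · exact hz2
      · funext t
        refine (hzt (e.symm t)).trans ?_
        exact congrArg g.1.2 (e.apply_symm_apply t)
  · -- high dimension: unique fillers
    refine ⟨⟨(z, fun t => fill hn (f.1.2 t) (g.1.2 t) (tpar_of_par hp t)), fun x => ?_⟩,
      ⟨?_, ?_⟩, rfl⟩
    · apply fill_uniq hn
      · exact (fill_src hn _ _ (tpar_of_par hp _)).trans (hzs x).symm
      · exact (fill_tgt hn _ _ (tpar_of_par hp _)).trans (hzt x).symm
    · apply Subtype.ext
      apply Prod.ext
      · exact hz1
      · funext t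
        exact fill_src hn _ _ (tpar_of_par hp t)
    · apply Subtype.ext
      apply Prod.ext
      · exact hz2
      · funext t
        exact fill_tgt hn _ _ (tpar_of_par hp t)

/-! ### the coskeleton -/

section Model

variable {X : GlobModel C} (s : TheoryMap C (pairTheory K X))

/-- the action on tuples -/
noncomputable def tact {S T : Shape} (o : C.arr S T) (t : Tup K X.cells T.psh) :
    Tup K X.cells S.psh := (s.map o).1.2 t

theorem tact_seq {S T U : Shape} (f : C.arr S T) (g : C.arr T U) (t : Tup K X.cells U.psh) :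
    tact s (C.seq f g) t = tact s f (tact s g t) :=
  congrFun (congrArg (fun p => p.1.2) (s.map_seq f g)) t

theorem tact_one {S : Shape} (t : Tup K X.cells S.psh) : tact s (C.one S) t = t :=
  congrFun (congrArg (fun p => p.1.2) (s.map_one S)) t

theorem tact_ofShape {S T : Shape} (f : S ⟶ T) (t : Tup K X.cells T.psh) :
    tact s (C.ofShape f) t = t.pull (P := S.psh) (Q := T.psh) f :=
  congrFun (congrArg (fun p => p.1.2) (s.map_ofShape f)) t

theorem tact_can (hs : s.comp (pairProj K X) = TheoryMap.id C) {S T : Shape} (o : C.arr S T)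
    (x : X.functor.obj (op (⟨T⟩ : C.Ob))) :
    tact s o (can K X T x) = can K X S (X.act o x) := by
  have h1 : (s.map o).1.1 = o := by
    have h2 : (s.comp (pairProj K X)).map o = (TheoryMap.id C).map o := by rw [hs]
    exact h2
  have h3 := (s.map o).2 x
  rw [h1] at h3
  exact h3

/-- the coskeleton of `X` -/
noncomputable def coskModel : GlobModel C where
  functor :=
    { obj := fun S => Tup K X.cells S.unop.shape.psh
      map := fun {S T} o => ↾fun t => tact s (S := T.unop.shape) (T := S.unop.shape) o.unop t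
      map_id := fun S => ConcreteCategory.hom_ext _ _ fun t => tact_one s t
      map_comp := fun {S T U} f g => ConcreteCategory.hom_ext _ _ fun t => by
        exact tact_seq s (S := U.unop.shape) (T := T.unop.shape) (U := S.unop.shape)
          g.unop f.unop t }
  sums := by
    intro S b h hb hh
    rw [Types.isPullback_iff]
    refine ⟨?_, ?_, ?_⟩
    · refine ConcreteCategory.hom_ext _ _ fun t => ?_
      change tact s (C.ofShape (S.hinge hb)) (tact s (C.ofShape (S.inLeft b h hb hh)) t) =
        tact s (C.ofShape (Shape.faceMap hh false)) (tact s (C.ofShape (S.inRight b h hb hh)) t)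
      rw [tact_ofShape, tact_ofShape, tact_ofShape, tact_ofShape]
      exact congrArg (fun g => t.pull g) (hinge_w S b h hb hh)
    · rintro t t' ⟨h1, h2⟩
      change tact s (C.ofShape (S.inLeft b h hb hh)) t =
        tact s (C.ofShape (S.inLeft b h hb hh)) t' at h1
      change tact s (C.ofShape (S.inRight b h hb hh)) t =
        tact s (C.ofShape (S.inRight b h hb hh)) t' at h2
      rw [tact_ofShape, tact_ofShape] at h1 h2
      exact glue_ext S b h hb hh h1 h2
    · intro t₁ t₂ h1
      change tact s (C.ofShape (S.hinge hb)) t₁ =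
        tact s (C.ofShape (Shape.faceMap hh false)) t₂ at h1
      rw [tact_ofShape, tact_ofShape] at h1
      obtain ⟨t, ⟨h2, h3⟩, -⟩ := tup_glue S b h hb hh t₁ t₂ h1
      refine ⟨t, ?_, ?_⟩
      · change tact s (C.ofShape (S.inLeft b h hb hh)) t = t₁
        rw [tact_ofShape]
        exact h2
      · change tact s (C.ofShape (S.inRight b h hb hh)) t = t₂
        rw [tact_ofShape]
        exact h3

/-- the unit of the coskeleton -/
noncomputable def coskUnit (hs : s.comp (pairProj K X) = TheoryMap.id C) :
    X ⟶ coskModel s :=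
  ({ app := fun S => ↾fun x => can K X S.unop.shape x
     naturality := fun S T o => by
      ext x
      exact (tact_can s hs (S := T.unop.shape) (T := S.unop.shape) o.unop x).symm } :
    X.functor ⟶ (coskModel s).functor)

theorem cosk_src (l : ℕ) (z : (coskModel s).cells.cell (l + 1)) :
    (coskModel s).cells.src l z =
      Tup.pull (globeRepFace (Nat.lt_succ_self l) false)
        (show Tup K X.cells (globeRep (l + 1)) from z) :=
  tact_ofShape s (Shape.σ l) z

theorem cosk_tgt (l : ℕ) (z : (coskModel s).cells.cell (l + 1)) :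
    (coskModel s).cells.tgt l z =
      Tup.pull (globeRepFace (Nat.lt_succ_self l) true)
        (show Tup K X.cells (globeRep (l + 1)) from z) :=
  tact_ofShape s (Shape.τ l) z

theorem cosk_chaotic : Chaotic K (coskModel s) := by
  intro l hl x y hxy
  have hpar : TPar (K := K) (G := X.cells) (l := l) x y := by
    cases l with
    | zero => trivial
    | succ l =>
      obtain ⟨h1, h2⟩ := hxy
      rw [cosk_src, cosk_src] at h1
      rw [cosk_tgt, cosk_tgt] at h2
      exact ⟨h1, h2⟩
  refine ⟨fill hl x y hpar, ⟨?_, ?_⟩, ?_⟩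
  · rw [cosk_src]
    exact fill_src hl x y hpar
  · rw [cosk_tgt]
    exact fill_tgt hl x y hpar
  · rintro z ⟨h1, h2⟩
    rw [cosk_src] at h1
    rw [cosk_tgt] at h2
    apply fill_uniq hl
    · exact h1.trans (fill_src hl x y hpar).symm
    · exact h2.trans (fill_tgt hl x y hpar).symm

end Model

end Cosk

open Cosk in
theorem exists_cosk {C : GlobTheory.{u}} (hC : C.IsCoheratorTheory) (K : ℕ) (X : GlobModel C) :
    ∃ (Y : GlobModel C) (η : X ⟶ Y), Chaotic K Y ∧
      (∀ l, l ≤ K → Function.Bijective ((GlobModel.cellsMap η).app l)) ∧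
      ∀ Z : GlobModel C, Chaotic K Z → ∀ f : X ⟶ Z, ∃! g : Y ⟶ Z, η ≫ g = f := by
  obtain ⟨s, hs⟩ := exists_section hC.1 (pairProj K X) (pair_lifting K X)
  refine ⟨coskModel s, coskUnit s hs, cosk_chaotic s, fun l hl => can_bij_low X hl, ?_⟩
  intro Z hZ f
  -- bijectivity of the canonical maps of `Z`
  have hbij : ∀ S : Shape, Function.Bijective (can K Z S) := fun S =>
    can_bij Z S.pasting fun n _ => can_bij_chaotic Z hZ n
  let e : ∀ S : Shape, Z.functor.obj (op (⟨S⟩ : C.Ob)) ≃ Tup K Z.cells S.psh := fun S =>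
    Equiv.ofBijective _ (hbij S)
  let gf : ∀ S : Shape, Tup K X.cells S.psh → Z.functor.obj (op (⟨S⟩ : C.Ob)) := fun S t =>
    (e S).symm (t.push (GlobModel.cellsMap f))
  have hgf : ∀ (S : Shape) (t : Tup K X.cells S.psh),
      can K Z S (gf S t) = t.push (GlobModel.cellsMap f) := fun S t =>
    (e S).apply_symm_apply _
  have hgcan : ∀ (S : Shape) (x : X.functor.obj (op (⟨S⟩ : C.Ob))),
      gf S (can K X S x) = f.app (op (⟨S⟩ : C.Ob)) x := by
    intro S x
    apply (hbij S).1
    rw [hgf, can_push]
  have hshape : ∀ {S T : Shape} (g : S ⟶ T) (t : Tup K X.cells T.psh),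
      gf S (tact s (C.ofShape g) t) = Z.act (C.ofShape g) (gf T t) := by
    intro S T g t
    apply (hbij S).1
    rw [hgf, tact_ofShape]
    refine Eq.trans ?_ (can_pull Z g (gf T t))
    rw [hgf]
    rfl
  have hnat : ∀ {S T : Shape} (o : C.arr S T) (t : Tup K X.cells T.psh),
      gf S (tact s o t) = Z.act o (gf T t) := by
    intro S T o
    refine arrow_induction hC.1 (fun {S T} o => ∀ t : Tup K X.cells T.psh,
      gf S (tact s o t) = Z.act o (gf T t)) (fun {S T} g t => hshape g t) ?_ ?_ ?_ o
    · intro S T U f g hf hg t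
      rw [tact_seq, hf, hg, act_seq]
    · intro S b h hb hh T f h1 h2 t
      apply Types.ext_of_isPullback (Z.sums S b h hb hh)
      · change Z.act (C.ofShape (S.inLeft b h hb hh)) _ = Z.act (C.ofShape (S.inLeft b h hb hh)) _
        rw [← hshape, ← tact_seq, h1, act_seq]
      · change Z.act (C.ofShape (S.inRight b h hb hh)) _ = Z.act (C.ofShape (S.inRight b h hb hh)) _
        rw [← hshape, ← tact_seq, h2, act_seq]
    · intro m S hS z h1 h2 t
      rcases Nat.lt_or_ge m K with hm | hm
      · obtain ⟨x, rfl⟩ := (can_bij X S.pasting fun k hk =>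
          can_bij_low X (hk.trans (hS.trans hm)) : Function.Bijective (can K X S)).2 t
        rw [tact_can s hs, hgcan, hgcan, act_nat]
      · obtain ⟨w, -, hw⟩ := hZ m hm _ _
          (src_tgt_par Z.cells m (Z.act z (gf S t)))
        refine (hw _ ⟨?_, ?_⟩).trans (hw _ ⟨rfl, rfl⟩).symm
        · rw [src_eq, src_eq, ← hshape, ← tact_seq, h1, act_seq]
          rfl
        · rw [tgt_eq, tgt_eq, ← hshape, ← tact_seq, h2, act_seq]
          rfl
  let g : coskModel s ⟶ Z :=
    ({ app := fun S => ↾fun t => gf S.unop.shape t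
       naturality := fun S T o => by
        ext t
        exact hnat (S := T.unop.shape) (T := S.unop.shape) o.unop t } :
      (coskModel s).functor ⟶ Z.functor)
  refine ⟨g, ?_, ?_⟩
  · apply NatTrans.ext
    funext S
    ext x
    exact hgcan S.unop.shape x
  · intro g' hg'
    apply NatTrans.ext
    funext S
    ext t
    apply (hbij S.unop.shape).1
    refine Eq.trans ?_ (hgf S.unop.shape t).symm
    ext l hl a
    change Z.act (C.ofShape (cm a)) (g'.app S t) = f.app (op (⟨Shape.globe l⟩ : C.Ob)) (t.app l hl a)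
    have h1 := act_nat g' (C.ofShape (cm a)) t
    have hcm : (show (Shape.globe l).psh ⟶ S.unop.shape.psh from cm a).app (op ⟨l⟩)
        (Cosk.arr _ _ (.refl l)) = a :=
      yonedaEquiv.apply_symm_apply a
    have h2 : (coskModel s).act (C.ofShape (cm a)) t =
        (coskUnit s hs).app (op (⟨Shape.globe l⟩ : C.Ob)) (t.app l hl a) := by
      refine (tact_ofShape s (cm a) t).trans ?_
      apply tup_ext_low hl
      refine Eq.trans ?_ (can_refl X hl (t.app l hl a)).symm
      exact congrArg (t.app l hl) hcm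
    rw [← h1]
    refine (congrArg (g'.app (op (⟨Shape.globe l⟩ : C.Ob))) h2).trans ?_
    have h3 : ((coskUnit s hs) ≫ g').app (op (⟨Shape.globe l⟩ : C.Ob)) (t.app l hl a) =
        f.app (op (⟨Shape.globe l⟩ : C.Ob)) (t.app l hl a) := by rw [hg']
    exact h3

end Crest.Agent.Grot
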