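import Crest.Agent.Grot.Lift

/-!
Row 248 chunk B2, part 1: `K`-truncated tuples of cells of a globular set, indexed by a presheaf on
globes.
-/

set_option autoImplicit false

open CategoryTheory CategoryTheory.Limits Opposite Crest.GeometryTopology.Coherator
open Crest.GeometryTopology.Coherator.GlobTheory Crest.GeometryTopology.Coherator.GlobPsh

universe v w u

namespace Crest.Agent.Grot
namespace Cosk

theorem types_desc {A B C P : Type} {f : A ⟶ B} {g : A ⟶ C} {i : B ⟶ P} {j : C ⟶ P}
    (h : IsPushout f g i j) {T : Type u} (φ : B → T) (ψ : C → T)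
    (hc : ∀ a, φ (f a) = ψ (g a)) :
    ∃! χ : P → T, (∀ b, χ (i b) = φ b) ∧ (∀ c, χ (j c) = ψ c) := by
  have h' := h.map (uliftFunctor.{u, 0})
  let φ' : uliftFunctor.{u, 0}.obj B ⟶ T := ↾fun x => φ x.down
  let ψ' : uliftFunctor.{u, 0}.obj C ⟶ T := ↾fun x => ψ x.down
  have hw : uliftFunctor.{u, 0}.map f ≫ φ' = uliftFunctor.{u, 0}.map g ≫ ψ' := by
    ext ⟨a⟩; exact hc a
  refine ⟨fun p => h'.desc φ' ψ' hw ⟨p⟩, ⟨fun b => ?_, fun c => ?_⟩, ?_⟩
  · exact types_congr_hom (h'.inl_desc φ' ψ' hw) ⟨b⟩
  · exact types_congr_hom (h'.inr_desc φ' ψ' hw) ⟨c⟩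
  · rintro χ ⟨h1, h2⟩
    have h3 : (↾fun x : ULift.{u} P => χ x.down : uliftFunctor.{u, 0}.obj P ⟶ T) =
        h'.desc φ' ψ' hw := by
      apply h'.hom_ext
      · rw [h'.inl_desc]; ext ⟨b⟩; exact h1 b
      · rw [h'.inr_desc]; ext ⟨c⟩; exact h2 c
    funext p
    exact types_congr_hom h3 ⟨p⟩

theorem level_pushout (S : Shape) (b h : ℕ) (hb : b < S.last) (hh : b < h) (l : ℕ) :
    IsPushout ((globeRepFace hb true ≫ S.apex).app (op ⟨l⟩))
      ((globeRepFace hh false).app (op ⟨l⟩))
      ((pushout.inl (globeRepFace hb true ≫ S.apex) (globeRepFace hh false)).app (op ⟨l⟩))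
      ((pushout.inr (globeRepFace hb true ≫ S.apex) (globeRepFace hh false)).app (op ⟨l⟩)) := by
  have h1 := IsPushout.of_hasPushout (globeRepFace hb true ≫ S.apex) (globeRepFace hh false)
  exact h1.map ((evaluation _ _).obj (op ⟨l⟩))

/-- `K`-truncated tuples of cells -/
@[ext]
structure Tup (K : ℕ) (G : GlobSet.{u}) (P : GlobPsh.{0}) where
  app : ∀ l, l ≤ K → P.obj (op ⟨l⟩) → G.cell l
  app_src : ∀ l (h : l + 1 ≤ K) (a : P.obj (op ⟨l + 1⟩)),
    app l (by omega) (P.map (GlobeObj.σ l).op a) = G.src l (app (l + 1) h a)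
  app_tgt : ∀ l (h : l + 1 ≤ K) (a : P.obj (op ⟨l + 1⟩)),
    app l (by omega) (P.map (GlobeObj.τ l).op a) = G.tgt l (app (l + 1) h a)

variable {K : ℕ} {G G' : GlobSet.{u}}

/-- precomposition -/
def Tup.pull {P Q : GlobPsh.{0}} (g : P ⟶ Q) (t : Tup K G Q) : Tup K G P where
  app l h a := t.app l h (g.app _ a)
  app_src l h a := by
    rw [← t.app_src]
    exact congrArg (t.app l _) (types_congr_hom (g.naturality (GlobeObj.σ l).op) a)
  app_tgt l h a := by
    rw [← t.app_tgt]
    exact congrArg (t.app l _) (types_congr_hom (g.naturality (GlobeObj.τ l).op) a)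

theorem Tup.pull_comp {P Q R : GlobPsh.{0}} (f : P ⟶ Q) (g : Q ⟶ R) (t : Tup K G R) :
    t.pull (f ≫ g) = (t.pull g).pull f := rfl

theorem Tup.pull_id {P : GlobPsh.{0}} (t : Tup K G P) : t.pull (𝟙 P) = t := rfl

/-- postcomposition -/
def Tup.push {P : GlobPsh.{0}} (f : G.Map G') (t : Tup K G P) : Tup K G' P where
  app l h a := f.app l (t.app l h a)
  app_src l h a := by rw [t.app_src, f.app_src]
  app_tgt l h a := by rw [t.app_tgt, f.app_tgt]

theorem Tup.push_pull {P Q : GlobPsh.{0}} (f : G.Map G') (g : P ⟶ Q) (t : Tup K G Q) :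
    (t.pull g).push f = (t.push f).pull g := rfl

/-- tuples on a glued shape -/
theorem tup_glue (S : Shape) (b h : ℕ) (hb : b < S.last) (hh : b < h) (t₁ : Tup K G S.psh)
    (t₂ : Tup K G (globeRep h))
    (hc : t₁.pull (S.hinge hb) = t₂.pull (Shape.faceMap hh false)) :
    ∃! t : Tup K G (S.glue b h hb hh).psh, t.pull (S.inLeft b h hb hh) = t₁ ∧
      t.pull (S.inRight b h hb hh) = t₂ := by
  have key : ∀ l (hl : l ≤ K), ∃! χ : (S.glue b h hb hh).psh.obj (op ⟨l⟩) → G.cell l,
      (∀ x, χ ((S.inLeft b h hb hh).app _ x) = t₁.app l hl x) ∧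
        (∀ x, χ ((S.inRight b h hb hh).app _ x) = t₂.app l hl x) := by
    intro l hl
    refine types_desc (level_pushout S b h hb hh l) (t₁.app l hl) (t₂.app l hl) fun a => ?_
    exact congrFun (congrFun (congrFun (congrArg Tup.app hc) l) hl) a
  have ext' : ∀ l (_ : l ≤ K) (χ χ' : (S.glue b h hb hh).psh.obj (op ⟨l⟩) → G.cell l),
      (∀ x, χ ((S.inLeft b h hb hh).app _ x) = χ' ((S.inLeft b h hb hh).app _ x)) →
      (∀ x, χ ((S.inRight b h hb hh).app _ x) = χ' ((S.inRight b h hb hh).app _ x)) →
      χ = χ' := by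
    intro l hl χ χ' h1 h2
    obtain ⟨χ₀, -, hu⟩ := types_desc (level_pushout S b h hb hh l)
      (fun x => χ ((S.inLeft b h hb hh).app _ x)) (fun x => χ ((S.inRight b h hb hh).app _ x))
      (fun a => congrArg χ (types_congr_hom (level_pushout S b h hb hh l).w a))
    rw [hu χ ⟨fun _ => rfl, fun _ => rfl⟩, hu χ' ⟨fun x => (h1 x).symm, fun x => (h2 x).symm⟩]
  -- the same with values one dimension down
  have ext'' : ∀ l (_ : l + 1 ≤ K)
      (χ χ' : (S.glue b h hb hh).psh.obj (op ⟨l + 1⟩) → G.cell l),
      (∀ x, χ ((S.inLeft b h hb hh).app _ x) = χ' ((S.inLeft b h hb hh).app _ x)) →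
      (∀ x, χ ((S.inRight b h hb hh).app _ x) = χ' ((S.inRight b h hb hh).app _ x)) →
      χ = χ' := by
    intro l hl χ χ' h1 h2
    obtain ⟨χ₀, -, hu⟩ := types_desc (level_pushout S b h hb hh (l + 1))
      (fun x => χ ((S.inLeft b h hb hh).app _ x)) (fun x => χ ((S.inRight b h hb hh).app _ x))
      (fun a => congrArg χ (types_congr_hom (level_pushout S b h hb hh (l + 1)).w a))
    rw [hu χ ⟨fun _ => rfl, fun _ => rfl⟩, hu χ' ⟨fun x => (h1 x).symm, fun x => (h2 x).symm⟩]
  choose χ hχ hχu using key
  refine ⟨⟨χ, ?_, ?_⟩, ⟨?_, ?_⟩, ?_⟩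
  · intro l hl a
    revert a
    apply congrFun
    apply ext'' l hl
    · intro x
      have h1 := types_congr_hom ((S.inLeft b h hb hh).naturality (GlobeObj.σ l).op) x
      have h2 := (hχ l (by omega)).1 (S.psh.map (GlobeObj.σ l).op x)
      have h3 := (hχ (l + 1) hl).1 x
      have h4 := t₁.app_src l hl x
      calc χ l _ ((S.glue b h hb hh).psh.map (GlobeObj.σ l).op ((S.inLeft b h hb hh).app _ x))
          = χ l _ ((S.inLeft b h hb hh).app _ (S.psh.map (GlobeObj.σ l).op x)) :=
            congrArg (χ l _) h1.symm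
        _ = _ := by rw [h2, h4, ← h3]
    · intro x
      have h1 := types_congr_hom ((S.inRight b h hb hh).naturality (GlobeObj.σ l).op) x
      have h2 := (hχ l (by omega)).2 ((Shape.globe h).psh.map (GlobeObj.σ l).op x)
      have h3 := (hχ (l + 1) hl).2 x
      have h4 := t₂.app_src l hl x
      calc χ l _ ((S.glue b h hb hh).psh.map (GlobeObj.σ l).op ((S.inRight b h hb hh).app _ x))
          = χ l _ ((S.inRight b h hb hh).app _ ((Shape.globe h).psh.map (GlobeObj.σ l).op x)) :=
            congrArg (χ l _) h1.symm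
        _ = _ := by rw [h2, h3]; exact h4
  · intro l hl a
    revert a
    apply congrFun
    apply ext'' l hl
    · intro x
      have h1 := types_congr_hom ((S.inLeft b h hb hh).naturality (GlobeObj.τ l).op) x
      have h2 := (hχ l (by omega)).1 (S.psh.map (GlobeObj.τ l).op x)
      have h3 := (hχ (l + 1) hl).1 x
      have h4 := t₁.app_tgt l hl x
      calc χ l _ ((S.glue b h hb hh).psh.map (GlobeObj.τ l).op ((S.inLeft b h hb hh).app _ x))
          = χ l _ ((S.inLeft b h hb hh).app _ (S.psh.map (GlobeObj.τ l).op x)) :=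
            congrArg (χ l _) h1.symm
        _ = _ := by rw [h2, h4, ← h3]
    · intro x
      have h1 := types_congr_hom ((S.inRight b h hb hh).naturality (GlobeObj.τ l).op) x
      have h2 := (hχ l (by omega)).2 ((Shape.globe h).psh.map (GlobeObj.τ l).op x)
      have h3 := (hχ (l + 1) hl).2 x
      have h4 := t₂.app_tgt l hl x
      calc χ l _ ((S.glue b h hb hh).psh.map (GlobeObj.τ l).op ((S.inRight b h hb hh).app _ x))
          = χ l _ ((S.inRight b h hb hh).app _ ((Shape.globe h).psh.map (GlobeObj.τ l).op x)) :=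
            congrArg (χ l _) h1.symm
        _ = _ := by rw [h2, h3]; exact h4
  · ext l hl x
    exact (hχ l hl).1 x
  · ext l hl x
    exact (hχ l hl).2 x
  · rintro t ⟨h1, h2⟩
    ext l hl x
    have h3 := hχu l hl (t.app l hl) ⟨fun y => ?_, fun y => ?_⟩
    · exact congrFun h3 x
    · exact congrFun (congrFun (congrFun (congrArg Tup.app h1) l) hl) y
    · exact congrFun (congrFun (congrFun (congrArg Tup.app h2) l) hl) y

/-! ### tuples on globes -/

/-- cells of a globe -/
abbrev arr (l n : ℕ) (a : GlobeObj.Arrow l n) : (globeRep n).obj (op ⟨l⟩) :=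
  (a : (GlobeObj.mk l ⟶ GlobeObj.mk n))

theorem map_σ_refl (l : ℕ) : (globeRep (l + 1)).map (GlobeObj.σ l).op (arr _ _ (.refl (l + 1))) =
    arr _ _ (.pole (Nat.lt_succ_self l) false) := rfl

theorem map_τ_refl (l : ℕ) : (globeRep (l + 1)).map (GlobeObj.τ l).op (arr _ _ (.refl (l + 1))) =
    arr _ _ (.pole (Nat.lt_succ_self l) true) := rfl

theorem map_σ_pole {l n : ℕ} (h : l + 1 < n) (s : Bool) :
    (globeRep n).map (GlobeObj.σ l).op (arr _ _ (.pole h s)) =
    arr _ _ (.pole ((Nat.lt_succ_self l).trans h) false) := rfl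

theorem map_τ_pole {l n : ℕ} (h : l + 1 < n) (s : Bool) :
    (globeRep n).map (GlobeObj.τ l).op (arr _ _ (.pole h s)) =
    arr _ _ (.pole ((Nat.lt_succ_self l).trans h) true) := rfl

/-- a tuple on a low dimensional globe is determined by its top cell -/
theorem tup_ext_low {n : ℕ} (hn : n ≤ K) {t t' : Tup K G (globeRep n)}
    (h : t.app n hn (arr _ _ (.refl n)) = t'.app n hn (arr _ _ (.refl n))) : t = t' := by
  have key : ∀ d k : ℕ, k + d = n → ∀ (hk : k ≤ K) (a : GlobeObj.Arrow k n),
      t.app k hk (arr _ _ a) = t'.app k hk (arr _ _ a) := by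
    intro d
    induction d with
    | zero =>
      intro k hkn hk a
      obtain rfl : k = n := by omega
      cases a with
      | refl => exact h
      | pole lt => exact absurd lt (lt_irrefl _)
    | succ d ih =>
      intro k hkn hk a
      cases a with
      | refl => omega
      | pole lt s =>
        have hk1 : k + 1 ≤ K := by omega
        -- a cell one dimension up
        obtain ⟨a', ha1, ha2⟩ : ∃ a' : GlobeObj.Arrow (k + 1) n,
            (globeRep n).map (GlobeObj.σ k).op (arr _ _ a') = arr _ _ (.pole lt false) ∧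
            (globeRep n).map (GlobeObj.τ k).op (arr _ _ a') = arr _ _ (.pole lt true) := by
          rcases Nat.lt_or_ge (k + 1) n with h1 | h1
          · exact ⟨.pole h1 false, rfl, rfl⟩
          · obtain rfl : n = k + 1 := by omega
            exact ⟨.refl _, rfl, rfl⟩
        have h2 := ih (k + 1) (by omega) hk1 a'
        cases s with
        | false =>
          have h3 := t.app_src k hk1 (arr _ _ a')
          have h4 := t'.app_src k hk1 (arr _ _ a')
          rw [ha1] at h3 h4
          rw [h3, h4, h2]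
        | true =>
          have h3 := t.app_tgt k hk1 (arr _ _ a')
          have h4 := t'.app_tgt k hk1 (arr _ _ a')
          rw [ha2] at h3 h4
          rw [h3, h4, h2]
  ext k hk a
  rcases Nat.lt_or_ge n k with h1 | h1
  · cases (a : GlobeObj.Arrow k n) with
    | refl => exact absurd h1 (lt_irrefl _)
    | pole lt => exact absurd (lt_trans h1 lt) (lt_irrefl _)
  · exact key (n - k) k (by omega) hk a

/-- parallel tuples on a globe -/
def TPar : {l : ℕ} → (x y : Tup K G (globeRep l)) → Prop
  | 0, _, _ => True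
  | l + 1, x, y =>
    x.pull (globeRepFace (Nat.lt_succ_self l) false) =
        y.pull (globeRepFace (Nat.lt_succ_self l) false) ∧
      x.pull (globeRepFace (Nat.lt_succ_self l) true) =
        y.pull (globeRepFace (Nat.lt_succ_self l) true)

theorem TPar.pole {l : ℕ} {x y : Tup K G (globeRep l)} (h : TPar x y) {k : ℕ} (hk : k ≤ K)
    (hkl : k < l) (s : Bool) :
    x.app k hk (arr _ _ (.pole hkl s)) = y.app k hk (arr _ _ (.pole hkl s)) := by
  cases l with
  | zero => omega
  | succ l =>
    obtain ⟨h1, h2⟩ := h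
    rcases Nat.lt_or_ge k l with h3 | h3
    · exact congrFun (congrFun (congrFun (congrArg Tup.app h1) k) hk) (arr _ _ (.pole h3 s))
    · obtain rfl : k = l := by omega
      cases s with
      | false => exact congrFun (congrFun (congrFun (congrArg Tup.app h1) k) hk) (arr _ _ (.refl k))
      | true => exact congrFun (congrFun (congrFun (congrArg Tup.app h2) k) hk) (arr _ _ (.refl k))

/-- the face one dimension down -/
def low {k l : ℕ} (h : k ≤ l) (s : Bool) : GlobeObj.Arrow k l :=
  if hkl : k < l then .pole hkl s else (le_antisymm h (not_lt.1 hkl)) ▸ .refl k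

theorem low_lt {k l : ℕ} (h : k < l) (s : Bool) : low h.le s = .pole h s := dif_pos h

theorem low_self (k : ℕ) (s : Bool) : low (le_refl k) s = .refl k := by
  simp [low]

/-- the value of the filler -/
def fillVal {l : ℕ} (hl : K ≤ l) (x y : Tup K G (globeRep l)) : (k : ℕ) → (hk : k ≤ K) →
    GlobeObj.Arrow k (l + 1) → G.cell k
  | _, hk, .refl _ => absurd (Nat.le_trans hk hl) (Nat.not_succ_le_self l)
  | k, hk, .pole _ false => x.app k hk (arr _ _ (low (hk.trans hl) false))
  | k, hk, .pole _ true => y.app k hk (arr _ _ (low (hk.trans hl) true))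

/-- the filler of a parallel pair above dimension `K` -/
def fill {l : ℕ} (hl : K ≤ l) (x y : Tup K G (globeRep l)) (h : TPar x y) :
    Tup K G (globeRep (l + 1)) where
  app k hk a := fillVal hl x y k hk a
  app_src k hk a := by
    cases (a : GlobeObj.Arrow (k + 1) (l + 1)) with
    | refl => omega
    | pole lt s =>
      have hkl : k < l := by omega
      have h1 : ∀ s', (globeRep l).map (GlobeObj.σ k).op (arr _ _ (low (hk.trans hl) s')) =
          arr _ _ (.pole hkl false) := by
        intro s'
        rcases Nat.lt_or_ge (k + 1) l with h2 | h2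
        · rw [low_lt h2]; rfl
        · obtain rfl : l = k + 1 := by omega
          rw [low_self]; rfl
      change x.app k _ (arr _ _ (low _ false)) = G.src k (fillVal hl x y (k + 1) hk (.pole lt s))
      rw [low_lt hkl]
      cases s with
      | false =>
        change _ = G.src k (x.app (k + 1) hk (arr _ _ (low (hk.trans hl) false)))
        rw [← x.app_src, h1]
      | true =>
        change _ = G.src k (y.app (k + 1) hk (arr _ _ (low (hk.trans hl) true)))
        rw [← y.app_src, h1]
        exact h.pole _ hkl false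
  app_tgt k hk a := by
    cases (a : GlobeObj.Arrow (k + 1) (l + 1)) with
    | refl => omega
    | pole lt s =>
      have hkl : k < l := by omega
      have h1 : ∀ s', (globeRep l).map (GlobeObj.τ k).op (arr _ _ (low (hk.trans hl) s')) =
          arr _ _ (.pole hkl true) := by
        intro s'
        rcases Nat.lt_or_ge (k + 1) l with h2 | h2
        · rw [low_lt h2]; rfl
        · obtain rfl : l = k + 1 := by omega
          rw [low_self]; rfl
      change y.app k _ (arr _ _ (low _ true)) = G.tgt k (fillVal hl x y (k + 1) hk (.pole lt s))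
      rw [low_lt hkl]
      cases s with
      | false =>
        change _ = G.tgt k (x.app (k + 1) hk (arr _ _ (low (hk.trans hl) false)))
        rw [← x.app_tgt, h1]
        exact (h.pole _ hkl true).symm
      | true =>
        change _ = G.tgt k (y.app (k + 1) hk (arr _ _ (low (hk.trans hl) true)))
        rw [← y.app_tgt, h1]

theorem fill_src {l : ℕ} (hl : K ≤ l) (x y : Tup K G (globeRep l)) (h : TPar x y) :
    (fill hl x y h).pull (globeRepFace (Nat.lt_succ_self l) false) = x := by
  ext k hk a
  cases (a : GlobeObj.Arrow k l) with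
  | refl =>
    change x.app _ hk (arr _ _ (low _ false)) = _
    rw [low_self]
  | pole lt s =>
    cases s with
    | false =>
      change x.app k hk (arr _ _ (low _ false)) = _
      rw [low_lt lt]
    | true =>
      change y.app k hk (arr _ _ (low _ true)) = _
      rw [low_lt lt]
      exact (h.pole hk lt true).symm

theorem fill_tgt {l : ℕ} (hl : K ≤ l) (x y : Tup K G (globeRep l)) (h : TPar x y) :
    (fill hl x y h).pull (globeRepFace (Nat.lt_succ_self l) true) = y := by
  ext k hk a
  cases (a : GlobeObj.Arrow k l) with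
  | refl =>
    change y.app _ hk (arr _ _ (low _ true)) = _
    rw [low_self]
  | pole lt s =>
    cases s with
    | false =>
      change x.app k hk (arr _ _ (low _ false)) = _
      rw [low_lt lt]
      exact h.pole hk lt false
    | true =>
      change y.app k hk (arr _ _ (low _ true)) = _
      rw [low_lt lt]

theorem fill_uniq {l : ℕ} (hl : K ≤ l) {z z' : Tup K G (globeRep (l + 1))}
    (h1 : z.pull (globeRepFace (Nat.lt_succ_self l) false) =
      z'.pull (globeRepFace (Nat.lt_succ_self l) false))
    (h2 : z.pull (globeRepFace (Nat.lt_succ_self l) true) =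
      z'.pull (globeRepFace (Nat.lt_succ_self l) true)) : z = z' := by
  ext k hk a
  cases (a : GlobeObj.Arrow k (l + 1)) with
  | refl => exact absurd (Nat.le_trans hk hl) (Nat.not_succ_le_self l)
  | pole lt s =>
    rcases Nat.lt_or_ge k l with h3 | h3
    · exact congrFun (congrFun (congrFun (congrArg Tup.app h1) k) hk) (arr _ _ (.pole h3 s))
    · obtain rfl : k = l := by omega
      cases s with
      | false => exact congrFun (congrFun (congrFun (congrArg Tup.app h1) k) hk) (arr _ _ (.refl k))
      | true => exact congrFun (congrFun (congrFun (congrArg Tup.app h2) k) hk) (arr _ _ (.refl k))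

end Cosk
end Crest.Agent.Grot
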