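import Crest.Agent.Grot.Shapes

/-!
Row 248: the interface between the construction of relative cylinders (chunk F, `CylExists`) and the
path object argument (chunk G, `PathObj`).
-/

set_option autoImplicit false

open CategoryTheory CategoryTheory.Limits Opposite Crest.GeometryTopology.Coherator

universe v w u

namespace Crest.Agent.Grot

/-- Relative cylinders (constant in dimensions `< n`) on all shapes. Here `EPar E x y = Par E x y`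
is parallelism of maps out of the cylinders on globes. -/
structure Cyl {𝓜 : Type w} [Category.{v} 𝓜] (R : Shape ⥤ 𝓜) (n : ℕ) where
  E : Shape ⥤ 𝓜
  glues : Glues E
  /-- the two ends -/
  i0 : R ⟶ E
  i1 : R ⟶ E
  low : ∀ S : Shape, S.dim < n → i0.app S = i1.app S
  /-- cylinders with prescribed boundary and ends, `l + 1 ≥ n` -/
  ext : ∀ {l : ℕ} {Y : 𝓜}, n ≤ l + 1 → Ctr R (l + 1) Y →
    ∀ es et : E.obj (Shape.globe l) ⟶ Y, EPar E es et →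
    ∀ x0 x1 : dk R (l + 1) ⟶ Y,
      sg R l ≫ x0 = i0.app _ ≫ es → tg R l ≫ x0 = i0.app _ ≫ et →
      sg R l ≫ x1 = i1.app _ ≫ es → tg R l ≫ x1 = i1.app _ ≫ et →
      ∃ e : E.obj (Shape.globe (l + 1)) ⟶ Y, E.map (Shape.σ l) ≫ e = es ∧
        E.map (Shape.τ l) ≫ e = et ∧ i0.app _ ≫ e = x0 ∧ i1.app _ ≫ e = x1
  ext_zero : ∀ {Y : 𝓜}, n = 0 → Ctr R 0 Y → ∀ x0 x1 : dk R 0 ⟶ Y,
      ∃ e : E.obj (Shape.globe 0) ⟶ Y, i0.app _ ≫ e = x0 ∧ i1.app _ ≫ e = x1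
  /-- cylinders with prescribed boundary and `0`-end (no condition on `Y`) -/
  extTF : ∀ {l : ℕ} {Y : 𝓜} (es et : E.obj (Shape.globe l) ⟶ Y), EPar E es et →
    ∀ x0 : dk R (l + 1) ⟶ Y,
      sg R l ≫ x0 = i0.app _ ≫ es → tg R l ≫ x0 = i0.app _ ≫ et →
      ∃ e : E.obj (Shape.globe (l + 1)) ⟶ Y, E.map (Shape.σ l) ≫ e = es ∧
        E.map (Shape.τ l) ≫ e = et ∧ i0.app _ ≫ e = x0
  extTF_zero : ∀ {Y : 𝓜} (x0 : dk R 0 ⟶ Y), ∃ e : E.obj (Shape.globe 0) ⟶ Y, i0.app _ ≫ e = x0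
  /-- uniqueness of cylinders in objects with unique fillers -/
  uniq : ∀ {l : ℕ} {Y : 𝓜},
    (∀ x y : dk R (l + 1) ⟶ Y, Par R x y → x = y) →
    (∀ x y : dk R (l + 2) ⟶ Y, Par R x y → x = y) →
    ∀ e e' : E.obj (Shape.globe (l + 1)) ⟶ Y, EPar E e e' → e = e'
  ctr : ∀ (S : Shape) (l : ℕ), S.dim ≤ l + 1 → n ≤ l → Ctr R l (E.obj S)
  c1 : ∀ {l : ℕ} {Y : 𝓜}, n ≤ l → ∀ c c' : E.obj (Shape.globe l) ⟶ Y, EPar E c c' →
    (Hty R (i0.app _ ≫ c) (i0.app _ ≫ c') ↔ Hty R (i1.app _ ≫ c) (i1.app _ ≫ c'))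
  sect : ∀ {Y : 𝓜} (un : dk R (n + 1) ⟶ dk R n), sg R n ≫ un = 𝟙 _ → tg R n ≫ un = 𝟙 _ →
    ∀ (hh : E.obj (Shape.globe n) ⟶ Y) (f : dk R (n + 1) ⟶ Y), sg R n ≫ f = i0.app _ ≫ hh →
    ∃ c : E.obj (Shape.globe (n + 1)) ⟶ Y, E.map (Shape.σ n) ≫ c = hh ∧
      i0.app _ ≫ c = f ∧ i1.app _ ≫ c = un ≫ i1.app _ ≫ hh

end Crest.Agent.Grot
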