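import Crest.Agent.Grot.LData2

/-!
Row 248: existence of levelwise relative cylinders.
-/

set_option autoImplicit false

open CategoryTheory CategoryTheory.Limits Opposite Crest.GeometryTopology.Coherator

universe v w u

namespace Crest.Agent.Grot

variable {𝓜 : Type w} [Category.{v} 𝓜]

/-- boundary of a disk -/
structure BD (R : Shape ⥤ 𝓜) (l : ℕ) where
  B : 𝓜
  ι : B ⟶ dk R l
  w : ι ≫ sg R l = ι ≫ tg R l

variable [HasPushouts 𝓜] [HasInitial 𝓜] (R : Shape ⥤ 𝓜)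

/-- next boundary -/
noncomputable def BD.next {R : Shape ⥤ 𝓜} {l : ℕ} (b : BD R l) : BD R (l + 1) where
  B := pushout b.ι b.ι
  ι := pushout.desc (sg R l) (tg R l) b.w
  w := by
    apply pushout.hom_ext
    · rw [← Category.assoc, ← Category.assoc, pushout.inl_desc, sg_sg]
    · rw [← Category.assoc, ← Category.assoc, pushout.inr_desc, tg_sg]

/-- boundaries of disks -/
noncomputable def bd : (l : ℕ) → BD R l
  | 0 => ⟨⊥_ 𝓜, initial.to _, Subsingleton.elim _ _⟩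
  | l + 1 => (bd l).next

variable {R}

/-- boundary inclusions of the previous disks -/
noncomputable def bdl (R : Shape ⥤ 𝓜) (l : ℕ) : dk R l ⟶ (bd R (l + 1)).B :=
  pushout.inl (bd R l).ι (bd R l).ι

noncomputable def bdr (R : Shape ⥤ 𝓜) (l : ℕ) : dk R l ⟶ (bd R (l + 1)).B :=
  pushout.inr (bd R l).ι (bd R l).ι

theorem bdl_ι (l : ℕ) : bdl R l ≫ (bd R (l + 1)).ι = sg R l := pushout.inl_desc _ _ _

theorem bdr_ι (l : ℕ) : bdr R l ≫ (bd R (l + 1)).ι = tg R l := pushout.inr_desc _ _ _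

theorem bd_sq (l : ℕ) : IsPushout (bd R l).ι (bd R l).ι (bdl R l) (bdr R l) :=
  IsPushout.of_hasPushout _ _

theorem bd_par {l : ℕ} {Y : 𝓜} {x y : dk R l ⟶ Y} (h : (bd R l).ι ≫ x = (bd R l).ι ≫ y) :
    Par R x y := by
  cases l with
  | zero => trivial
  | succ l =>
    have h1 := bdl R l ≫= h
    have h2 := bdr R l ≫= h
    rw [← Category.assoc, bdl_ι, ← Category.assoc, bdl_ι] at h1
    rw [← Category.assoc, bdr_ι, ← Category.assoc, bdr_ι] at h2
    exact ⟨h1, h2⟩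

/-- boundary and box of a cylinder -/
structure PreSt (R : Shape ⥤ 𝓜) (n l : ℕ) where
  bE : 𝓜
  Box : 𝓜
  b0 : (bd R l).B ⟶ bE
  b1 : (bd R l).B ⟶ bE
  bb : bE ⟶ Box
  β : dk R l ⟶ Box
  sq : IsPushout b0 (bd R l).ι bb β
  low : l ≤ n → b0 = b1
  bc : ∃ r, BC R n (Shape.globe l) r β

/-- a cylinder on a given box -/
structure PExt {R : Shape ⥤ 𝓜} {n l : ℕ} (p : PreSt R n l) where
  E : 𝓜
  k : p.Box ⟶ E
  i1 : dk R l ⟶ E
  w1 : (bd R l).ι ≫ i1 = p.b1 ≫ p.bb ≫ k
  low_iso : l < n → IsIso k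
  low_i1 : l < n → i1 = p.β ≫ k
  pad : n ≤ l → (dk R l ⟶ p.Box)
  c : n ≤ l → (dk R (l + 1) ⟶ E)
  po : ∀ h : n ≤ l, IsPushout (pad h) (sg R l) k (c h)
  i1_eq : ∀ h : n ≤ l, i1 = tg R l ≫ c h
  pad_n : ∀ h : n ≤ l, l = n → pad h = p.β
  ι_pad : ∀ h : n ≤ l, (bd R l).ι ≫ pad h = p.b1 ≫ p.bb

theorem PreSt.exists_pad [HasTerminal 𝓜] (hR : RData R) {n l : ℕ} (hn : ∀ m, n < m → PLG R m)
    (p : PreSt R n l) (h : n ≤ l) :
    ∃ pad : dk R l ⟶ p.Box, (l = n → pad = p.β) ∧ (bd R l).ι ≫ pad = p.b1 ≫ p.bb := by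
  rcases Nat.eq_or_lt_of_le h with h' | h'
  · exact ⟨p.β, fun _ => rfl, by rw [← p.sq.w, p.low h'.symm.le]⟩
  · cases l with
    | zero => exact absurd h' (by omega)
    | succ l =>
      obtain ⟨r, hr⟩ := p.bc
      have hc : Ctr R l p.Box := hr.ctr hR hn l (by simp) (Or.inr (by omega))
      obtain ⟨pad, h1, h2⟩ := hc (bdl R l ≫ p.b1 ≫ p.bb) (bdr R l ≫ p.b1 ≫ p.bb) (bd_par (by
        have := (bd_sq l).w =≫ (p.b1 ≫ p.bb)
        simpa only [Category.assoc] using this))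
      refine ⟨pad, fun e => absurd e (by omega), ?_⟩
      apply (bd_sq l).hom_ext
      · rw [← Category.assoc, bdl_ι, h1]
      · rw [← Category.assoc, bdr_ι, h2]

theorem PreSt.nonempty_ext [HasTerminal 𝓜] (hR : RData R) {n l : ℕ}
    (hn : ∀ m, n < m → PLG R m) (p : PreSt R n l) : Nonempty (PExt p) := by
  rcases Nat.lt_or_ge l n with hl | hl
  · exact ⟨{
      E := p.Box
      k := 𝟙 _
      i1 := p.β
      w1 := by rw [Category.comp_id, ← p.low hl.le, p.sq.w]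
      low_iso := fun _ => inferInstance
      low_i1 := fun _ => by simp
      pad := fun h => absurd h (by omega)
      c := fun h => absurd h (by omega)
      po := fun h => absurd h (by omega)
      i1_eq := fun h => absurd h (by omega)
      pad_n := fun h => absurd h (by omega)
      ι_pad := fun h => absurd h (by omega) }⟩
  · obtain ⟨pad, h1, h2⟩ := p.exists_pad hR hn hl
    have sq := IsPushout.of_hasPushout pad (sg R l)
    exact ⟨{
      E := pushout pad (sg R l)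
      k := pushout.inl _ _
      i1 := tg R l ≫ pushout.inr _ _
      w1 := by
        rw [← Category.assoc, ← (bd R l).w, Category.assoc, ← sq.w, ← Category.assoc, h2,
          Category.assoc]
      low_iso := fun h => absurd h (by omega)
      low_i1 := fun h => absurd h (by omega)
      pad := fun _ => pad
      c := fun _ => pushout.inr _ _
      po := fun _ => sq
      i1_eq := fun _ => rfl
      pad_n := fun _ => h1
      ι_pad := fun _ => h2 }⟩

theorem PExt.rel_k {n l : ℕ} {p : PreSt R n l} (e : PExt p) : Rel R n p.β e.k := by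
  intro S r W f hf v x hx W' j v' sq
  rcases lt_trichotomy l n with hl | hl | hl
  · have := e.low_iso hl
    have : IsIso j := sq.isIso_inl_of_isIso
    exact ⟨r, hf.comp_iso j⟩
  · subst hl
    have sq' := (e.po le_rfl).paste_horiz sq
    rw [e.pad_n le_rfl rfl, hx] at sq'
    exact ⟨r + 1, BC.low f hf x j _ sq'⟩
  · exact ⟨r, BC.high f hf l hl _ j _ ((e.po hl.le).paste_horiz sq)⟩

section next

variable {n l : ℕ} {p : PreSt R n l} (e : PExt p)

/-- boundary of the next cylinder -/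
noncomputable abbrev PExt.nbE : 𝓜 := pushout (p.bb ≫ e.k) (p.bb ≫ e.k)

noncomputable abbrev PExt.nl : e.E ⟶ e.nbE := pushout.inl _ _
noncomputable abbrev PExt.nr : e.E ⟶ e.nbE := pushout.inr _ _

theorem PExt.nsq : IsPushout (p.bb ≫ e.k) (p.bb ≫ e.k) e.nl e.nr := IsPushout.of_hasPushout _ _

@[reassoc] theorem PExt.ι_i0 : (bd R l).ι ≫ p.β ≫ e.k = p.b0 ≫ p.bb ≫ e.k := by
  rw [← Category.assoc, ← p.sq.w, Category.assoc]

@[reassoc] theorem PExt.ι_i1 : (bd R l).ι ≫ e.i1 = p.b1 ≫ p.bb ≫ e.k := e.w1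

@[reassoc] theorem PExt.nsq_w : p.bb ≫ e.k ≫ e.nl = p.bb ≫ e.k ≫ e.nr := by
  have := e.nsq.w
  simpa only [Category.assoc] using this

noncomputable def PExt.nb0 : (bd R (l + 1)).B ⟶ e.nbE :=
  (bd_sq l).desc ((p.β ≫ e.k) ≫ e.nl) ((p.β ≫ e.k) ≫ e.nr) (by
    simp only [Category.assoc, e.ι_i0_assoc, e.nsq_w])

noncomputable def PExt.nb1 : (bd R (l + 1)).B ⟶ e.nbE :=
  (bd_sq l).desc (e.i1 ≫ e.nl) (e.i1 ≫ e.nr) (by
    simp only [e.ι_i1_assoc, e.nsq_w])

theorem PExt.bdl_nb0 : bdl R l ≫ e.nb0 = (p.β ≫ e.k) ≫ e.nl := (bd_sq l).inl_desc _ _ _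
theorem PExt.bdr_nb0 : bdr R l ≫ e.nb0 = (p.β ≫ e.k) ≫ e.nr := (bd_sq l).inr_desc _ _ _
theorem PExt.bdl_nb1 : bdl R l ≫ e.nb1 = e.i1 ≫ e.nl := (bd_sq l).inl_desc _ _ _
theorem PExt.bdr_nb1 : bdr R l ≫ e.nb1 = e.i1 ≫ e.nr := (bd_sq l).inr_desc _ _ _

noncomputable abbrev PExt.nBox : 𝓜 := pushout e.nb0 (bd R (l + 1)).ι
noncomputable abbrev PExt.nbb : e.nbE ⟶ e.nBox := pushout.inl _ _
noncomputable abbrev PExt.nβ : dk R (l + 1) ⟶ e.nBox := pushout.inr _ _

theorem PExt.nBox_sq : IsPushout e.nb0 (bd R (l + 1)).ι e.nbb e.nβ := IsPushout.of_hasPushout _ _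

theorem PExt.sg_nβ : sg R l ≫ e.nβ = (p.β ≫ e.k) ≫ e.nl ≫ e.nbb := by
  rw [← bdl_ι, Category.assoc, ← e.nBox_sq.w, ← Category.assoc, e.bdl_nb0, Category.assoc,
    Category.assoc]

theorem PExt.tg_nβ : tg R l ≫ e.nβ = (p.β ≫ e.k) ≫ e.nr ≫ e.nbb := by
  rw [← bdr_ι, Category.assoc, ← e.nBox_sq.w, ← Category.assoc, e.bdr_nb0, Category.assoc,
    Category.assoc]

theorem PExt.nbc : ∃ r, BC R n (Shape.globe (l + 1)) r e.nβ := by
  have sq := IsPushout.of_hasPushout (p.β ≫ e.k) (sg R l)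
  set F := pushout (p.β ≫ e.k) (sg R l) with hF
  set fl : e.E ⟶ F := pushout.inl _ _ with hfl
  set fr : dk R (l + 1) ⟶ F := pushout.inr _ _ with hfr
  let tb : p.Box ⟶ F := p.sq.desc (p.bb ≫ e.k ≫ fl) (tg R l ≫ fr) (by
    rw [← Category.assoc (bd R l).ι, ← (bd R l).w, Category.assoc, ← sq.w]
    simp only [← Category.assoc]
    rw [p.sq.w])
  have htb1 : p.bb ≫ tb = p.bb ≫ e.k ≫ fl := p.sq.inl_desc _ _ _
  have htb2 : p.β ≫ tb = tg R l ≫ fr := p.sq.inr_desc _ _ _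
  let fb : F ⟶ e.nBox := sq.desc (e.nl ≫ e.nbb) e.nβ e.sg_nβ.symm
  have hfb1 : fl ≫ fb = e.nl ≫ e.nbb := sq.inl_desc _ _ _
  have hfb2 : fr ≫ fb = e.nβ := sq.inr_desc _ _ _
  have hpo : IsPushout tb e.k fb (e.nr ≫ e.nbb) := by
    apply isPushout_of_ump
    · apply p.sq.hom_ext
      · rw [← Category.assoc, htb1, Category.assoc, Category.assoc, hfb1]
        have := e.nsq.w =≫ e.nbb
        simpa only [Category.assoc] using this
      · rw [← Category.assoc, htb2, Category.assoc, hfb2, e.tg_nβ, Category.assoc]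
    · intro Y a b hab
      let d1 : e.nbE ⟶ Y := e.nsq.desc (fl ≫ a) b (by
        have := htb1 =≫ a
        simp only [Category.assoc] at this
        rw [Category.assoc, ← this, Category.assoc, hab])
      have hd1 : e.nl ≫ d1 = fl ≫ a := e.nsq.inl_desc _ _ _
      have hd2 : e.nr ≫ d1 = b := e.nsq.inr_desc _ _ _
      let d : e.nBox ⟶ Y := e.nBox_sq.desc d1 (fr ≫ a) (by
        apply (bd_sq l).hom_ext
        · rw [← Category.assoc, e.bdl_nb0, ← Category.assoc, bdl_ι, Category.assoc, hd1,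
            ← Category.assoc, sq.w, Category.assoc]
        · rw [← Category.assoc, e.bdr_nb0, ← Category.assoc, bdr_ι, Category.assoc, hd2,
            Category.assoc, ← hab, ← Category.assoc, htb2, Category.assoc])
      refine ⟨d, ?_, ?_⟩
      · apply sq.hom_ext
        · rw [← Category.assoc, hfb1, Category.assoc, e.nBox_sq.inl_desc, hd1]
        · rw [← Category.assoc, hfb2, e.nBox_sq.inr_desc]
      · rw [Category.assoc, e.nBox_sq.inl_desc, hd2]
    · intro Y d d' h1 h2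
      apply e.nBox_sq.hom_ext
      · apply e.nsq.hom_ext
        · have := fl ≫= h1
          rw [← Category.assoc, ← Category.assoc, hfb1] at this
          simpa only [Category.assoc] using this
        · simpa only [Category.assoc] using h2
      · have := fr ≫= h1
        rw [← Category.assoc, ← Category.assoc, hfb2] at this
        exact this
  have r1 : Rel R n fr fb := e.rel_k.pushout hpo (Shape.τ l) fr htb2.symm
  obtain ⟨r0, h0⟩ := p.bc
  obtain ⟨r2, h2⟩ := Rel.bc h0 e.rel_k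
  have h3 := h2.push (Shape.σ l) sq.flip
  obtain ⟨r4, h4⟩ := Rel.bc h3 r1
  rw [hfb2] at h4
  exact ⟨r4, h4⟩

/-- the next boundary and box -/
noncomputable def PExt.next : PreSt R n (l + 1) where
  bE := e.nbE
  Box := e.nBox
  b0 := e.nb0
  b1 := e.nb1
  bb := e.nbb
  β := e.nβ
  sq := e.nBox_sq
  low h := by
    apply (bd_sq l).hom_ext
    · rw [e.bdl_nb0, e.bdl_nb1, e.low_i1 (by omega)]
    · rw [e.bdr_nb0, e.bdr_nb1, e.low_i1 (by omega)]
  bc := e.nbc

end next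

/-- a full stage -/
structure Stg (R : Shape ⥤ 𝓜) (n l : ℕ) where
  pre : PreSt R n l
  ext : PExt pre

/-- the first box -/
noncomputable def preZero (R : Shape ⥤ 𝓜) (n : ℕ) : PreSt R n 0 where
  bE := (bd R 0).B
  Box := dk R 0
  b0 := 𝟙 _
  b1 := 𝟙 _
  bb := (bd R 0).ι
  β := 𝟙 _
  sq := IsPushout.of_id_fst
  low _ := rfl
  bc := ⟨0, BC.iso _ inferInstance⟩

/-- the stages -/
noncomputable def stg [HasTerminal 𝓜] (hR : RData R) {n : ℕ} (hn : ∀ m, n < m → PLG R m) :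
    (l : ℕ) → Stg R n l
  | 0 => ⟨preZero R n, ((preZero R n).nonempty_ext hR hn).some⟩
  | l + 1 => ⟨(stg hR hn l).ext.next, ((stg hR hn l).ext.next.nonempty_ext hR hn).some⟩

section

variable {n l : ℕ} {p : PreSt R n l} (e : PExt p)

theorem PExt.box_desc {Y : 𝓜} (es et : e.E ⟶ Y) (x0 : dk R (l + 1) ⟶ Y)
    (h : (p.bb ≫ e.k) ≫ es = (p.bb ≫ e.k) ≫ et)
    (h1 : sg R l ≫ x0 = p.β ≫ e.k ≫ es) (h2 : tg R l ≫ x0 = p.β ≫ e.k ≫ et) :
    ∃ f : e.nBox ⟶ Y, (e.nl ≫ e.nbb) ≫ f = es ∧ (e.nr ≫ e.nbb) ≫ f = et ∧ e.nβ ≫ f = x0 := by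
  let d1 : e.nbE ⟶ Y := e.nsq.desc es et h
  have hd1 : e.nl ≫ d1 = es := e.nsq.inl_desc _ _ _
  have hd2 : e.nr ≫ d1 = et := e.nsq.inr_desc _ _ _
  let d : e.nBox ⟶ Y := e.nBox_sq.desc d1 x0 (by
    apply (bd_sq l).hom_ext
    · rw [← Category.assoc, e.bdl_nb0, ← Category.assoc, bdl_ι, Category.assoc, hd1, h1,
        Category.assoc]
    · rw [← Category.assoc, e.bdr_nb0, ← Category.assoc, bdr_ι, Category.assoc, hd2, h2,
        Category.assoc])
  have hd3 : e.nbb ≫ d = d1 := e.nBox_sq.inl_desc _ _ _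
  have hd4 : e.nβ ≫ d = x0 := e.nBox_sq.inr_desc _ _ _
  refine ⟨d, ?_, ?_, hd4⟩
  · rw [Category.assoc, hd3, hd1]
  · rw [Category.assoc, hd3, hd2]

theorem PExt.box_ext {Y : 𝓜} {f f' : e.nBox ⟶ Y} (h1 : (e.nl ≫ e.nbb) ≫ f = (e.nl ≫ e.nbb) ≫ f')
    (h2 : (e.nr ≫ e.nbb) ≫ f = (e.nr ≫ e.nbb) ≫ f') (h3 : e.nβ ≫ f = e.nβ ≫ f') : f = f' := by
  apply e.nBox_sq.hom_ext
  · apply e.nsq.hom_ext
    · simpa only [Category.assoc] using h1
    · simpa only [Category.assoc] using h2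
  · exact h3

theorem PExt.sg_ni1 (e' : PExt e.next) :
    sg R l ≫ e'.i1 = e.i1 ≫ e.nl ≫ e.nbb ≫ e'.k := by
  rw [← bdl_ι, Category.assoc, e'.w1]
  show bdl R l ≫ e.nb1 ≫ e.nbb ≫ e'.k = _
  rw [← Category.assoc, e.bdl_nb1, Category.assoc]

theorem PExt.tg_ni1 (e' : PExt e.next) :
    tg R l ≫ e'.i1 = e.i1 ≫ e.nr ≫ e.nbb ≫ e'.k := by
  rw [← bdr_ι, Category.assoc, e'.w1]
  show bdr R l ≫ e.nb1 ≫ e.nbb ≫ e'.k = _
  rw [← Category.assoc, e.bdr_nb1, Category.assoc]

theorem PExt.sg_npad (e' : PExt e.next) (h : n ≤ l + 1) :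
    sg R l ≫ e'.pad h = e.i1 ≫ e.nl ≫ e.nbb := by
  rw [← bdl_ι, Category.assoc, e'.ι_pad]
  show bdl R l ≫ e.nb1 ≫ e.nbb = _
  rw [← Category.assoc, e.bdl_nb1, Category.assoc]

theorem PExt.tg_npad (e' : PExt e.next) (h : n ≤ l + 1) :
    tg R l ≫ e'.pad h = e.i1 ≫ e.nr ≫ e.nbb := by
  rw [← bdr_ι, Category.assoc, e'.ι_pad]
  show bdr R l ≫ e.nb1 ≫ e.nbb = _
  rw [← Category.assoc, e.bdr_nb1, Category.assoc]

end

theorem exists_lData [HasTerminal 𝓜] (hR : RData R) {n : ℕ} (hn : ∀ m, n < m → PLG R m) :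
    Nonempty (LData R n) := by
  let st := stg hR hn
  exact ⟨{
    E := fun l => (st l).ext.E
    s := fun l => (st l).ext.nl ≫ (st l).ext.nbb ≫ (st (l + 1)).ext.k
    t := fun l => (st l).ext.nr ≫ (st l).ext.nbb ≫ (st (l + 1)).ext.k
    Box := fun l => (st l).pre.Box
    β := fun l => (st l).pre.β
    k := fun l => (st l).ext.k
    bs := fun l => (st l).ext.nl ≫ (st l).ext.nbb
    bt := fun l => (st l).ext.nr ≫ (st l).ext.nbb
    i1 := fun l => (st l).ext.i1
    bs_k := fun l => Category.assoc _ _ _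
    bt_k := fun l => Category.assoc _ _ _
    s_bs := fun l => by
      have := (st l).ext.nl ≫= ((st (l + 1)).ext.nsq_w =≫ (st (l + 1)).ext.nbb)
      simp only [Category.assoc] at this ⊢
      exact this
    t_bs := fun l => by
      have := (st l).ext.nr ≫= ((st (l + 1)).ext.nsq_w =≫ (st (l + 1)).ext.nbb)
      simp only [Category.assoc] at this ⊢
      exact this
    sg_β := fun l => by
      have := (st l).ext.sg_nβ
      simp only [Category.assoc] at this ⊢
      exact this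
    tg_β := fun l => by
      have := (st l).ext.tg_nβ
      simp only [Category.assoc] at this ⊢
      exact this
    sg_i1 := fun l => (st l).ext.sg_ni1 _
    tg_i1 := fun l => (st l).ext.tg_ni1 _
    box_zero := by
      show IsIso (𝟙 _)
      infer_instance
    box_desc_zero := fun es et x0 h1 h2 =>
      (st 0).ext.box_desc es et x0 ((initialIsInitial (C := 𝓜)).hom_ext _ _) h1 h2
    box_desc_succ := fun l Y es et x0 hs ht h1 h2 =>
      (st (l + 1)).ext.box_desc es et x0 (by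
        apply (st l).ext.nsq.hom_ext
        · simp only [Category.assoc] at hs ⊢
          exact hs
        · simp only [Category.assoc] at ht ⊢
          exact ht) h1 h2
    box_ext := fun l Y f f' h1 h2 h3 => (st l).ext.box_ext h1 h2 h3
    low_iso := fun l h => (st l).ext.low_iso h
    low_i1 := fun l h => (st l).ext.low_i1 h
    pad := fun l h => (st l).ext.pad h
    c := fun l h => (st l).ext.c h
    po := fun l h => (st l).ext.po h
    i1_eq := fun l h => (st l).ext.i1_eq h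
    pad_n := fun h => (st n).ext.pad_n h rfl
    sg_pad := fun l h => (st l).ext.sg_npad _ h
    tg_pad := fun l h => (st l).ext.tg_npad _ h
    bc := fun l => (st l).pre.bc }⟩

end Crest.Agent.Grot
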