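import Crest.Agent.Grot.CylDef
import Crest.Agent.Grot.Stage

/-!
Row 248 chunk F: construction of the relative cylinders.
-/

set_option autoImplicit false

open CategoryTheory CategoryTheory.Limits Opposite Crest.GeometryTopology.Coherator

universe v w u

namespace Crest.Agent.Grot

section transport

variable {𝓜 : Type w} [Category.{v} 𝓜] {R : Shape ⥤ 𝓜} {n : ℕ}

/-- transport of levelwise cylinders along isomorphisms -/
noncomputable def LData.transport (L : LData R n) (E' : ℕ → 𝓜) (i : ∀ l, E' l ≅ L.E l)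
    (s' t' : ∀ l, E' l ⟶ E' (l + 1)) (hs : ∀ l, s' l ≫ (i (l + 1)).hom = (i l).hom ≫ L.s l)
    (ht : ∀ l, t' l ≫ (i (l + 1)).hom = (i l).hom ≫ L.t l) : LData R n where
  E := E'
  s := s'
  t := t'
  Box := L.Box
  β := L.β
  k := fun l => L.k l ≫ (i l).inv
  bs := fun l => (i l).hom ≫ L.bs l
  bt := fun l => (i l).hom ≫ L.bt l
  i1 := fun l => L.i1 l ≫ (i l).inv
  bs_k := fun l => by
    rw [Category.assoc, ← Category.assoc (L.bs l), L.bs_k, ← Category.assoc, ← hs]; simp
  bt_k := fun l => by
    rw [Category.assoc, ← Category.assoc (L.bt l), L.bt_k, ← Category.assoc, ← ht]; simp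
  s_bs := fun l => by
    rw [← Category.assoc, ← Category.assoc, hs, Category.assoc, Category.assoc, L.s_bs]
  t_bs := fun l => by
    rw [← Category.assoc, ← Category.assoc, ht, Category.assoc, Category.assoc, L.t_bs]
  sg_β := fun l => by rw [L.sg_β]; simp
  tg_β := fun l => by rw [L.tg_β]; simp
  sg_i1 := fun l => by
    have : s' l = (i l).hom ≫ L.s l ≫ (i (l + 1)).inv := by
      rw [← Category.assoc, ← hs]; simp
    rw [← Category.assoc, L.sg_i1, this]; simp
  tg_i1 := fun l => by
    have : t' l = (i l).hom ≫ L.t l ≫ (i (l + 1)).inv := by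
      rw [← Category.assoc, ← ht]; simp
    rw [← Category.assoc, L.tg_i1, this]; simp
  box_zero := L.box_zero
  box_desc_zero := fun es et x0 h1 h2 => by
    obtain ⟨f, a, b, c⟩ := L.box_desc_zero ((i 0).inv ≫ es) ((i 0).inv ≫ et) x0
      (by simpa using h1) (by simpa using h2)
    exact ⟨f, by rw [Category.assoc, a]; simp, by rw [Category.assoc, b]; simp, c⟩
  box_desc_succ := fun l Y es et x0 h1 h2 h3 h4 => by
    have e1 : L.s l ≫ (i (l + 1)).inv = (i l).inv ≫ s' l := by
      rw [Iso.comp_inv_eq, Category.assoc, hs]; simp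
    have e2 : L.t l ≫ (i (l + 1)).inv = (i l).inv ≫ t' l := by
      rw [Iso.comp_inv_eq, Category.assoc, ht]; simp
    obtain ⟨f, a, b, c⟩ := L.box_desc_succ l ((i (l + 1)).inv ≫ es) ((i (l + 1)).inv ≫ et) x0
      (by rw [← Category.assoc, ← Category.assoc, e1, Category.assoc, Category.assoc, h1])
      (by rw [← Category.assoc, ← Category.assoc, e2, Category.assoc, Category.assoc, h2])
      (by simpa using h3) (by simpa using h4)
    exact ⟨f, by rw [Category.assoc, a]; simp, by rw [Category.assoc, b]; simp, c⟩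
  box_ext := fun l Y f f' h1 h2 h3 => by
    refine L.box_ext l f f' ?_ ?_ h3
    · rw [← cancel_epi (i l).hom]; simpa using h1
    · rw [← cancel_epi (i l).hom]; simpa using h2
  low_iso := fun l h => by
    have := L.low_iso l h
    infer_instance
  low_i1 := fun l h => by rw [L.low_i1 l h]; simp
  pad := L.pad
  c := fun l h => L.c l h ≫ (i l).inv
  po := fun l h => by
    have := (L.po l h).paste_horiz (IsPushout.of_horiz_isIso (f := 𝟙 _) (g := L.k l)
      (inl := L.k l ≫ (i l).inv) (inr := (i l).inv) ⟨by simp⟩)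
    rw [Category.comp_id] at this
    exact this
  i1_eq := fun l h => by rw [L.i1_eq l h]; simp
  pad_n := L.pad_n
  sg_pad := fun l h => by rw [L.sg_pad]; simp
  tg_pad := fun l h => by rw [L.tg_pad]; simp
  bc := L.bc

end transport


theorem faceMap_succ {b h : ℕ} (hh : b < h) :
    Shape.faceMap (hh.trans (Nat.lt_succ_self h)) false = Shape.faceMap hh false ≫ Shape.σ h := by
  unfold Shape.σ; rw [faceMap_comp]

section

variable {𝓜 : Type w} [Category.{v} 𝓜] [HasPushouts 𝓜] {R : Shape ⥤ 𝓜} {n : ℕ}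

/-- `E c ∪ D h → E h` can be attached along shape cells -/
theorem rel_face (F : Shape ⥤ 𝓜) (i0 : R ⟶ F)
    (hF : ∀ (l : ℕ) {A : 𝓜} {fl : F.obj (Shape.globe l) ⟶ A} {fr : dk R (l + 1) ⟶ A},
      IsPushout (i0.app _) (sg R l) fl fr → ∀ φ : A ⟶ F.obj (Shape.globe (l + 1)),
      fl ≫ φ = F.map (Shape.σ l) → fr ≫ φ = i0.app _ → Rel R n fr φ)
    {c : ℕ} (h : ℕ) (hh : c < h) {A : 𝓜} {fl : F.obj (Shape.globe c) ⟶ A} {fr : dk R h ⟶ A}
    (sq : IsPushout (i0.app (Shape.globe c)) (R.map (Shape.faceMap hh false)) fl fr)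
    (φ : A ⟶ F.obj (Shape.globe h)) (h1 : fl ≫ φ = F.map (Shape.faceMap hh false))
    (h2 : fr ≫ φ = i0.app _) : Rel R n fr φ := by
  induction h generalizing A with
  | zero => exact absurd hh (by omega)
  | succ h ih =>
    rcases Nat.lt_or_ge c h with hlt | hge
    · have e : Shape.faceMap hh false = Shape.faceMap hlt false ≫ Shape.σ h := faceMap_succ hlt
      rw [e, R.map_comp] at sq
      have sqh := IsPushout.of_hasPushout (i0.app (Shape.globe c))
        (R.map (Shape.faceMap hlt false))
      set Ah := pushout (i0.app (Shape.globe c)) (R.map (Shape.faceMap hlt false)) with hAh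
      set al : F.obj (Shape.globe c) ⟶ Ah := pushout.inl _ _ with hal
      set ar : dk R h ⟶ Ah := pushout.inr _ _ with har
      let φh : Ah ⟶ F.obj (Shape.globe h) := sqh.desc (F.map (Shape.faceMap hlt false))
        (i0.app _) (i0.naturality _).symm
      have hφ1 : al ≫ φh = F.map (Shape.faceMap hlt false) := sqh.inl_desc _ _ _
      have hφ2 : ar ≫ φh = i0.app _ := sqh.inr_desc _ _ _
      have relh : Rel R n ar φh := ih hlt sqh φh hφ1 hφ2
      let q : Ah ⟶ A := sqh.desc fl (sg R h ≫ fr) (by rw [sq.w, Category.assoc])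
      have hq1 : al ≫ q = fl := sqh.inl_desc _ _ _
      have hq2 : ar ≫ q = sg R h ≫ fr := sqh.inr_desc _ _ _
      have sqq : IsPushout ar (sg R h) q fr := IsPushout.of_top' sq sqh
      have sqG := IsPushout.of_hasPushout (i0.app (Shape.globe h)) (sg R h)
      set G := pushout (i0.app (Shape.globe h)) (sg R h) with hG
      set gl : F.obj (Shape.globe h) ⟶ G := pushout.inl _ _ with hgl
      set gr : dk R (h + 1) ⟶ G := pushout.inr _ _ with hgr
      let ψ : G ⟶ F.obj (Shape.globe (h + 1)) := sqG.desc (F.map (Shape.σ h)) (i0.app _)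
        (i0.naturality _).symm
      have hψ1 : gl ≫ ψ = F.map (Shape.σ h) := sqG.inl_desc _ _ _
      have hψ2 : gr ≫ ψ = i0.app _ := sqG.inr_desc _ _ _
      have relψ : Rel R n gr ψ := hF h sqG ψ hψ1 hψ2
      have sqG' : IsPushout (ar ≫ φh) (sg R h) gl gr := by rw [hφ2]; exact sqG
      let φ₁ : A ⟶ G := sqq.desc (φh ≫ gl) gr (by rw [← Category.assoc]; exact sqG'.w)
      have hφ₁1 : q ≫ φ₁ = φh ≫ gl := sqq.inl_desc _ _ _
      have hφ₁2 : fr ≫ φ₁ = gr := sqq.inr_desc _ _ _
      have sqφ : IsPushout q φh φ₁ gl := (IsPushout.of_left' sqG' sqq).flip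
      have r1 : Rel R n fr φ₁ := relh.pushout sqφ (Shape.σ h) fr hq2.symm
      have e1 : φ = φ₁ ≫ ψ := by
        apply sq.hom_ext
        · rw [h1, ← hq1, Category.assoc, ← Category.assoc q, hφ₁1, Category.assoc, hψ1,
            ← Category.assoc, hφ1, ← F.map_comp, e]
        · rw [h2, ← Category.assoc, hφ₁2, hψ2]
      rw [e1]
      apply r1.comp
      rw [hφ₁2]
      exact relψ
    · obtain rfl : c = h := by omega
      exact hF c sq φ h1 h2

/-- the cylinder on a shape is a cell complex over the free object -/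
theorem bc_shape (hR : Glues R) (F : Shape ⥤ 𝓜) (hFg : Glues F) (i0 : R ⟶ F)
    (hF : ∀ (l : ℕ) {A : 𝓜} {fl : F.obj (Shape.globe l) ⟶ A} {fr : dk R (l + 1) ⟶ A},
      IsPushout (i0.app _) (sg R l) fl fr → ∀ φ : A ⟶ F.obj (Shape.globe (l + 1)),
      fl ≫ φ = F.map (Shape.σ l) → fr ≫ φ = i0.app _ → Rel R n fr φ)
    (h0 : ∀ l, ∃ r, BC R n (Shape.globe l) r (i0.app (Shape.globe l)))
    (S : Shape) : ∃ r, BC R n S r (i0.app S) := by
  obtain ⟨last, P⟩ := S
  induction P with
  | single h => exact h0 h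
  | @glue last P c h hc hh ih =>
    obtain ⟨r, hr⟩ := ih
    let S : Shape := ⟨last, P⟩
    show ∃ r, BC R n (S.glue c h hc hh) r (i0.app (S.glue c h hc hh))
    have sq1 := hR S c h hc hh
    have sqE := hFg S c h hc hh
    -- `W = F P ∪ R S`
    have sqW := IsPushout.of_hasPushout (R.map (S.inLeft c h hc hh)) (i0.app S)
    set W := pushout (R.map (S.inLeft c h hc hh)) (i0.app S) with hW
    set wS : R.obj (S.glue c h hc hh) ⟶ W := pushout.inl _ _ with hwS
    set wP : F.obj S ⟶ W := pushout.inr _ _ with hwP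
    have hbW : BC R n (S.glue c h hc hh) r wS := hr.push (S.inLeft c h hc hh) sqW
    have sq2 : IsPushout (R.map (S.hinge hc) ≫ i0.app S) (R.map (Shape.faceMap hh false)) wP
        (R.map (S.inRight c h hc hh) ≫ wS) := sq1.paste_horiz sqW.flip
    have sqA := IsPushout.of_hasPushout (i0.app (Shape.globe c)) (R.map (Shape.faceMap hh false))
    set A := pushout (i0.app (Shape.globe c)) (R.map (Shape.faceMap hh false)) with hA
    set fl : F.obj (Shape.globe c) ⟶ A := pushout.inl _ _ with hfl
    set fr : dk R h ⟶ A := pushout.inr _ _ with hfr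
    let φ : A ⟶ F.obj (Shape.globe h) := sqA.desc (F.map (Shape.faceMap hh false))
      (i0.app _) (i0.naturality _).symm
    have hφ1 : fl ≫ φ = F.map (Shape.faceMap hh false) := sqA.inl_desc _ _ _
    have hφ2 : fr ≫ φ = i0.app _ := sqA.inr_desc _ _ _
    have rel : Rel R n fr φ := rel_face F i0 hF h hh sqA φ hφ1 hφ2
    rw [i0.naturality] at sq2
    let v : A ⟶ W := sqA.desc (F.map (S.hinge hc) ≫ wP) (R.map (S.inRight c h hc hh) ≫ wS) (by
      rw [← sq2.w, Category.assoc])
    have hv1 : fl ≫ v = F.map (S.hinge hc) ≫ wP := sqA.inl_desc _ _ _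
    have hv2 : fr ≫ v = R.map (S.inRight c h hc hh) ≫ wS := sqA.inr_desc _ _ _
    have sq3 : IsPushout (F.map (S.hinge hc)) fl wP v := IsPushout.of_left' sq2 sqA
    rw [← hφ1] at sqE
    let j : W ⟶ F.obj (S.glue c h hc hh) := sq3.desc (F.map (S.inLeft c h hc hh))
      (φ ≫ F.map (S.inRight c h hc hh)) (by rw [← Category.assoc]; exact sqE.w)
    have hj1 : wP ≫ j = F.map (S.inLeft c h hc hh) := sq3.inl_desc _ _ _
    have hj2 : v ≫ j = φ ≫ F.map (S.inRight c h hc hh) := sq3.inr_desc _ _ _
    have sq4 : IsPushout v φ j (F.map (S.inRight c h hc hh)) := IsPushout.of_top' sqE sq3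
    obtain ⟨r', hr'⟩ := rel wS hbW v (S.inRight c h hc hh) hv2 j _ sq4
    refine ⟨r', ?_⟩
    have e : wS ≫ j = i0.app (S.glue c h hc hh) := by
      apply sq1.hom_ext
      · rw [← Category.assoc, sqW.w, Category.assoc, hj1, i0.naturality]
      · rw [← Category.assoc, ← hv2, Category.assoc, hj2, ← Category.assoc, hφ2, i0.naturality]
    rw [← e]
    exact hr'

end

theorem exists_cyl {𝓜 : Type w} [Category.{u} 𝓜] [HasColimitsOfSize.{u, u} 𝓜] [HasTerminal 𝓜]
    (R : Shape ⥤ 𝓜) (hR : RData R) (n : ℕ) (hn : ∀ m, n < m → PLG R m) : Nonempty (Cyl R n) := by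
  have h00 : HasColimitsOfSize.{0, 0} 𝓜 := hasColimitsOfSizeShrink.{0, 0, u, u} 𝓜
  have : HasPushouts 𝓜 := inferInstance
  have : HasInitial 𝓜 := inferInstance
  obtain ⟨L0⟩ := exists_lData hR hn
  obtain ⟨F, i, hF, hs, ht⟩ := exists_real L0.E L0.s L0.t L0.s_s L0.t_s
  let L : LData R n := L0.transport (fun l => F.obj (Shape.globe l)) i
    (fun l => F.map (Shape.σ l)) (fun l => F.map (Shape.τ l)) hs ht
  obtain ⟨i0, hi0, -⟩ := segNat' R F hR.glue L.i0 L.sg_i0 L.tg_i0
  obtain ⟨i1, hi1, -⟩ := segNat' R F hR.glue L.i1 L.sg_i1 L.tg_i1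
  have hE : ∀ {l : ℕ} {Y : 𝓜} {x y : F.obj (Shape.globe l) ⟶ Y}, EPar F x y → L.LPar x y := by
    intro l Y x y h
    cases l with
    | zero => trivial
    | succ l => exact h
  exact ⟨{
    E := F
    glues := hF
    i0 := i0
    i1 := i1
    low := by
      intro S hS
      obtain ⟨last, P⟩ := S
      induction P with
      | single h =>
        have e1 := hi0 h
        have e2 := hi1 h
        have e3 := L.low_i1 h hS
        exact e1.trans (e3.symm.trans e2.symm)
      | @glue last P c h hc hh ih =>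
        have hd : max (Shape.dim ⟨last, P⟩) h < n := hS
        have ih' := ih (by omega)
        apply (hR.glue ⟨last, P⟩ c h hc hh).hom_ext
        · exact (i0.naturality _).trans ((ih' =≫ _).trans (i1.naturality _).symm)
        · refine (i0.naturality _).trans (Eq.trans ?_ (i1.naturality _).symm)
          have e1 := hi0 h
          have e2 := hi1 h
          have e3 := L.low_i1 h (by omega)
          have e4 : i0.app (Shape.globe h) = i1.app (Shape.globe h) :=
            e1.trans (e3.symm.trans e2.symm)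
          rw [e4]
    ext := by
      intro l Y hl hY es et hp x0 x1 h1 h2 h3 h4
      simp only [hi0, hi1] at *
      exact L.ext hl hY es et (hE hp) x0 x1 h1 h2 h3 h4
    ext_zero := by
      intro Y h hY x0 x1
      simp only [hi0, hi1]
      exact L.ext_zero h hY x0 x1
    extTF := by
      intro l Y es et hp x0 h1 h2
      simp only [hi0] at *
      exact L.extTF hR es et (hE hp) x0 h1 h2
    extTF_zero := by
      intro Y x0
      simp only [hi0]
      exact L.extTF_zero hR x0
    uniq := by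
      intro l Y h1 h2 e e' hp
      exact L.uniq h1 h2 e e' (hE hp)
    ctr := by
      intro S l hS hl
      obtain ⟨r, hr⟩ := bc_shape hR.glue F hF i0 (n := n) (by
        intro l A fl fr sq φ h1 h2
        simp only [hi0] at *
        exact L.rel_F sq φ h1 h2) (by
        intro l
        simp only [hi0]
        exact L.bc_i0 l) S
      exact hr.ctr hR hn l hS (Or.inr hl)
    c1 := by
      intro l Y hl c c' hp
      simp only [hi0, hi1]
      exact L.c1 hR hn hl c c' (hE hp)
    sect := by
      intro Y un h1 h2 hh f hf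
      simp only [hi0, hi1] at *
      exact L.sect hR hn un h1 h2 hh f hf }⟩

end Crest.Agent.Grot
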