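import Crest.Agent.Grot.Hty

/-!
Row 248: good maps, the homotopy lemma `LH`, the sliding lemma.
-/

set_option autoImplicit false

open CategoryTheory CategoryTheory.Limits Opposite Crest.GeometryTopology.Coherator

universe v w u

namespace Crest.Agent.Grot

variable {𝓜 : Type w} [Category.{v} 𝓜] {R : Shape ⥤ 𝓜}

theorem Refl.id' (l : ℕ) (X : 𝓜) : Refl R l (𝟙 X) := fun u v _ h => by simpa using h

theorem Refl.of_comp {l : ℕ} {X Y Z : 𝓜} {f : X ⟶ Y} {g : Y ⟶ Z} (h : Refl R l (f ≫ g)) :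
    Refl R l f := fun u v huv h' => by
  apply h u v huv
  have := h'.comp g
  simpa using this

theorem Refl.comp' {l : ℕ} {X Y Z : 𝓜} {f : X ⟶ Y} {g : Y ⟶ Z} (hf : Refl R l f)
    (hg : Refl R l g) : Refl R l (f ≫ g) := fun u v huv h' => by
  apply hf u v huv
  apply hg _ _ (huv.comp f)
  simpa using h'

theorem Refl.of_ctr {l : ℕ} {X Y : 𝓜} (hX : Ctr R l X) (f : X ⟶ Y) : Refl R l f :=
  fun u v huv _ => hX u v huv

theorem Good.comp {l : ℕ} {X Y Z : 𝓜} {f : X ⟶ Y} {g : Y ⟶ Z} (hf : Good R l f)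
    (hg : Good R l g) : Good R l (f ≫ g) := fun _ m hm => by
  apply hg m
  apply hf (g ≫ m)
  simpa using hm

theorem Good.of_isIso (l : ℕ) {X Y : 𝓜} (f : X ⟶ Y) [IsIso f] : Good R l f := fun _ m hm => by
  have h : Refl R l (inv f ≫ (f ≫ m)) :=
    (Refl.of_comp (g := f) (by simpa using Refl.id' (R := R) l Y)).comp' hm
  simpa using h

theorem Good.of_ctr {l : ℕ} {X Y : 𝓜} (f : X ⟶ Y) (hY : Ctr R l Y) : Good R l f :=
  fun _ m _ => Refl.of_ctr hY m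

theorem Good.ctr [HasTerminal 𝓜] {l : ℕ} {X Y : 𝓜} {f : X ⟶ Y} (hf : Good R l f)
    (hX : Ctr R l X) : Ctr R l Y := fun u v huv => by
  refine hf (terminal.from Y) (Refl.of_ctr hX _) u v huv ?_
  exact ⟨terminal.from _, Subsingleton.elim _ _, Subsingleton.elim _ _⟩

theorem Ctr.of_iso {l : ℕ} {X Y : 𝓜} (e : X ≅ Y) (hX : Ctr R l X) : Ctr R l Y :=
  fun u v huv => by
    have := (hX _ _ (huv.comp e.inv)).comp e.hom
    simpa using this

/-- pushouts along `sg m` preserve cofibrancy -/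
theorem Cof.pushout {m : ℕ} {X X' : 𝓜} {a : dk R m ⟶ X} {j : X ⟶ X'} {b : dk R (m + 1) ⟶ X'}
    (hX : Cof R X) (sq : IsPushout a (sg R m) j b) : Cof R X' := by
  intro A B p hp f
  obtain ⟨g, hg⟩ := hX p hp (j ≫ f)
  have hx : sg R m ≫ b ≫ f = (a ≫ g) ≫ p := by
    rw [Category.assoc, hg, ← Category.assoc, ← sq.w, Category.assoc]
  -- lift the target face
  obtain ⟨y, hy1, hy2⟩ : ∃ y : dk R m ⟶ A, Par R (a ≫ g) y ∧ y ≫ p = tg R m ≫ b ≫ f := by
    cases m with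
    | zero =>
      obtain ⟨y, hy⟩ := hp.zero (tg R 0 ≫ b ≫ f)
      exact ⟨y, trivial, hy⟩
    | succ m =>
      have hpar := par_faces (b ≫ f)
      obtain ⟨y, hy1, hy2, hy3⟩ := hp.succ m (sg R m ≫ a ≫ g) (tg R m ≫ a ≫ g) (par_faces _)
        (tg R (m + 1) ≫ b ≫ f) (by rw [← hpar.1, hx]; simp) (by rw [← hpar.2, hx]; simp)
      exact ⟨y, ⟨hy1.symm, hy2.symm⟩, hy3⟩
  obtain ⟨z, hz1, hz2, hz3⟩ := hp.succ m _ _ hy1 (b ≫ f) hx hy2.symm
  refine ⟨sq.desc g z hz1.symm, ?_⟩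
  apply sq.hom_ext
  · simp [hg]
  · simp [hz3]

/-- The homotopy lemma. -/
theorem LH (hR : RData R) [HasPushouts 𝓜] {n : ℕ} (hn : PLG R (n + 1)) {l : ℕ}
    {X Xs Δ : 𝓜} {s : dk R n ⟶ X} {j : X ⟶ Xs} {g : dk R (n + 1) ⟶ Xs} (hX : Cof R X)
    (sq : IsPushout s (sg R n) j g) (m0 m1 : Xs ⟶ Δ) (hj : j ≫ m0 = j ≫ m1)
    (hg : Hty R (g ≫ m0) (g ≫ m1)) (h0 : Refl R l m0) : Refl R l m1 := by
  have hXs : Cof R Xs := hX.pushout sq
  let Z := pushout g (sg R (n + 1))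
  let j0 : Xs ⟶ Z := pushout.inl _ _
  let w : dk R (n + 2) ⟶ Z := pushout.inr _ _
  have sqZ : IsPushout g (sg R (n + 1)) j0 w := IsPushout.of_hasPushout _ _
  have good0 : Good R l j0 := hn g j0 w hXs sqZ l
  -- the other end
  have e1 : s ≫ (j ≫ j0) = sg R n ≫ (tg R (n + 1) ≫ w) := by
    rw [← Category.assoc (sg R n), ← sg_sg, Category.assoc, ← sqZ.w, ← Category.assoc s, sq.w,
      Category.assoc]
  let j1 : Xs ⟶ Z := sq.desc (j ≫ j0) (tg R (n + 1) ≫ w) e1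
  obtain ⟨hh, hh0, hh1⟩ := hg
  let q : Z ⟶ Δ := sqZ.desc m0 hh hh0.symm
  have q0 : j0 ≫ q = m0 := sqZ.inl_desc _ _ _
  have qw : w ≫ q = hh := sqZ.inr_desc _ _ _
  have q1 : j1 ≫ q = m1 := by
    apply sq.hom_ext
    · rw [← Category.assoc, sq.inl_desc, Category.assoc, q0, hj]
    · rw [← Category.assoc, sq.inr_desc, Category.assoc, qw, hh1]
  let ret : Z ⟶ Xs := sqZ.desc (𝟙 _) (hR.un (n + 1) ≫ g) (by simp)
  have r1 : j1 ≫ ret = 𝟙 _ := by
    apply sq.hom_ext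
    · rw [← Category.assoc, sq.inl_desc, Category.assoc, sqZ.inl_desc]
    · rw [← Category.assoc, sq.inr_desc, Category.assoc, sqZ.inr_desc]
      simp
  have hq : Refl R l q := good0 q (by rw [q0]; exact h0)
  rw [← q1]
  exact (Refl.of_comp (g := ret) (by rw [r1]; exact Refl.id' l _)).comp' hq

/-- The sliding lemma. -/
theorem slide (hR : RData R) [HasPushouts 𝓜] {n : ℕ} (hn : PLG R (n + 1)) {l : ℕ}
    {X Xs Xt : 𝓜} {s t : dk R n ⟶ X} {i : X ⟶ Xs} {g : dk R (n + 1) ⟶ Xs}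
    {i' : X ⟶ Xt} {g' : dk R (n + 1) ⟶ Xt} (hX : Cof R X)
    (sq : IsPushout s (sg R n) i g) (sq' : IsPushout t (sg R n) i' g') (hst : Hty R s t)
    (hgood : Good R l i') : Good R l i := by
  obtain ⟨h, hs, ht⟩ := hst
  have w1 : tg R n ≫ (h ≫ i') = sg R n ≫ g' := by
    rw [← Category.assoc, ht]; exact sq'.w
  have w2 : tg R n ≫ ((hR.nv n ≫ h) ≫ i) = sg R n ≫ g := by
    simp only [Category.assoc]
    rw [hR.tg_nv_assoc, ← Category.assoc, hs]; exact sq.w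
  let φ : Xs ⟶ Xt := sq.desc i' (hR.cmp (h ≫ i') g' w1) (by
    rw [hR.sg_cmp, ← Category.assoc, hs])
  let ψ : Xt ⟶ Xs := sq'.desc i (hR.cmp ((hR.nv n ≫ h) ≫ i) g w2) (by
    rw [hR.sg_cmp]
    simp only [Category.assoc]
    rw [hR.sg_nv_assoc, ← Category.assoc, ht])
  have hφi : i ≫ φ = i' := sq.inl_desc _ _ _
  have hφg : g ≫ φ = hR.cmp (h ≫ i') g' w1 := sq.inr_desc _ _ _
  have hψi : i' ≫ ψ = i := sq'.inl_desc _ _ _
  have hψg : g' ≫ ψ = hR.cmp ((hR.nv n ≫ h) ≫ i) g w2 := sq'.inr_desc _ _ _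
  have hloop : Hty R (g ≫ (φ ≫ ψ)) g := by
    have key := hR.cmp_cmp_nv (h ≫ i) g (by rw [← Category.assoc, hs]; exact sq.w)
    rw [← Category.assoc, hφg, hR.cmp_comp]
    simp only [Category.assoc, hψi, hψg]
    exact key
  -- `φ ≫ ψ` reflects
  have hφψ : Refl R l (φ ≫ ψ) := by
    refine LH hR hn hX sq (𝟙 _) (φ ≫ ψ) ?_ ?_ (Refl.id' l _)
    · rw [← Category.assoc, hφi, hψi, Category.comp_id]
    · rw [Category.comp_id]; exact hloop.symm hR
  intro Δ m hm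
  have hψm : Refl R l (ψ ≫ m) := by
    apply hgood
    rw [← Category.assoc, hψi]
    exact hm
  have h3 : Refl R l ((φ ≫ ψ) ≫ m) := by
    have : Refl R l φ := Refl.of_comp hφψ
    rw [Category.assoc]
    exact this.comp' hψm
  refine LH hR hn hX sq ((φ ≫ ψ) ≫ m) m ?_ ?_ h3
  · rw [← Category.assoc, ← Category.assoc, hφi, hψi]
  · have := hloop.comp m
    simpa using this

end Crest.Agent.Grot
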