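import Crest.Agent.Grot.PathObj
import Crest.Agent.Grot.CylExists
import Crest.Agent.Grot.GoodLemmas

/-!
Row 248 chunk H: end of the proof.
-/

set_option autoImplicit false

open CategoryTheory CategoryTheory.Limits Opposite Crest.GeometryTopology.Coherator
open Crest.GeometryTopology.Coherator.GlobTheory

universe v w u

namespace Crest.Agent.Grot

theorem plg_all {C : GlobTheory.{u}} (hC : C.IsCoheratorTheory) (K m : ℕ) :
    PLG (RK hC K) m := by
  have := hasColimits_TModel hC K
  have := hasTerminal_TModel C K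
  have main : ∀ d m, K + 1 ≤ m + d → PLG (RK hC K) m := by
    intro d
    induction d with
    | zero =>
      intro m hm X X' a j b _ sq l
      have := isIso_sg_RK hC K m (by simpa using hm)
      have : IsIso j := sq.isIso_inl_of_isIso
      exact Good.of_isIso l j
    | succ d ih =>
      intro m hm
      by_cases h : K + 1 ≤ m + d
      · exact ih m h
      · obtain ⟨cyl⟩ := exists_cyl (RK hC K) (rdata_RK hC K) m
          (fun m' hm' => ih m' (by omega))
        exact plg_of_cyl hC K m (by omega) cyl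
  exact main (K + 1) m (by omega)

/-- `Full_k`, in terms of cells of models -/
def Full {C : GlobTheory.{u}} (k : ℕ) {X Y : GlobModel C} (j : X ⟶ Y) : Prop :=
  match k with
  | 0 => ∀ z : Y.cells.cell 0, ∃ z' : X.cells.cell 0, Y.cells.Step 0 ((GlobModel.cellsMap j).app 0 z') z
  | k + 1 => ∀ (s t : X.cells.cell k), X.cells.AreParallel k s t → ∀ z : Y.cells.cell (k + 1),
      Y.cells.src k z = (GlobModel.cellsMap j).app k s →
      Y.cells.tgt k z = (GlobModel.cellsMap j).app k t →
      ∃ z' : X.cells.cell (k + 1), X.cells.src k z' = s ∧ X.cells.tgt k z' = t ∧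
        Y.cells.Step (k + 1) ((GlobModel.cellsMap j).app (k + 1) z') z

/-- trivial fibrations of models -/
structure MTF {C : GlobTheory.{u}} {A B : GlobModel C} (p : A ⟶ B) : Prop where
  zero : ∀ b : B.cells.cell 0, ∃ a : A.cells.cell 0, (GlobModel.cellsMap p).app 0 a = b
  succ : ∀ (l : ℕ) (x y : A.cells.cell l), A.cells.AreParallel l x y → ∀ b : B.cells.cell (l + 1),
    B.cells.src l b = (GlobModel.cellsMap p).app l x →
    B.cells.tgt l b = (GlobModel.cellsMap p).app l y →
    ∃ a : A.cells.cell (l + 1), A.cells.src l a = x ∧ A.cells.tgt l a = y ∧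
      (GlobModel.cellsMap p).app (l + 1) a = b

namespace Final

variable {C : GlobTheory.{u}}

theorem cellsMap_comp_app {X Y Z : GlobModel C} (f : X ⟶ Y) (g : Y ⟶ Z) (l : ℕ)
    (x : X.cells.cell l) : (GlobModel.cellsMap (f ≫ g)).app l x =
      (GlobModel.cellsMap g).app l ((GlobModel.cellsMap f).app l x) := rfl

theorem cellsMap_id_app (X : GlobModel C) (l : ℕ) (x : X.cells.cell l) :
    (GlobModel.cellsMap (𝟙 X)).app l x = x := rfl

/-- a trivial fibration lifts cells with prescribed boundary sphere -/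
theorem MTF.sphere_lift {A B : GlobModel C} {p : A ⟶ B} (hp : MTF p) (n : ℕ)
    (s : A.cells.Sphere n) (b : B.cells.cell n)
    (hb : B.cells.bdry n b = (GlobModel.cellsMap p).sphere n s) :
    ∃ a : A.cells.cell n, A.cells.bdry n a = s ∧ (GlobModel.cellsMap p).app n a = b := by
  cases n with
  | zero =>
    obtain ⟨a, ha⟩ := hp.zero b
    exact ⟨a, rfl, ha⟩
  | succ n =>
    have h1 := congrArg (fun s => s.1.1) hb
    have h2 := congrArg (fun s => s.1.2) hb
    obtain ⟨a, ha1, ha2, ha3⟩ := hp.succ n s.1.1 s.1.2 s.2 b h1 h2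
    refine ⟨a, ?_, ha3⟩
    apply Subtype.ext
    exact Prod.ext ha1 ha2

theorem sphere_comp {X Y Z : GlobModel C} (f : X ⟶ Y) (g : Y ⟶ Z) (n : ℕ)
    (s : X.cells.Sphere n) : (GlobModel.cellsMap (f ≫ g)).sphere n s =
      (GlobModel.cellsMap g).sphere n ((GlobModel.cellsMap f).sphere n s) := by
  cases n with
  | zero => rfl
  | succ n => rfl

theorem bdry_app {X Y : GlobModel C} (f : X ⟶ Y) (n : ℕ) (x : X.cells.cell n) :
    Y.cells.bdry n ((GlobModel.cellsMap f).app n x) =
      (GlobModel.cellsMap f).sphere n (X.cells.bdry n x) := by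
  cases n with
  | zero => rfl
  | succ n =>
    apply Subtype.ext
    exact Prod.ext ((GlobModel.cellsMap f).app_src n x).symm ((GlobModel.cellsMap f).app_tgt n x).symm

theorem lift_of_attaching {X Y : GlobModel C} {f : X ⟶ Y} (hf : GlobModel.IsAttaching f)
    {A B : GlobModel C} (p : A ⟶ B) (hp : MTF p) : HasLiftingProperty f p where
  sq_hasLift {g h} sq := by
    have hk : ∀ k : hf.ι, ∃ z : A.cells.cell (hf.dimOf k),
        A.cells.bdry _ z = (GlobModel.cellsMap g).sphere _ (hf.sphere k) ∧
        (GlobModel.cellsMap p).app _ z = (GlobModel.cellsMap h).app _ (hf.newCell k) := by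
      intro k
      apply MTF.sphere_lift hp
      rw [bdry_app, hf.newCell_bdry, ← sphere_comp, ← sphere_comp, sq.w]
    choose z hz1 hz2 using hk
    obtain ⟨l, ⟨hl1, hl2⟩, _⟩ := hf.universal A g z hz1
    refine ⟨⟨⟨l, hl1, ?_⟩⟩⟩
    obtain ⟨l', _, hu⟩ := hf.universal B (g ≫ p)
      (fun k => (GlobModel.cellsMap h).app _ (hf.newCell k)) (by
        intro k
        rw [bdry_app, hf.newCell_bdry, ← sphere_comp, sq.w])
    have e1 := hu (l ≫ p) ⟨by rw [← Category.assoc, hl1], fun k => by
      rw [cellsMap_comp_app, hl2, hz2]⟩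
    have e2 := hu h ⟨sq.w.symm, fun k => rfl⟩
    rw [e1, e2]

end Final

open Final

/-- cellular models lift against trivial fibrations -/
theorem lift_of_cellular {C : GlobTheory.{u}} {X : GlobModel C} (hX : X.IsCellularModel)
    {A B : GlobModel C} (p : A ⟶ B) (hp : MTF p) (f : X ⟶ B) : ∃ g : X ⟶ A, g ≫ p = f := by
  obtain ⟨P⟩ := hX
  let _ := P.linOrd
  let _ := P.bot
  let _ := P.succ
  let _ := P.wf
  have h1 : HasLiftingProperty (P.chain.incl.app ⊥) p :=
    HasLiftingProperty.transfiniteComposition.hasLiftingProperty_ι_app_bot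
      (hc := P.chain.isColimit) (fun j hj => lift_of_attaching (P.attach j hj) p hp)
  have h2 : IsInitial (P.chain.F.obj ⊥) := IsInitial.ofIso P.startIsInitial P.chain.isoBot.symm
  have sq : CommSq (h2.to A) (P.chain.incl.app ⊥) p f := ⟨h2.hom_ext _ _⟩
  obtain ⟨⟨l⟩⟩ := h1.sq_hasLift sq
  exact ⟨l.l, l.fac_right⟩

namespace Final

variable {C : GlobTheory.{u}} (hC : C.IsCoheratorTheory) {K : ℕ}

/-- cells of a truncated model are maps from the disks -/
noncomputable def ce (Y : TModel C K) (l : ℕ) : (dk (RK hC K) l ⟶ Y) ≃ Y.obj.cells.cell l :=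
  homRC hC K (C.incl.obj (Shape.globe l)) Y

theorem ce_sg (Y : TModel C K) (l : ℕ) (x : dk (RK hC K) (l + 1) ⟶ Y) :
    ce hC Y l (sg (RK hC K) l ≫ x) = Y.obj.cells.src l (ce hC Y (l + 1) x) :=
  homRC_naturality_left hC K (C.incl.map (Shape.σ l)) Y x

theorem ce_tg (Y : TModel C K) (l : ℕ) (x : dk (RK hC K) (l + 1) ⟶ Y) :
    ce hC Y l (tg (RK hC K) l ≫ x) = Y.obj.cells.tgt l (ce hC Y (l + 1) x) :=
  homRC_naturality_left hC K (C.incl.map (Shape.τ l)) Y x

theorem ce_comp {Y Z : TModel C K} (l : ℕ) (x : dk (RK hC K) l ⟶ Y) (g : Y ⟶ Z) :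
    ce hC Z l (x ≫ g) = (GlobModel.cellsMap g.hom).app l (ce hC Y l x) :=
  homRC_naturality_right hC K (C.incl.obj (Shape.globe l)) x g

theorem ce_par (Y : TModel C K) (l : ℕ) (x y : dk (RK hC K) l ⟶ Y) :
    Par (RK hC K) x y ↔ Y.obj.cells.AreParallel l (ce hC Y l x) (ce hC Y l y) := by
  cases l with
  | zero => exact Iff.rfl
  | succ l =>
    show (_ = _ ∧ _ = _) ↔ (_ = _ ∧ _ = _)
    rw [← ce_sg, ← ce_sg, ← ce_tg, ← ce_tg, (ce hC Y l).apply_eq_iff_eq, (ce hC Y l).apply_eq_iff_eq]

/-- trivial fibrations of truncated models -/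
theorem mtf_of_tf {A B : TModel C K} (q : A ⟶ B) (hq : TF (RK hC K) q) : MTF q.hom where
  zero b := by
    obtain ⟨a, ha⟩ := hq.zero ((ce hC B 0).symm b)
    refine ⟨ce hC A 0 a, ?_⟩
    rw [← ce_comp, ha, Equiv.apply_symm_apply]
  succ l x y hxy b hb1 hb2 := by
    obtain ⟨a, h1, h2, h3⟩ := hq.succ l ((ce hC A l).symm x) ((ce hC A l).symm y)
      (by rw [ce_par]; simpa using hxy) ((ce hC B (l + 1)).symm b)
      (by
        apply (ce hC B l).injective
        rw [ce_sg, ce_comp]; simpa using hb1)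
      (by
        apply (ce hC B l).injective
        rw [ce_tg, ce_comp]; simpa using hb2)
    refine ⟨ce hC A (l + 1) a, ?_, ?_, ?_⟩
    · rw [← ce_sg, h1, Equiv.apply_symm_apply]
    · rw [← ce_tg, h2, Equiv.apply_symm_apply]
    · rw [← ce_comp, h3, Equiv.apply_symm_apply]

/-- reflections of cellular models are cofibrant -/
theorem cof_of_cellular {X : GlobModel C} (hX : X.IsCellularModel) :
    Cof (RK hC K) ((tcosk hC K).obj X) := by
  intro A B q hq f
  obtain ⟨g, hg⟩ := lift_of_cellular hX q.hom (mtf_of_tf hC q hq) ((tadj hC K).homEquiv X B f)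
  refine ⟨((tadj hC K).homEquiv X A).symm g, ?_⟩
  rw [← Adjunction.homEquiv_naturality_right_symm, Equiv.symm_apply_eq]
  exact hg

/-- the unit of the reflection -/
noncomputable abbrev eta (K : ℕ) (X : GlobModel C) : X ⟶ ((tcosk hC K).obj X).obj :=
  (tadj hC K).unit.app X

theorem eta_nat {X Y : GlobModel C} (f : X ⟶ Y) (l : ℕ) (x : X.cells.cell l) :
    (GlobModel.cellsMap (eta hC K Y)).app l ((GlobModel.cellsMap f).app l x) =
      (GlobModel.cellsMap ((tcosk hC K).map f).hom).app l
        ((GlobModel.cellsMap (eta hC K X)).app l x) := by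
  have h := (tadj hC K).unit.naturality f
  have h2 := congrArg (fun g => (GlobModel.cellsMap g).app l x) h
  exact h2

include hC in
theorem full_core (X : C.GlobModel)
    (hX : X.IsCellularModel) (n : ℕ) (a : GlobModel.diskModel C n ⟶ X)
    (Y : C.GlobModel) (i : X ⟶ Y) (b : GlobModel.diskModel C (n + 1) ⟶ Y)
    (sq : IsPushout a (GlobModel.sourceIncl C n) i b) (l : ℕ) (S : X.cells.Sphere l)
    (z : Y.cells.cell l) (hz : Y.cells.bdry l z = (GlobModel.cellsMap i).sphere l S) :
    ∃ z' : X.cells.cell l, X.cells.bdry l z' = S ∧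
      Y.cells.Step l ((GlobModel.cellsMap i).app l z') z := by
  set K := l + 1 with hK
  have hR := rdata_RK hC K
  let L := tcosk hC K
  have : PreservesColimitsOfSize.{0, 0} L := (tadj hC K).leftAdjoint_preservesColimits
  let a' : dk (RK hC K) n ⟶ L.obj X := L.map a
  let b' : dk (RK hC K) (n + 1) ⟶ L.obj Y := L.map b
  have sqL : IsPushout a' (sg (RK hC K) n) (L.map i) b' := sq.map L
  have good : Good (RK hC K) l (L.map i) :=
    plg_all hC K n a' (L.map i) b' (cof_of_cellular hC hX) sqL l
  let r : L.obj Y ⟶ L.obj X := sqL.desc (𝟙 _) (hR.un n ≫ a')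
    (by rw [hR.sg_un_assoc, Category.comp_id])
  have hr : L.map i ≫ r = 𝟙 _ := sqL.inl_desc _ _ _
  have hrefl : Refl (RK hC K) l r := good r (by rw [hr]; exact Refl.id' l _)
  have etaX : ∀ m, m ≤ K → Function.Bijective ((GlobModel.cellsMap (eta hC K X)).app m) :=
    fun m hm => tadj_unit_bijective hC K X m hm
  have etaY : ∀ m, m ≤ K → Function.Bijective ((GlobModel.cellsMap (eta hC K Y)).app m) :=
    fun m hm => tadj_unit_bijective hC K Y m hm
  let u : dk (RK hC K) l ⟶ L.obj Y := (ce hC _ l).symm ((GlobModel.cellsMap (eta hC K Y)).app l z)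
  have hu : ce hC _ l u = (GlobModel.cellsMap (eta hC K Y)).app l z := Equiv.apply_symm_apply _ _
  obtain ⟨z', hz'⟩ := (etaX l (by omega)).2 (ce hC _ l (u ≫ r))
  have hiz' : (GlobModel.cellsMap (eta hC K Y)).app l ((GlobModel.cellsMap i).app l z') =
      ce hC _ l (u ≫ r ≫ L.map i) := by
    rw [eta_nat, hz', ← ce_comp, Category.assoc]
  -- boundary
  have key : Par (RK hC K) (u ≫ r ≫ L.map i) u ∧ X.cells.bdry l z' = S := by
    cases l with
    | zero => exact ⟨trivial, rfl⟩
    | succ l =>
      have hz1 : Y.cells.src l z = (GlobModel.cellsMap i).app l S.1.1 := congrArg (fun s => s.1.1) hz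
      have hz2 : Y.cells.tgt l z = (GlobModel.cellsMap i).app l S.1.2 := congrArg (fun s => s.1.2) hz
      have face : ∀ (s : X.cells.cell l), ∃ t : dk (RK hC K) l ⟶ L.obj X,
          ce hC _ l t = (GlobModel.cellsMap (eta hC K X)).app l s :=
        fun s => ⟨(ce hC _ l).symm _, Equiv.apply_symm_apply _ _⟩
      obtain ⟨s1, hs1⟩ := face S.1.1
      obtain ⟨s2, hs2⟩ := face S.1.2
      have e1 : sg (RK hC K) l ≫ u = s1 ≫ L.map i := by
        apply (ce hC _ l).injective
        rw [ce_sg, hu, ce_comp, hs1, ← (GlobModel.cellsMap (eta hC K Y)).app_src, hz1, eta_nat]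
      have e2 : tg (RK hC K) l ≫ u = s2 ≫ L.map i := by
        apply (ce hC _ l).injective
        rw [ce_tg, hu, ce_comp, hs2, ← (GlobModel.cellsMap (eta hC K Y)).app_tgt, hz2, eta_nat]
      refine ⟨⟨?_, ?_⟩, ?_⟩
      · rw [← Category.assoc, e1, Category.assoc, ← Category.assoc (L.map i), hr, Category.id_comp]
      · rw [← Category.assoc, e2, Category.assoc, ← Category.assoc (L.map i), hr, Category.id_comp]
      · apply Subtype.ext
        refine Prod.ext ?_ ?_
        · show X.cells.src l z' = S.1.1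
          apply (etaX l (by omega)).1
          rw [(GlobModel.cellsMap (eta hC K X)).app_src, hz', ← ce_sg, ← hs1, ← Category.assoc, e1,
            Category.assoc, hr, Category.comp_id]
        · show X.cells.tgt l z' = S.1.2
          apply (etaX l (by omega)).1
          rw [(GlobModel.cellsMap (eta hC K X)).app_tgt, hz', ← ce_tg, ← hs2, ← Category.assoc, e2,
            Category.assoc, hr, Category.comp_id]
  refine ⟨z', key.2, ?_⟩
  obtain ⟨h, h1, h2⟩ := hrefl (u ≫ r ≫ L.map i) u key.1 (by
    rw [Category.assoc, Category.assoc, hr, Category.comp_id]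
    exact Hty.refl hR _)
  obtain ⟨w, hw⟩ := (etaY (l + 1) (by omega)).2 (ce hC _ (l + 1) h)
  refine ⟨w, ?_, ?_⟩
  · apply (etaY l (by omega)).1
    rw [(GlobModel.cellsMap (eta hC K Y)).app_src, hw, ← ce_sg, h1, hiz']
  · apply (etaY l (by omega)).1
    rw [(GlobModel.cellsMap (eta hC K Y)).app_tgt, hw, ← ce_tg, h2, hu]

end Final

theorem full_of_pushout {C : GlobTheory.{u}} (hC : C.IsCoheratorTheory) (X : C.GlobModel)
    (hX : X.IsCellularModel) (n : ℕ) (a : GlobModel.diskModel C n ⟶ X)
    (Y : C.GlobModel) (i : X ⟶ Y) (b : GlobModel.diskModel C (n + 1) ⟶ Y)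
    (sq : IsPushout a (GlobModel.sourceIncl C n) i b) (k : ℕ) : Full k i := by
  cases k with
  | zero =>
    intro z
    obtain ⟨z', _, h⟩ := full_core hC X hX n a Y i b sq 0 PUnit.unit z rfl
    exact ⟨z', h⟩
  | succ k =>
    intro s t hst z hs ht
    obtain ⟨z', h1, h2⟩ := full_core hC X hX n a Y i b sq (k + 1) ⟨(s, t), hst⟩ z
      (Subtype.ext (Prod.ext hs ht))
    exact ⟨z', congrArg (fun s => s.1.1) h1, congrArg (fun s => s.1.2) h1, h2⟩

namespace Final

variable {C : GlobTheory.{u}}

theorem basePoint_map {X Y : GlobModel C} (f : X ⟶ Y) (e : C.UnitChoice) (x : X.cells.cell 0)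
    (k : ℕ) : (GlobModel.cellsMap f).app k (X.basePoint e x k) =
      Y.basePoint e ((GlobModel.cellsMap f).app 0 x) k := by
  induction k with
  | zero => rfl
  | succ k ih =>
    have h := types_congr_hom (f.naturality (Quiver.Hom.op
      (X := (⟨Shape.globe (k + 1)⟩ : C.Ob)) (Y := (⟨Shape.globe k⟩ : C.Ob)) (e.unit k)))
      (X.basePoint e x k)
    change (GlobModel.cellsMap f).app (k + 1) (X.unitCell e k (X.basePoint e x k)) =
      Y.unitCell e k ((GlobModel.cellsMap f).app k (X.basePoint e x k)) at h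
    rw [ih] at h
    exact h

end Final

theorem isWeakEquiv_of_full {C : GlobTheory.{u}} (e : C.UnitChoice) (X : C.GlobModel) (n : ℕ)
    (a : GlobModel.diskModel C n ⟶ X)
    (Y : C.GlobModel) (i : X ⟶ Y) (b : GlobModel.diskModel C (n + 1) ⟶ Y)
    (sq : IsPushout a (GlobModel.sourceIncl C n) i b) (hfull : ∀ k, Full k i) :
    GlobModel.IsWeakEquiv e i := by
  -- the retraction
  let un : GlobModel.diskModel C (n + 1) ⟶ GlobModel.diskModel C n :=
    (yoneda.map (X := (⟨Shape.globe (n + 1)⟩ : C.Ob)) (Y := (⟨Shape.globe n⟩ : C.Ob)) (e.unit n) :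
      (GlobModel.diskModel C (n + 1)).functor ⟶ (GlobModel.diskModel C n).functor)
  have hun : GlobModel.sourceIncl C n ≫ un = 𝟙 _ := by
    have h1 : (C.incl.map (Shape.σ n) ≫
        (show C.incl.obj (Shape.globe (n + 1)) ⟶ C.incl.obj (Shape.globe n) from e.unit n)) =
          𝟙 _ := e.src_unit n
    have h2 := congrArg (fun f => yoneda.map f) h1
    exact (yoneda.map_comp _ _).symm.trans (h2.trans (yoneda.map_id _))
  obtain ⟨r, hr⟩ : ∃ r : Y ⟶ X, i ≫ r = 𝟙 X :=
    ⟨sq.desc (𝟙 X) (un ≫ a) (by rw [← Category.assoc, hun]; simp), sq.inl_desc _ _ _⟩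
  have hri : ∀ (l : ℕ) (x : X.cells.cell l),
      (GlobModel.cellsMap r).app l ((GlobModel.cellsMap i).app l x) = x := by
    intro l x
    rw [← cellsMap_comp_app, hr, cellsMap_id_app]
  refine ⟨⟨?_, ?_⟩, fun x m => ⟨?_, ?_⟩⟩
  · -- injectivity on components
    have hleft : Function.LeftInverse (GlobModel.componentsMap r) (GlobModel.componentsMap i) := by
      intro q
      induction q using Quot.ind with
      | mk z =>
        show Quot.mk _ ((GlobModel.cellsMap r).app 0 ((GlobModel.cellsMap i).app 0 z)) = Quot.mk _ z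
        rw [hri]
    exact hleft.injective
  · -- surjectivity on components
    intro q
    induction q using Quot.ind with
    | mk z =>
      obtain ⟨z', hz'⟩ := hfull 0 z
      exact ⟨Quot.mk _ z', Quot.sound hz'⟩
  · -- injectivity on homotopy classes
    have hbase : ∀ l, (GlobModel.cellsMap r).app l
        (Y.basePoint e ((GlobModel.cellsMap i).app 0 x) l) = X.basePoint e x l := by
      intro l
      rw [basePoint_map, hri]
    let ρ : Y.LoopsAt e ((GlobModel.cellsMap i).app 0 x) m → X.LoopsAt e x m := fun z =>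
      ⟨(GlobModel.cellsMap r).app (m + 1) z.1,
        by rw [← (GlobModel.cellsMap r).app_src, z.2.1, hbase],
        by rw [← (GlobModel.cellsMap r).app_tgt, z.2.2, hbase]⟩
    let ρ' : Y.HomotopyClasses e ((GlobModel.cellsMap i).app 0 x) m → X.HomotopyClasses e x m :=
      Quot.map ρ (by
        rintro _ _ ⟨c, hs, ht⟩
        exact ⟨(GlobModel.cellsMap r).app (m + 2) c,
          by rw [← (GlobModel.cellsMap r).app_src, hs],
          by rw [← (GlobModel.cellsMap r).app_tgt, ht]⟩)
    have hleft : Function.LeftInverse ρ' (GlobModel.homotopyMap i e x m) := by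
      intro q
      induction q using Quot.ind with
      | mk z =>
        show Quot.mk _ (ρ (GlobModel.loopsMap i e x m z)) = Quot.mk _ z
        congr 1
        apply Subtype.ext
        exact hri (m + 1) z.1
    exact hleft.injective
  · -- surjectivity on homotopy classes
    intro q
    induction q using Quot.ind with
    | mk z =>
      have hpar : X.cells.AreParallel m (X.basePoint e x m) (X.basePoint e x m) := by
        cases m with
        | zero => trivial
        | succ m => exact ⟨rfl, rfl⟩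
      obtain ⟨z', h1, h2, h3⟩ := hfull (m + 1) _ _ hpar z.1
        (by rw [z.2.1, basePoint_map]) (by rw [z.2.2, basePoint_map])
      exact ⟨Quot.mk _ ⟨z', h1, h2⟩, Quot.sound h3⟩

end Crest.Agent.Grot
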