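import Crest.Agent.Grot.Shapes

/-!
Row 248: homotopy of parallel cells; units, inverses, compositions.
-/

set_option autoImplicit false

open CategoryTheory CategoryTheory.Limits Opposite Crest.GeometryTopology.Coherator

universe v w u

namespace Crest.Agent.Grot

section faces

theorem σ_σ (l : ℕ) : Shape.σ l ≫ Shape.σ (l + 1) = Shape.σ l ≫ Shape.τ (l + 1) := by
  unfold Shape.σ Shape.τ
  rw [faceMap_comp, faceMap_comp]

theorem τ_σ (l : ℕ) : Shape.τ l ≫ Shape.σ (l + 1) = Shape.τ l ≫ Shape.τ (l + 1) := by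
  unfold Shape.σ Shape.τ
  rw [faceMap_comp, faceMap_comp]

end faces

variable {𝓜 : Type w} [Category.{v} 𝓜] (R : Shape ⥤ 𝓜)

theorem sg_sg (l : ℕ) : sg R l ≫ sg R (l + 1) = sg R l ≫ tg R (l + 1) := by
  rw [← R.map_comp, ← R.map_comp, σ_σ]

theorem tg_sg (l : ℕ) : tg R l ≫ sg R (l + 1) = tg R l ≫ tg R (l + 1) := by
  rw [← R.map_comp, ← R.map_comp, τ_σ]

theorem Par.refl {l : ℕ} {Y : 𝓜} (x : dk R l ⟶ Y) : Par R x x := by
  cases l with
  | zero => trivial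
  | succ l => exact ⟨rfl, rfl⟩

variable {R}

theorem Par.symm {l : ℕ} {Y : 𝓜} {x y : dk R l ⟶ Y} (h : Par R x y) : Par R y x := by
  cases l with
  | zero => trivial
  | succ l => exact ⟨h.1.symm, h.2.symm⟩

theorem Par.trans {l : ℕ} {Y : 𝓜} {x y z : dk R l ⟶ Y} (h : Par R x y) (h' : Par R y z) :
    Par R x z := by
  cases l with
  | zero => trivial
  | succ l => exact ⟨h.1.trans h'.1, h.2.trans h'.2⟩

theorem Par.comp {l : ℕ} {Y Z : 𝓜} {x y : dk R l ⟶ Y} (h : Par R x y) (m : Y ⟶ Z) :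
    Par R (x ≫ m) (y ≫ m) := by
  cases l with
  | zero => trivial
  | succ l => exact ⟨by rw [← Category.assoc, h.1, Category.assoc],
      by rw [← Category.assoc, h.2, Category.assoc]⟩

/-- the two faces of a cell are parallel -/
theorem par_faces {l : ℕ} {Y : 𝓜} (h : dk R (l + 1) ⟶ Y) : Par R (sg R l ≫ h) (tg R l ≫ h) := by
  cases l with
  | zero => trivial
  | succ l =>
    exact ⟨by rw [← Category.assoc, sg_sg, Category.assoc],
      by rw [← Category.assoc, tg_sg, Category.assoc]⟩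

theorem Hty.par {l : ℕ} {Y : 𝓜} {x y : dk R l ⟶ Y} (h : Hty R x y) : Par R x y := by
  obtain ⟨h, rfl, rfl⟩ := h
  exact par_faces h

theorem Hty.comp {l : ℕ} {Y Z : 𝓜} {x y : dk R l ⟶ Y} (h : Hty R x y) (m : Y ⟶ Z) :
    Hty R (x ≫ m) (y ≫ m) := by
  obtain ⟨h, rfl, rfl⟩ := h
  exact ⟨h ≫ m, by simp, by simp⟩

@[simp] theorem dim_globe (l : ℕ) : (Shape.globe l).dim = l := rfl

@[simp] theorem last_globe (l : ℕ) : (Shape.globe l).last = l := rfl

@[simp] theorem dim_glue (S : Shape) (b h : ℕ) (hb : b < S.last) (hh : b < h) :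
    (S.glue b h hb hh).dim = max S.dim h := rfl

/-- a unit operation -/
theorem RData.exists_unit (hR : RData R) (l : ℕ) :
    ∃ u : dk R (l + 1) ⟶ dk R l, sg R l ≫ u = 𝟙 _ ∧ tg R l ≫ u = 𝟙 _ :=
  hR.rc (Shape.globe l) l (by simp) (𝟙 _) (𝟙 _) (Par.refl R _)

/-- a unit operation -/
noncomputable def RData.un (hR : RData R) (l : ℕ) : dk R (l + 1) ⟶ dk R l :=
  (hR.exists_unit l).choose

@[reassoc (attr := simp)] theorem RData.sg_un (hR : RData R) (l : ℕ) : sg R l ≫ hR.un l = 𝟙 _ :=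
  (hR.exists_unit l).choose_spec.1

@[reassoc (attr := simp)] theorem RData.tg_un (hR : RData R) (l : ℕ) : tg R l ≫ hR.un l = 𝟙 _ :=
  (hR.exists_unit l).choose_spec.2

/-- homotopy of parallel cells: reflexive, symmetric, transitive -/
theorem Hty.refl (hR : RData R) {l : ℕ} {Y : 𝓜} (x : dk R l ⟶ Y) : Hty R x x :=
  ⟨hR.un l ≫ x, by simp, by simp⟩

/-- an inverse operation -/
theorem RData.exists_inv (hR : RData R) (l : ℕ) :
    ∃ u : dk R (l + 1) ⟶ dk R (l + 1), sg R l ≫ u = tg R l ∧ tg R l ≫ u = sg R l :=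
  hR.rc (Shape.globe (l + 1)) l (by simp) (tg R l) (sg R l) (by
    have := par_faces (𝟙 (dk R (l + 1)))
    simp only [Category.comp_id] at this
    exact this.symm)

/-- an inverse operation -/
noncomputable def RData.nv (hR : RData R) (l : ℕ) : dk R (l + 1) ⟶ dk R (l + 1) :=
  (hR.exists_inv l).choose

@[reassoc (attr := simp)] theorem RData.sg_nv (hR : RData R) (l : ℕ) :
    sg R l ≫ hR.nv l = tg R l :=
  (hR.exists_inv l).choose_spec.1

@[reassoc (attr := simp)] theorem RData.tg_nv (hR : RData R) (l : ℕ) :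
    tg R l ≫ hR.nv l = sg R l :=
  (hR.exists_inv l).choose_spec.2

theorem Hty.symm (hR : RData R) {l : ℕ} {Y : 𝓜} {x y : dk R l ⟶ Y} (h : Hty R x y) :
    Hty R y x := by
  obtain ⟨h, rfl, rfl⟩ := h
  exact ⟨hR.nv l ≫ h, by simp, by simp⟩


theorem hinge_globe {a l : ℕ} (ha : l < a) :
    (Shape.globe a).hinge ha = Shape.faceMap ha true := by
  show GlobPsh.globeRepFace ha true ≫ 𝟙 _ = GlobPsh.globeRepFace ha true
  rw [Category.comp_id]

/-- the shape of a composable pair of `(l+1)`-cells along an `l`-cell -/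
abbrev S2 (l : ℕ) : Shape :=
  (Shape.globe (l + 1)).glue l (l + 1) (Nat.lt_succ_self l) (Nat.lt_succ_self l)

variable (R) in
/-- first cell of the pair -/
noncomputable abbrev l2 (l : ℕ) : dk R (l + 1) ⟶ R.obj (S2 l) :=
  R.map ((Shape.globe (l + 1)).inLeft l (l + 1) (Nat.lt_succ_self l) (Nat.lt_succ_self l))

variable (R) in
/-- second cell of the pair -/
noncomputable abbrev r2 (l : ℕ) : dk R (l + 1) ⟶ R.obj (S2 l) :=
  R.map ((Shape.globe (l + 1)).inRight l (l + 1) (Nat.lt_succ_self l) (Nat.lt_succ_self l))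

theorem RData.S2po (hR : RData R) (l : ℕ) :
    IsPushout (tg R l) (sg R l) (l2 R l) (r2 R l) := by
  have := hR.glue (Shape.globe (l + 1)) l (l + 1) (Nat.lt_succ_self l) (Nat.lt_succ_self l)
  rw [hinge_globe] at this
  exact this

theorem RData.exists_cmp (hR : RData R) (l : ℕ) :
    ∃ u : dk R (l + 1) ⟶ R.obj (S2 l), sg R l ≫ u = sg R l ≫ l2 R l ∧
      tg R l ≫ u = tg R l ≫ r2 R l :=
  hR.rc (S2 l) l (by simp) _ _
    ((par_faces _).trans (((hR.S2po l).w ▸ Par.refl R _ : Par R (tg R l ≫ l2 R l)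
      (sg R l ≫ r2 R l)).trans (par_faces _)))

/-- a composition operation -/
noncomputable def RData.cm (hR : RData R) (l : ℕ) : dk R (l + 1) ⟶ R.obj (S2 l) :=
  (hR.exists_cmp l).choose

/-- the composite of two cells -/
noncomputable def RData.cmp (hR : RData R) {l : ℕ} {Y : 𝓜} (h h' : dk R (l + 1) ⟶ Y)
    (w : tg R l ≫ h = sg R l ≫ h') : dk R (l + 1) ⟶ Y :=
  hR.cm l ≫ (hR.S2po l).desc h h' w

theorem RData.sg_cmp (hR : RData R) {l : ℕ} {Y : 𝓜} (h h' : dk R (l + 1) ⟶ Y)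
    (w : tg R l ≫ h = sg R l ≫ h') : sg R l ≫ hR.cmp h h' w = sg R l ≫ h := by
  unfold RData.cmp RData.cm
  rw [← Category.assoc, (hR.exists_cmp l).choose_spec.1, Category.assoc,
    (hR.S2po l).inl_desc]

theorem RData.tg_cmp (hR : RData R) {l : ℕ} {Y : 𝓜} (h h' : dk R (l + 1) ⟶ Y)
    (w : tg R l ≫ h = sg R l ≫ h') : tg R l ≫ hR.cmp h h' w = tg R l ≫ h' := by
  unfold RData.cmp RData.cm
  rw [← Category.assoc, (hR.exists_cmp l).choose_spec.2, Category.assoc,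
    (hR.S2po l).inr_desc]

theorem RData.cmp_comp (hR : RData R) {l : ℕ} {Y Z : 𝓜} (h h' : dk R (l + 1) ⟶ Y)
    (w : tg R l ≫ h = sg R l ≫ h') (m : Y ⟶ Z) :
    hR.cmp h h' w ≫ m = hR.cmp (h ≫ m) (h' ≫ m) (by
      rw [← Category.assoc, w, Category.assoc]) := by
  unfold RData.cmp
  rw [Category.assoc]
  congr 1
  apply (hR.S2po l).hom_ext
  · simp
  · simp

theorem Hty.trans (hR : RData R) {l : ℕ} {Y : 𝓜} {x y z : dk R l ⟶ Y} (h : Hty R x y)
    (h' : Hty R y z) : Hty R x z := by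
  obtain ⟨h, rfl, e⟩ := h
  obtain ⟨h', e', rfl⟩ := h'
  exact ⟨hR.cmp h h' (e.trans e'.symm), hR.sg_cmp _ _ _, hR.tg_cmp _ _ _⟩

/-- left whiskering of a homotopy -/
theorem RData.cmp_congr_left (hR : RData R) {l : ℕ} {Y : 𝓜} {a b : dk R (l + 1) ⟶ Y}
    (hab : Hty R a b) (g : dk R (l + 1) ⟶ Y) (wa : tg R l ≫ a = sg R l ≫ g)
    (wb : tg R l ≫ b = sg R l ≫ g) : Hty R (hR.cmp a g wa) (hR.cmp b g wb) := by
  obtain ⟨w, rfl, rfl⟩ := hab
  have hl : l < l + 2 := by omega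
  let W : Shape := (Shape.globe (l + 2)).glue l (l + 1) hl (Nat.lt_succ_self l)
  have po := hR.glue (Shape.globe (l + 2)) l (l + 1) hl (Nat.lt_succ_self l)
  rw [hinge_globe] at po
  have e1 : R.map (Shape.faceMap hl true) = tg R l ≫ sg R (l + 1) := by
    rw [← R.map_comp]
    unfold Shape.σ Shape.τ
    rw [faceMap_comp]
  rw [e1] at po
  set L : R.obj (Shape.globe (l + 2)) ⟶ R.obj W := R.map
    ((Shape.globe (l + 2)).inLeft l (l + 1) hl (Nat.lt_succ_self l)) with hL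
  set G : R.obj (Shape.globe (l + 1)) ⟶ R.obj W := R.map
    ((Shape.globe (l + 2)).inRight l (l + 1) hl (Nat.lt_succ_self l)) with hG
  have w1 : tg R l ≫ (sg R (l + 1) ≫ L) = sg R l ≫ G := by
    rw [← Category.assoc]; exact po.w
  have w2 : tg R l ≫ (tg R (l + 1) ≫ L) = sg R l ≫ G := by
    rw [← Category.assoc, ← tg_sg]; exact po.w
  have key : Hty R (hR.cmp _ _ w1) (hR.cmp _ _ w2) := by
    apply hR.rc W (l + 1)
    · show max (l + 2) (l + 1) ≤ l + 1 + 1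
      omega
    · refine ⟨?_, ?_⟩
      · rw [hR.sg_cmp, hR.sg_cmp, ← Category.assoc, sg_sg, Category.assoc]
      · rw [hR.tg_cmp, hR.tg_cmp]
  have wd : (tg R l ≫ sg R (l + 1)) ≫ w = sg R l ≫ g := by
    rw [Category.assoc]; exact wa
  have := key.comp (po.desc w g wd)
  rw [hR.cmp_comp, hR.cmp_comp] at this
  simpa using this

/-- associativity up to homotopy -/
theorem RData.cmp_assoc (hR : RData R) {l : ℕ} {Y : 𝓜} (a b c : dk R (l + 1) ⟶ Y)
    (wab : tg R l ≫ a = sg R l ≫ b) (wbc : tg R l ≫ b = sg R l ≫ c) :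
    Hty R (hR.cmp a (hR.cmp b c wbc) (by rw [hR.sg_cmp]; exact wab))
      (hR.cmp (hR.cmp a b wab) c (by rw [hR.tg_cmp]; exact wbc)) := by
  have hl : l < (S2 l).last := Nat.lt_succ_self l
  let W : Shape := (S2 l).glue l (l + 1) hl (Nat.lt_succ_self l)
  have po := hR.glue (S2 l) l (l + 1) hl (Nat.lt_succ_self l)
  have e0 : (S2 l).hinge (b := l) hl = Shape.τ l ≫
      (Shape.globe (l + 1)).inRight l (l + 1) (Nat.lt_succ_self l) (Nat.lt_succ_self l) :=
    hinge_glue _ _ _ _ _ _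
  rw [e0, R.map_comp] at po
  set L : R.obj (S2 l) ⟶ R.obj W := R.map
    ((S2 l).inLeft l (l + 1) hl (Nat.lt_succ_self l)) with hL
  set G : R.obj (Shape.globe (l + 1)) ⟶ R.obj W := R.map
    ((S2 l).inRight l (l + 1) hl (Nat.lt_succ_self l)) with hG
  have w1 : tg R l ≫ (l2 R l ≫ L) = sg R l ≫ (r2 R l ≫ L) := by
    rw [← Category.assoc, (hR.S2po l).w, Category.assoc]
  have w2 : tg R l ≫ (r2 R l ≫ L) = sg R l ≫ G := by
    rw [← Category.assoc]; exact po.w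
  have w3 : tg R l ≫ (l2 R l ≫ L) = sg R l ≫ hR.cmp _ _ w2 := by
    rw [hR.sg_cmp]; exact w1
  have w4 : tg R l ≫ hR.cmp _ _ w1 = sg R l ≫ G := by
    rw [hR.tg_cmp]; exact w2
  have key : Hty R (hR.cmp _ _ w3) (hR.cmp _ _ w4) := by
    apply hR.rc W (l + 1)
    · show max (max (l + 1) (l + 1)) (l + 1) ≤ l + 1 + 1
      omega
    · refine ⟨?_, ?_⟩
      · rw [hR.sg_cmp, hR.sg_cmp, hR.sg_cmp]
      · rw [hR.tg_cmp, hR.tg_cmp, hR.tg_cmp]
  have wd : (tg R l ≫ r2 R l) ≫ (hR.S2po l).desc a b wab = sg R l ≫ c := by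
    rw [Category.assoc, (hR.S2po l).inr_desc]; exact wbc
  have := key.comp (po.desc ((hR.S2po l).desc a b wab) c wd)
  simp only [hR.cmp_comp, Category.assoc, IsPushout.inl_desc, IsPushout.inr_desc] at this
  exact this

/-- left unit law up to homotopy -/
theorem RData.un_cmp (hR : RData R) {l : ℕ} {Y : 𝓜} (g : dk R (l + 1) ⟶ Y) :
    Hty R (hR.cmp (hR.un l ≫ sg R l ≫ g) g (by simp)) g := by
  have key : Hty R (hR.cmp (hR.un l ≫ sg R l) (𝟙 (dk R (l + 1))) (by simp)) (𝟙 _) := by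
    apply hR.rc (Shape.globe (l + 1)) (l + 1) (by simp)
    refine ⟨?_, ?_⟩
    · rw [hR.sg_cmp]; simp
    · rw [hR.tg_cmp]
  have := key.comp g
  simpa [hR.cmp_comp] using this

/-- inverse law up to homotopy -/
theorem RData.cmp_nv (hR : RData R) {l : ℕ} {Y : 𝓜} (h : dk R (l + 1) ⟶ Y) :
    Hty R (hR.cmp h (hR.nv l ≫ h) (by simp)) (hR.un l ≫ sg R l ≫ h) := by
  have key : Hty R (hR.cmp (𝟙 (dk R (l + 1))) (hR.nv l) (by simp)) (hR.un l ≫ sg R l) := by
    apply hR.rc (Shape.globe (l + 1)) (l + 1) (by simp)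
    refine ⟨?_, ?_⟩
    · rw [hR.sg_cmp]; simp
    · rw [hR.tg_cmp]; simp
  have := key.comp h
  simpa [hR.cmp_comp] using this

/-- `h ∘ (h⁻¹ ∘ g) ~ g` -/
theorem RData.cmp_cmp_nv (hR : RData R) {l : ℕ} {Y : 𝓜} (h g : dk R (l + 1) ⟶ Y)
    (w : sg R l ≫ h = sg R l ≫ g) :
    Hty R (hR.cmp h (hR.cmp (hR.nv l ≫ h) g (by simp [w])) (by rw [hR.sg_cmp]; simp)) g := by
  refine Hty.trans hR (hR.cmp_assoc h (hR.nv l ≫ h) g (by simp) (by simp [w])) ?_
  have h2 := hR.un_cmp g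
  refine Hty.trans hR ?_ h2
  have h3 := hR.cmp_nv h
  have e : hR.un l ≫ sg R l ≫ g = hR.un l ≫ sg R l ≫ h := by rw [w]
  simp only [e]
  exact hR.cmp_congr_left h3 g _ _

end Crest.Agent.Grot
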