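import Crest.Agent.Grot.BClass

/-!
Row 248: levelwise relative cylinders and their properties.
-/

set_option autoImplicit false

open CategoryTheory CategoryTheory.Limits Opposite Crest.GeometryTopology.Coherator

universe v w u

namespace Crest.Agent.Grot

variable {𝓜 : Type w} [Category.{v} 𝓜]

/-- Levelwise relative cylinders. `Box l` is the box (boundary of the cylinder plus the `0`-end). -/
structure LData (R : Shape ⥤ 𝓜) (n : ℕ) where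
  E : ℕ → 𝓜
  s : ∀ l, E l ⟶ E (l + 1)
  t : ∀ l, E l ⟶ E (l + 1)
  Box : ℕ → 𝓜
  β : ∀ l, dk R l ⟶ Box l
  k : ∀ l, Box l ⟶ E l
  bs : ∀ l, E l ⟶ Box (l + 1)
  bt : ∀ l, E l ⟶ Box (l + 1)
  i1 : ∀ l, dk R l ⟶ E l
  bs_k : ∀ l, bs l ≫ k (l + 1) = s l
  bt_k : ∀ l, bt l ≫ k (l + 1) = t l
  s_bs : ∀ l, s l ≫ bs (l + 1) = s l ≫ bt (l + 1)
  t_bs : ∀ l, t l ≫ bs (l + 1) = t l ≫ bt (l + 1)
  sg_β : ∀ l, sg R l ≫ β (l + 1) = β l ≫ k l ≫ bs l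
  tg_β : ∀ l, tg R l ≫ β (l + 1) = β l ≫ k l ≫ bt l
  sg_i1 : ∀ l, sg R l ≫ i1 (l + 1) = i1 l ≫ s l
  tg_i1 : ∀ l, tg R l ≫ i1 (l + 1) = i1 l ≫ t l
  box_zero : IsIso (β 0)
  box_desc_zero : ∀ {Y : 𝓜} (es et : E 0 ⟶ Y) (x0 : dk R 1 ⟶ Y),
    sg R 0 ≫ x0 = β 0 ≫ k 0 ≫ es → tg R 0 ≫ x0 = β 0 ≫ k 0 ≫ et →
    ∃ f : Box 1 ⟶ Y, bs 0 ≫ f = es ∧ bt 0 ≫ f = et ∧ β 1 ≫ f = x0
  box_desc_succ : ∀ (l : ℕ) {Y : 𝓜} (es et : E (l + 1) ⟶ Y) (x0 : dk R (l + 2) ⟶ Y),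
    s l ≫ es = s l ≫ et → t l ≫ es = t l ≫ et →
    sg R (l + 1) ≫ x0 = β (l + 1) ≫ k (l + 1) ≫ es →
    tg R (l + 1) ≫ x0 = β (l + 1) ≫ k (l + 1) ≫ et →
    ∃ f : Box (l + 2) ⟶ Y, bs (l + 1) ≫ f = es ∧ bt (l + 1) ≫ f = et ∧ β (l + 2) ≫ f = x0
  box_ext : ∀ (l : ℕ) {Y : 𝓜} (f f' : Box (l + 1) ⟶ Y), bs l ≫ f = bs l ≫ f' →
    bt l ≫ f = bt l ≫ f' → β (l + 1) ≫ f = β (l + 1) ≫ f' → f = f'
  low_iso : ∀ l, l < n → IsIso (k l)
  low_i1 : ∀ l, l < n → i1 l = β l ≫ k l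
  pad : ∀ l, n ≤ l → (dk R l ⟶ Box l)
  c : ∀ l, n ≤ l → (dk R (l + 1) ⟶ E l)
  po : ∀ l (h : n ≤ l), IsPushout (pad l h) (sg R l) (k l) (c l h)
  i1_eq : ∀ l (h : n ≤ l), i1 l = tg R l ≫ c l h
  pad_n : ∀ (h : n ≤ n), pad n h = β n
  sg_pad : ∀ l (h : n ≤ l + 1), sg R l ≫ pad (l + 1) h = i1 l ≫ bs l
  tg_pad : ∀ l (h : n ≤ l + 1), tg R l ≫ pad (l + 1) h = i1 l ≫ bt l
  bc : ∀ l, ∃ r, BC R n (Shape.globe l) r (β l)

namespace LData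

variable {R : Shape ⥤ 𝓜} {n : ℕ} (L : LData R n)

/-- the `0`-end -/
noncomputable def i0 (l : ℕ) : dk R l ⟶ L.E l := L.β l ≫ L.k l

theorem sg_i0 (l : ℕ) : sg R l ≫ L.i0 (l + 1) = L.i0 l ≫ L.s l := by
  unfold i0
  rw [← Category.assoc, L.sg_β, ← L.bs_k]
  simp

theorem tg_i0 (l : ℕ) : tg R l ≫ L.i0 (l + 1) = L.i0 l ≫ L.t l := by
  unfold i0
  rw [← Category.assoc, L.tg_β, ← L.bt_k]
  simp

theorem s_s (l : ℕ) : L.s l ≫ L.s (l + 1) = L.s l ≫ L.t (l + 1) := by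
  rw [← L.bs_k (l + 1), ← L.bt_k (l + 1), ← Category.assoc, L.s_bs, Category.assoc]

theorem t_s (l : ℕ) : L.t l ≫ L.s (l + 1) = L.t l ≫ L.t (l + 1) := by
  rw [← L.bs_k (l + 1), ← L.bt_k (l + 1), ← Category.assoc, L.t_bs, Category.assoc]

/-- parallel cylinders -/
def LPar : {l : ℕ} → {Y : 𝓜} → (x y : L.E l ⟶ Y) → Prop
  | 0, _, _, _ => True
  | _ + 1, _, x, y => L.s _ ≫ x = L.s _ ≫ y ∧ L.t _ ≫ x = L.t _ ≫ y

/-- maps out of boxes with the same boundary -/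
def BPar : {l : ℕ} → {Y : 𝓜} → (x y : L.Box l ⟶ Y) → Prop
  | 0, _, _, _ => True
  | _ + 1, _, x, y => L.bs _ ≫ x = L.bs _ ≫ y ∧ L.bt _ ≫ x = L.bt _ ≫ y

variable {L}

theorem LPar.bpar {l : ℕ} {Y : 𝓜} {x y : L.E l ⟶ Y} (h : L.LPar x y) :
    L.BPar (L.k l ≫ x) (L.k l ≫ y) := by
  cases l with
  | zero => trivial
  | succ l =>
    refine ⟨?_, ?_⟩
    · rw [← Category.assoc, ← Category.assoc, L.bs_k]; exact h.1
    · rw [← Category.assoc, ← Category.assoc, L.bt_k]; exact h.2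

theorem BPar.lpar {l : ℕ} {Y : 𝓜} {x y : L.E l ⟶ Y} (h : L.BPar (L.k l ≫ x) (L.k l ≫ y)) :
    L.LPar x y := by
  cases l with
  | zero => trivial
  | succ l =>
    refine ⟨?_, ?_⟩
    · have := h.1
      rw [← Category.assoc, ← Category.assoc, L.bs_k] at this; exact this
    · have := h.2
      rw [← Category.assoc, ← Category.assoc, L.bt_k] at this; exact this

theorem BPar.symm {l : ℕ} {Y : 𝓜} {x y : L.Box l ⟶ Y} (h : L.BPar x y) : L.BPar y x := by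
  cases l with
  | zero => trivial
  | succ l => exact ⟨h.1.symm, h.2.symm⟩

theorem BPar.trans {l : ℕ} {Y : 𝓜} {x y z : L.Box l ⟶ Y} (h : L.BPar x y) (h' : L.BPar y z) :
    L.BPar x z := by
  cases l with
  | zero => trivial
  | succ l => exact ⟨h.1.trans h'.1, h.2.trans h'.2⟩

theorem BPar.comp {l : ℕ} {Y Z : 𝓜} {x y : L.Box l ⟶ Y} (h : L.BPar x y) (m : Y ⟶ Z) :
    L.BPar (x ≫ m) (y ≫ m) := by
  cases l with
  | zero => trivial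
  | succ l => exact ⟨by rw [← Category.assoc, h.1, Category.assoc],
      by rw [← Category.assoc, h.2, Category.assoc]⟩

theorem BPar.ext {l : ℕ} {Y : 𝓜} {x y : L.Box l ⟶ Y} (h : L.BPar x y)
    (h' : L.β l ≫ x = L.β l ≫ y) : x = y := by
  cases l with
  | zero =>
    have := L.box_zero
    exact (cancel_epi (L.β 0)).1 h'
  | succ l => exact L.box_ext l _ _ h.1 h.2 h'

theorem LPar.symm {l : ℕ} {Y : 𝓜} {x y : L.E l ⟶ Y} (h : L.LPar x y) : L.LPar y x := by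
  cases l with
  | zero => trivial
  | succ l => exact ⟨h.1.symm, h.2.symm⟩

theorem LPar.comp {l : ℕ} {Y Z : 𝓜} {x y : L.E l ⟶ Y} (h : L.LPar x y) (m : Y ⟶ Z) :
    L.LPar (x ≫ m) (y ≫ m) := by
  cases l with
  | zero => trivial
  | succ l => exact ⟨by rw [← Category.assoc, h.1, Category.assoc],
      by rw [← Category.assoc, h.2, Category.assoc]⟩

/-- ends of parallel cylinders are parallel -/
theorem LPar.i0 {l : ℕ} {Y : 𝓜} {x y : L.E l ⟶ Y} (h : L.LPar x y) :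
    Par R (L.i0 l ≫ x) (L.i0 l ≫ y) := by
  cases l with
  | zero => trivial
  | succ l =>
    refine ⟨?_, ?_⟩
    · rw [← Category.assoc, ← Category.assoc, L.sg_i0, Category.assoc, Category.assoc, h.1]
    · rw [← Category.assoc, ← Category.assoc, L.tg_i0, Category.assoc, Category.assoc, h.2]

theorem LPar.i1 {l : ℕ} {Y : 𝓜} {x y : L.E l ⟶ Y} (h : L.LPar x y) :
    Par R (L.i1 l ≫ x) (L.i1 l ≫ y) := by
  cases l with
  | zero => trivial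
  | succ l =>
    refine ⟨?_, ?_⟩
    · rw [← Category.assoc, ← Category.assoc, L.sg_i1, Category.assoc, Category.assoc, h.1]
    · rw [← Category.assoc, ← Category.assoc, L.tg_i1, Category.assoc, Category.assoc, h.2]

variable (L)

/-- change the `0`-end of a box -/
theorem box_change {l : ℕ} {Y : 𝓜} (f : L.Box l ⟶ Y) (x : dk R l ⟶ Y)
    (h : Par R (L.β l ≫ f) x) : ∃ f' : L.Box l ⟶ Y, L.BPar f f' ∧ L.β l ≫ f' = x := by
  cases l with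
  | zero =>
    have := L.box_zero
    exact ⟨inv (L.β 0) ≫ x, trivial, by simp⟩
  | succ l =>
    have h1 : sg R l ≫ x = L.β l ≫ L.k l ≫ L.bs l ≫ f := by
      rw [← h.1, ← Category.assoc, L.sg_β]; simp
    have h2 : tg R l ≫ x = L.β l ≫ L.k l ≫ L.bt l ≫ f := by
      rw [← h.2, ← Category.assoc, L.tg_β]; simp
    cases l with
    | zero =>
      obtain ⟨f', a, b, c⟩ := L.box_desc_zero (L.bs 0 ≫ f) (L.bt 0 ≫ f) x h1 h2
      exact ⟨f', ⟨a.symm, b.symm⟩, c⟩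
    | succ l =>
      obtain ⟨f', a, b, c⟩ := L.box_desc_succ l (L.bs (l + 1) ≫ f) (L.bt (l + 1) ≫ f) x
        (by rw [← Category.assoc, L.s_bs, Category.assoc])
        (by rw [← Category.assoc, L.t_bs, Category.assoc]) h1 h2
      exact ⟨f', ⟨a.symm, b.symm⟩, c⟩

/-- maps out of boxes from parallel cylinders and a `0`-end -/
theorem box_desc {l : ℕ} {Y : 𝓜} (es et : L.E l ⟶ Y) (hp : L.LPar es et) (x0 : dk R (l + 1) ⟶ Y)
    (h1 : sg R l ≫ x0 = L.i0 l ≫ es) (h2 : tg R l ≫ x0 = L.i0 l ≫ et) :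
    ∃ f : L.Box (l + 1) ⟶ Y, L.bs l ≫ f = es ∧ L.bt l ≫ f = et ∧ L.β (l + 1) ≫ f = x0 := by
  unfold LData.i0 at h1 h2
  rw [Category.assoc] at h1 h2
  cases l with
  | zero => exact L.box_desc_zero es et x0 h1 h2
  | succ l => exact L.box_desc_succ l es et x0 hp.1 hp.2 h1 h2

theorem pad_par {l : ℕ} (h : n ≤ l) {Y : 𝓜} {f f' : L.Box l ⟶ Y} (hf : L.BPar f f') :
    Par R (L.pad l h ≫ f) (L.pad l h ≫ f') := by
  cases l with
  | zero => trivial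
  | succ l =>
    refine ⟨?_, ?_⟩
    · rw [← Category.assoc, ← Category.assoc, L.sg_pad, Category.assoc, Category.assoc, hf.1]
    · rw [← Category.assoc, ← Category.assoc, L.tg_pad, Category.assoc, Category.assoc, hf.2]

/-- the source of the cylinder cell -/
theorem hty_pad {l : ℕ} (h : n ≤ l) {Y : 𝓜} (e : L.E l ⟶ Y) :
    Hty R (L.pad l h ≫ L.k l ≫ e) (L.i1 l ≫ e) := by
  refine ⟨L.c l h ≫ e, ?_, ?_⟩
  · rw [← Category.assoc, ← (L.po l h).w, Category.assoc]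
  · rw [L.i1_eq l h, Category.assoc]

/-- extension of a box to a cylinder with prescribed `1`-end -/
theorem ext_box {l : ℕ} (h : n ≤ l) {Y : 𝓜} (f : L.Box l ⟶ Y) (x1 : dk R l ⟶ Y)
    (hx : Hty R (L.pad l h ≫ f) x1) : ∃ e : L.E l ⟶ Y, L.k l ≫ e = f ∧ L.i1 l ≫ e = x1 := by
  obtain ⟨w, hw0, hw1⟩ := hx
  refine ⟨(L.po l h).desc f w hw0.symm, (L.po l h).inl_desc _ _ _, ?_⟩
  rw [L.i1_eq l h, Category.assoc, (L.po l h).inr_desc, hw1]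

theorem tf_box (hR : RData R) {l : ℕ} {Y : 𝓜} (f : L.Box l ⟶ Y) :
    ∃ e : L.E l ⟶ Y, L.k l ≫ e = f := by
  rcases Nat.lt_or_ge l n with hl | hl
  · have := L.low_iso l hl
    exact ⟨inv (L.k l) ≫ f, by simp⟩
  · obtain ⟨e, he, _⟩ := L.ext_box hl f (L.pad l hl ≫ f) (Hty.refl hR _)
    exact ⟨e, he⟩

/-- cylinders with prescribed boundary and ends -/
theorem ext {l : ℕ} {Y : 𝓜} (hl : n ≤ l + 1) (hY : Ctr R (l + 1) Y)
    (es et : L.E l ⟶ Y) (hp : L.LPar es et) (x0 x1 : dk R (l + 1) ⟶ Y)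
    (h1 : sg R l ≫ x0 = L.i0 l ≫ es) (h2 : tg R l ≫ x0 = L.i0 l ≫ et)
    (h3 : sg R l ≫ x1 = L.i1 l ≫ es) (h4 : tg R l ≫ x1 = L.i1 l ≫ et) :
    ∃ e : L.E (l + 1) ⟶ Y, L.s l ≫ e = es ∧ L.t l ≫ e = et ∧ L.i0 (l + 1) ≫ e = x0 ∧
      L.i1 (l + 1) ≫ e = x1 := by
  obtain ⟨f, hf1, hf2, hf3⟩ := L.box_desc es et hp x0 h1 h2
  obtain ⟨e, he1, he2⟩ := L.ext_box hl f x1 (hY _ _ (by
    refine ⟨?_, ?_⟩
    · rw [← Category.assoc, L.sg_pad, Category.assoc, hf1, h3]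
    · rw [← Category.assoc, L.tg_pad, Category.assoc, hf2, h4]))
  refine ⟨e, ?_, ?_, ?_, he2⟩
  · rw [← L.bs_k, Category.assoc, he1, hf1]
  · rw [← L.bt_k, Category.assoc, he1, hf2]
  · rw [LData.i0, Category.assoc, he1, hf3]

theorem extTF (hR : RData R) {l : ℕ} {Y : 𝓜} 
    (es et : L.E l ⟶ Y) (hp : L.LPar es et) (x0 : dk R (l + 1) ⟶ Y)
    (h1 : sg R l ≫ x0 = L.i0 l ≫ es) (h2 : tg R l ≫ x0 = L.i0 l ≫ et) :
    ∃ e : L.E (l + 1) ⟶ Y, L.s l ≫ e = es ∧ L.t l ≫ e = et ∧ L.i0 (l + 1) ≫ e = x0 := by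
  obtain ⟨f, hf1, hf2, hf3⟩ := L.box_desc es et hp x0 h1 h2
  obtain ⟨e, he1⟩ := L.tf_box hR f
  refine ⟨e, ?_, ?_, ?_⟩
  · rw [← L.bs_k, Category.assoc, he1, hf1]
  · rw [← L.bt_k, Category.assoc, he1, hf2]
  · rw [LData.i0, Category.assoc, he1, hf3]

theorem extTF_zero (hR : RData R) {Y : 𝓜} (x0 : dk R 0 ⟶ Y) :
    ∃ e : L.E 0 ⟶ Y, L.i0 0 ≫ e = x0 := by
  have := L.box_zero
  obtain ⟨e, he⟩ := L.tf_box hR (inv (L.β 0) ≫ x0)
  exact ⟨e, by rw [LData.i0, Category.assoc, he]; simp⟩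

theorem ext_zero {Y : 𝓜} (h : n = 0) (hY : Ctr R 0 Y) (x0 x1 : dk R 0 ⟶ Y) :
    ∃ e : L.E 0 ⟶ Y, L.i0 0 ≫ e = x0 ∧ L.i1 0 ≫ e = x1 := by
  have := L.box_zero
  obtain ⟨e, he, he'⟩ := L.ext_box (l := 0) (by omega) (inv (L.β 0) ≫ x0) x1 (hY _ _ trivial)
  exact ⟨e, by rw [LData.i0, Category.assoc, he]; simp, he'⟩

theorem uniq {l : ℕ} {Y : 𝓜}
    (h1 : ∀ x y : dk R (l + 1) ⟶ Y, Par R x y → x = y)
    (h2 : ∀ x y : dk R (l + 2) ⟶ Y, Par R x y → x = y)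
    (e e' : L.E (l + 1) ⟶ Y) (hp : L.LPar e e') : e = e' := by
  have hk : L.k (l + 1) ≫ e = L.k (l + 1) ≫ e' := by
    apply BPar.ext hp.bpar
    have := h1 _ _ hp.i0
    simpa [LData.i0] using this
  rcases Nat.lt_or_ge (l + 1) n with hl | hl
  · have := L.low_iso (l + 1) hl
    exact (cancel_epi (L.k (l + 1))).1 hk
  · apply (L.po (l + 1) hl).hom_ext hk
    apply h2
    refine ⟨?_, ?_⟩
    · rw [← Category.assoc, ← Category.assoc, ← (L.po (l + 1) hl).w, Category.assoc,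
        Category.assoc, hk]
    · rw [← Category.assoc, ← Category.assoc, ← L.i1_eq (l + 1) hl]
      exact h1 _ _ hp.i1

end LData

end Crest.Agent.Grot
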