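import Crest.Agent.Grot.LData

/-!
Row 248: cell complexes from levelwise cylinders, the two-ends lemma `c1`, the section cell.
-/

set_option autoImplicit false

open CategoryTheory CategoryTheory.Limits Opposite Crest.GeometryTopology.Coherator

universe v w u

namespace Crest.Agent.Grot

theorem exists_seq' {α : ℕ → Type*} (P : ∀ l, α l → α (l + 1) → Prop) (a0 : α 0)
    (h : ∀ l a, ∃ b, P l a b) : ∃ f : ∀ l, α l, f 0 = a0 ∧ ∀ l, P l (f l) (f (l + 1)) := by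
  choose g hg using h
  exact ⟨fun l => Nat.rec a0 (fun l a => g l a) l, rfl, fun l => hg l _⟩

variable {𝓜 : Type w} [Category.{v} 𝓜]

theorem isPushout_of_ump {A B C D : 𝓜} {f : A ⟶ B} {g : A ⟶ C} {inl : B ⟶ D} {inr : C ⟶ D}
    (w : f ≫ inl = g ≫ inr)
    (h : ∀ {Y : 𝓜} (a : B ⟶ Y) (b : C ⟶ Y), f ≫ a = g ≫ b →
      ∃ d : D ⟶ Y, inl ≫ d = a ∧ inr ≫ d = b)
    (h' : ∀ {Y : 𝓜} (d d' : D ⟶ Y), inl ≫ d = inl ≫ d' → inr ≫ d = inr ≫ d' → d = d') :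
    IsPushout f g inl inr := by
  refine IsPushout.of_isColimit' ⟨w⟩ (PushoutCocone.IsColimit.mk _
    (fun s => (h s.inl s.inr s.condition).choose)
    (fun s => (h s.inl s.inr s.condition).choose_spec.1)
    (fun s => (h s.inl s.inr s.condition).choose_spec.2) ?_)
  intro s m h1 h2
  apply h'
  · rw [h1, (h s.inl s.inr s.condition).choose_spec.1]
  · rw [h2, (h s.inl s.inr s.condition).choose_spec.2]

/-- `φ : A ⟶ B` can be attached to complexes along maps sending the marked cell `μ : dk h ⟶ A`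
to a cell of the shape -/
def Rel (R : Shape ⥤ 𝓜) (n : ℕ) {h : ℕ} {A B : 𝓜} (μ : dk R h ⟶ A) (φ : A ⟶ B) : Prop :=
  ∀ ⦃S : Shape⦄ ⦃r : ℕ⦄ ⦃W : 𝓜⦄ (f : R.obj S ⟶ W), BC R n S r f →
    ∀ (v : A ⟶ W) (x : Shape.globe h ⟶ S), μ ≫ v = R.map x ≫ f →
    ∀ ⦃W' : 𝓜⦄ (j : W ⟶ W') (v' : B ⟶ W'), IsPushout v φ j v' → ∃ r', BC R n S r' (f ≫ j)

variable {R : Shape ⥤ 𝓜} {n : ℕ}

theorem Rel.comp [HasPushouts 𝓜] {h : ℕ} {A B C : 𝓜} {μ : dk R h ⟶ A} {φ : A ⟶ B} {ψ : B ⟶ C}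
    (hφ : Rel R n μ φ) (hψ : Rel R n (μ ≫ φ) ψ) : Rel R n μ (φ ≫ ψ) := by
  intro S r W f hf v x hx W' j v' sq
  have sq1 := IsPushout.of_hasPushout v φ
  obtain ⟨r1, h1⟩ := hφ f hf v x hx _ _ sq1
  have sq2 := IsPushout.of_top' sq sq1
  obtain ⟨r2, h2⟩ := hψ _ h1 _ x (by
    rw [Category.assoc, ← sq1.w, ← Category.assoc, hx, Category.assoc]) _ _ sq2
  rw [Category.assoc, sq1.inl_desc] at h2
  exact ⟨r2, h2⟩

theorem Rel.pushout {h h' : ℕ} {A B A' B' : 𝓜} {μ : dk R h ⟶ A} {φ : A ⟶ B}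
    (hφ : Rel R n μ φ) {q : A ⟶ A'} {φ' : A' ⟶ B'} {q' : B ⟶ B'} (sq : IsPushout q φ φ' q')
    (y : Shape.globe h ⟶ Shape.globe h') (μ' : dk R h' ⟶ A') (hy : R.map y ≫ μ' = μ ≫ q) :
    Rel R n μ' φ' := by
  intro S r W f hf v x hx W' j v' sq'
  refine hφ f hf (q ≫ v) (y ≫ x) ?_ j (q' ≫ v') (sq.paste_horiz sq')
  rw [← Category.assoc, ← hy, Category.assoc, hx, R.map_comp, Category.assoc]

theorem Rel.bc {l : ℕ} {A : 𝓜} {β : dk R l ⟶ A} {r : ℕ} (hβ : BC R n (Shape.globe l) r β)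
    {B : 𝓜} {φ : A ⟶ B} (h : Rel R n β φ) : ∃ r', BC R n (Shape.globe l) r' (β ≫ φ) :=
  h β hβ (𝟙 _) (𝟙 _) (by simp) φ (𝟙 _) IsPushout.of_id_fst

namespace LData

variable (L : LData R n)

theorem rel_k (l : ℕ) : Rel R n (L.β l) (L.k l) := by
  intro S r W f hf v x hx W' j v' sq
  rcases lt_trichotomy l n with hl | hl | hl
  · have := L.low_iso l hl
    have : IsIso j := sq.isIso_inl_of_isIso
    exact ⟨r, hf.comp_iso j⟩
  · subst hl
    have sq' := (L.po l le_rfl).paste_horiz sq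
    rw [L.pad_n, hx] at sq'
    exact ⟨r + 1, BC.low f hf x j _ sq'⟩
  · exact ⟨r, BC.high f hf l hl _ j _ ((L.po l hl.le).paste_horiz sq)⟩

theorem bc_i0 (l : ℕ) : ∃ r, BC R n (Shape.globe l) r (L.i0 l) := by
  obtain ⟨r, hr⟩ := L.bc l
  exact Rel.bc hr (L.rel_k l)

theorem ctr_E [HasPushouts 𝓜] [HasTerminal 𝓜] (hR : RData R) (hn : ∀ m, n < m → PLG R m)
    (l i : ℕ) (h1 : l ≤ i + 1) (h2 : n ≤ i) : Ctr R i (L.E l) := by
  obtain ⟨r, hr⟩ := L.bc_i0 l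
  exact hr.ctr hR hn i (by simpa using h1) (Or.inr h2)

/-- the target box of `E l ∪ D (l+1)` -/
theorem exists_tb {l : ℕ} {F : 𝓜} (fl : L.E l ⟶ F) (fr : dk R (l + 1) ⟶ F)
    (w : L.i0 l ≫ fl = sg R l ≫ fr) :
    ∃ tb : L.Box l ⟶ F, L.BPar (L.k l ≫ fl) tb ∧ L.β l ≫ tb = tg R l ≫ fr := by
  apply L.box_change
  have : L.β l ≫ L.k l ≫ fl = sg R l ≫ fr := by rw [← w, LData.i0, Category.assoc]
  rw [this]
  exact par_faces fr

theorem lpar_bs_bt (l : ℕ) : L.LPar (L.bs l) (L.bt l) := by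
  cases l with
  | zero => trivial
  | succ l => exact ⟨L.s_bs l, L.t_bs l⟩

theorem isPushout_box {l : ℕ} {F : 𝓜} {fl : L.E l ⟶ F} {fr : dk R (l + 1) ⟶ F}
    (sq : IsPushout (L.i0 l) (sg R l) fl fr) {tb : L.Box l ⟶ F}
    (htb : L.BPar (L.k l ≫ fl) tb) (htb' : L.β l ≫ tb = tg R l ≫ fr)
    {fb : F ⟶ L.Box (l + 1)} (hfb1 : fl ≫ fb = L.bs l) (hfb2 : fr ≫ fb = L.β (l + 1)) :
    IsPushout tb (L.k l) fb (L.bt l) := by
  apply isPushout_of_ump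
  · apply BPar.ext (L := L)
    · refine (htb.comp fb).symm.trans ?_
      rw [Category.assoc, hfb1]
      exact (L.lpar_bs_bt l).bpar
    · rw [← Category.assoc, htb', Category.assoc, hfb2, L.tg_β]
  · intro Y a b hab
    obtain ⟨f, h1, h2, h3⟩ := L.box_desc (fl ≫ a) b (by
        apply BPar.lpar
        rw [← hab, ← Category.assoc]
        exact htb.comp a) (fr ≫ a)
      (by rw [← Category.assoc, ← sq.w, Category.assoc])
      (by rw [← Category.assoc, ← htb', Category.assoc, hab, LData.i0, Category.assoc])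
    refine ⟨f, ?_, h2⟩
    apply sq.hom_ext
    · rw [← Category.assoc, hfb1, h1]
    · rw [← Category.assoc, hfb2, h3]
  · intro Y d d' h1 h2
    apply L.box_ext l
    · rw [← hfb1, Category.assoc, Category.assoc, h1]
    · exact h2
    · rw [← hfb2, Category.assoc, Category.assoc, h1]

/-- `E l ∪ D (l+1) → E (l+1)` can be attached along shape cells -/
theorem rel_F [HasPushouts 𝓜] {l : ℕ} {F : 𝓜} {fl : L.E l ⟶ F} {fr : dk R (l + 1) ⟶ F}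
    (sq : IsPushout (L.i0 l) (sg R l) fl fr) (φ : F ⟶ L.E (l + 1)) (h1 : fl ≫ φ = L.s l)
    (h2 : fr ≫ φ = L.i0 (l + 1)) : Rel R n fr φ := by
  obtain ⟨tb, htb, htb'⟩ := L.exists_tb fl fr sq.w
  let fb : F ⟶ L.Box (l + 1) := sq.desc (L.bs l) (L.β (l + 1)) (by
    rw [L.sg_β, LData.i0, Category.assoc])
  have hfb1 : fl ≫ fb = L.bs l := sq.inl_desc _ _ _
  have hfb2 : fr ≫ fb = L.β (l + 1) := sq.inr_desc _ _ _
  have hpo := L.isPushout_box sq htb htb' hfb1 hfb2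
  have r1 : Rel R n fr fb := (L.rel_k l).pushout hpo (Shape.τ l) fr htb'.symm
  have e : φ = fb ≫ L.k (l + 1) := by
    apply sq.hom_ext
    · rw [h1, ← Category.assoc, hfb1, L.bs_k]
    · rw [h2, ← Category.assoc, hfb2, LData.i0]
  rw [e]
  apply r1.comp
  rw [hfb2]
  exact L.rel_k (l + 1)

/-- transport along parallel cylinders with homotopic `0`-ends -/
theorem c1_mp [HasPushouts 𝓜] [HasTerminal 𝓜] (hR : RData R) (hn : ∀ m, n < m → PLG R m)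
    {l : ℕ} {Y : 𝓜} (hl : n ≤ l) (c c' : L.E l ⟶ Y) (hp : L.LPar c c')
    (h : Hty R (L.i0 l ≫ c) (L.i0 l ≫ c')) : Hty R (L.i1 l ≫ c) (L.i1 l ≫ c') := by
  -- `G = Box l ∪ D (l+1)`
  have sq := IsPushout.of_hasPushout (sg R l) (L.β l)
  set g2 : dk R (l + 1) ⟶ pushout (sg R l) (L.β l) := pushout.inl _ _ with hg2
  set g1 : L.Box l ⟶ pushout (sg R l) (L.β l) := pushout.inr _ _ with hg1
  obtain ⟨r, hr⟩ := L.bc l
  have hG : Ctr R l (pushout (sg R l) (L.β l)) :=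
    (hr.push (Shape.σ l) sq).ctr hR hn l (by simp) (Or.inr hl)
  obtain ⟨tb, htb, htb'⟩ := L.box_change g1 (tg R l ≫ g2) (by
    rw [← sq.w]; exact par_faces g2)
  have key : Hty R (L.pad l hl ≫ g1) (L.pad l hl ≫ tb) := hG _ _ (L.pad_par hl htb)
  obtain ⟨hh, hh0, hh1⟩ := h
  rw [LData.i0, Category.assoc] at hh0 hh1
  let q : pushout (sg R l) (L.β l) ⟶ Y := sq.desc hh (L.k l ≫ c) hh0
  have q1 : g1 ≫ q = L.k l ≫ c := sq.inr_desc _ _ _
  have q2 : g2 ≫ q = hh := sq.inl_desc _ _ _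
  have q3 : tb ≫ q = L.k l ≫ c' := by
    apply BPar.ext (L := L)
    · refine (htb.comp q).symm.trans ?_
      rw [q1]
      exact hp.bpar
    · rw [← Category.assoc, htb', Category.assoc, q2, hh1]
  have key' := key.comp q
  rw [Category.assoc, Category.assoc, q1, q3] at key'
  exact ((L.hty_pad hl c).symm hR).trans hR (key'.trans hR (L.hty_pad hl c'))

/-- reversal of cylinders -/
theorem exists_rev [HasPushouts 𝓜] [HasTerminal 𝓜] (hR : RData R)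
    (hn : ∀ m, n < m → PLG R m) :
    ∃ rev : ∀ l, L.E l ⟶ L.E l, (∀ l, L.i0 l ≫ rev l = L.i1 l) ∧ (∀ l, L.i1 l ≫ rev l = L.i0 l) ∧
      (∀ l, L.s l ≫ rev (l + 1) = rev l ≫ L.s l) ∧
      (∀ l, L.t l ≫ rev (l + 1) = rev l ≫ L.t l) := by
  let α : ℕ → Type _ := fun l => {r : L.E l ⟶ L.E l // L.i0 l ≫ r = L.i1 l ∧ L.i1 l ≫ r = L.i0 l ∧
    L.LPar (r ≫ L.s l) (r ≫ L.t l)}
  have h0 : Nonempty (α 0) := by
    by_cases h : n = 0
    · obtain ⟨e, he, he'⟩ := L.ext_zero h (L.ctr_E hR hn 0 0 (by omega) (by omega)) (L.i1 0) (L.i0 0)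
      exact ⟨⟨e, he, he', trivial⟩⟩
    · obtain ⟨e, he⟩ := L.extTF_zero hR (L.i1 0)
      have e0 : L.i1 0 = L.i0 0 := L.low_i1 0 (by omega)
      exact ⟨⟨e, he, by rw [e0, he, e0], trivial⟩⟩
  obtain ⟨a0⟩ := h0
  obtain ⟨f, -, hf⟩ := exists_seq' (α := α) (fun l a b => L.s l ≫ b.1 = a.1 ≫ L.s l ∧
    L.t l ≫ b.1 = a.1 ≫ L.t l) a0 (by
      intro l a
      have e1 : sg R l ≫ L.i1 (l + 1) = L.i0 l ≫ a.1 ≫ L.s l := by
        rw [L.sg_i1, ← Category.assoc, a.2.1]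
      have e2 : tg R l ≫ L.i1 (l + 1) = L.i0 l ≫ a.1 ≫ L.t l := by
        rw [L.tg_i1, ← Category.assoc, a.2.1]
      have e3 : sg R l ≫ L.i0 (l + 1) = L.i1 l ≫ a.1 ≫ L.s l := by
        rw [L.sg_i0, ← Category.assoc, a.2.2.1]
      have e4 : tg R l ≫ L.i0 (l + 1) = L.i1 l ≫ a.1 ≫ L.t l := by
        rw [L.tg_i0, ← Category.assoc, a.2.2.1]
      obtain ⟨e, he1, he2, he3, he4⟩ : ∃ e : L.E (l + 1) ⟶ L.E (l + 1),
          L.s l ≫ e = a.1 ≫ L.s l ∧ L.t l ≫ e = a.1 ≫ L.t l ∧ L.i0 (l + 1) ≫ e = L.i1 (l + 1) ∧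
            L.i1 (l + 1) ≫ e = L.i0 (l + 1) := by
        rcases Nat.lt_or_ge (l + 1) n with hl | hl
        · obtain ⟨e, he1, he2, he3⟩ := L.extTF hR (a.1 ≫ L.s l) (a.1 ≫ L.t l) a.2.2.2
            (L.i1 (l + 1)) e1 e2
          have e0 : L.i1 (l + 1) = L.i0 (l + 1) := L.low_i1 (l + 1) hl
          exact ⟨e, he1, he2, he3, by rw [e0, he3, e0]⟩
        · exact L.ext hl (L.ctr_E hR hn (l + 1) (l + 1) (by omega) hl) (a.1 ≫ L.s l)
            (a.1 ≫ L.t l) a.2.2.2 (L.i1 (l + 1)) (L.i0 (l + 1)) e1 e2 e3 e4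
      refine ⟨⟨e, he3, he4, ?_, ?_⟩, he1, he2⟩
      · rw [← Category.assoc, he1, ← Category.assoc, he1, Category.assoc, Category.assoc, L.s_s]
      · rw [← Category.assoc, he2, ← Category.assoc, he2, Category.assoc, Category.assoc, L.t_s])
  exact ⟨fun l => (f l).1, fun l => (f l).2.1, fun l => (f l).2.2.1, fun l => (hf l).1,
    fun l => (hf l).2⟩

theorem c1 [HasPushouts 𝓜] [HasTerminal 𝓜] (hR : RData R) (hn : ∀ m, n < m → PLG R m)
    {l : ℕ} {Y : 𝓜} (hl : n ≤ l) (c c' : L.E l ⟶ Y) (hp : L.LPar c c') :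
    Hty R (L.i0 l ≫ c) (L.i0 l ≫ c') ↔ Hty R (L.i1 l ≫ c) (L.i1 l ≫ c') := by
  refine ⟨L.c1_mp hR hn hl c c' hp, fun h => ?_⟩
  obtain ⟨rev, h0, h1, hs, ht⟩ := L.exists_rev hR hn
  have := L.c1_mp hR hn hl (rev l ≫ c) (rev l ≫ c') (by
    cases l with
    | zero => trivial
    | succ l =>
      refine ⟨?_, ?_⟩
      · rw [← Category.assoc, hs, Category.assoc, hp.1, ← Category.assoc, ← hs, Category.assoc]
      · rw [← Category.assoc, ht, Category.assoc, hp.2, ← Category.assoc, ← ht, Category.assoc])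
    (by rw [← Category.assoc, h0, ← Category.assoc, h0]; exact h)
  rw [← Category.assoc, h1, ← Category.assoc, h1] at this
  exact this

/-- the section cell -/
theorem sect [HasPushouts 𝓜] [HasTerminal 𝓜] (hR : RData R) (hn : ∀ m, n < m → PLG R m)
    {Y : 𝓜} (un : dk R (n + 1) ⟶ dk R n) (hu1 : sg R n ≫ un = 𝟙 _) (hu2 : tg R n ≫ un = 𝟙 _)
    (hh : L.E n ⟶ Y) (f : dk R (n + 1) ⟶ Y) (hf : sg R n ≫ f = L.i0 n ≫ hh) :
    ∃ c : L.E (n + 1) ⟶ Y, L.s n ≫ c = hh ∧ L.i0 (n + 1) ≫ c = f ∧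
      L.i1 (n + 1) ≫ c = un ≫ L.i1 n ≫ hh := by
  have sq := IsPushout.of_hasPushout (sg R n) (L.i0 n)
  set F := pushout (sg R n) (L.i0 n) with hF
  set fr : dk R (n + 1) ⟶ F := pushout.inl _ _ with hfr
  set fl : L.E n ⟶ F := pushout.inr _ _ with hfl
  obtain ⟨r, hr⟩ := L.bc_i0 n
  have hbF := hr.push (Shape.σ n) sq
  have hF0 : Ctr R n F := hbF.ctr hR hn n (by simp) (Or.inr le_rfl)
  have hF1 : Ctr R (n + 1) F := hbF.ctr hR hn (n + 1) (by simp) (Or.inr (by omega))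
  obtain ⟨tb, htb, htb'⟩ := L.exists_tb fl fr sq.w.symm
  -- the target cylinder
  have hpar : Par R (L.pad n le_rfl ≫ tb) (L.i1 n ≫ fl) :=
    (L.pad_par le_rfl htb.symm).trans (L.hty_pad le_rfl fl).par
  obtain ⟨h', hh1, hh2⟩ := L.ext_box le_rfl tb (L.i1 n ≫ fl) (hF0 _ _ hpar)
  have hlp : L.LPar fl h' := BPar.lpar (by rw [hh1]; exact htb)
  obtain ⟨c, hc1, hc2, hc3, hc4⟩ := L.ext (by omega) hF1 fl h' hlp fr (un ≫ L.i1 n ≫ fl)
    sq.w (by rw [LData.i0, Category.assoc, hh1, htb'])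
    (by rw [← Category.assoc, hu1, Category.id_comp])
    (by rw [← Category.assoc, hu2, Category.id_comp, hh2])
  let q : F ⟶ Y := sq.desc f hh hf
  have q1 : fr ≫ q = f := sq.inl_desc _ _ _
  have q2 : fl ≫ q = hh := sq.inr_desc _ _ _
  refine ⟨c ≫ q, ?_, ?_, ?_⟩
  · rw [← Category.assoc, hc1, q2]
  · rw [← Category.assoc, hc3, q1]
  · rw [← Category.assoc, hc4, Category.assoc, Category.assoc, q2]

end LData

end Crest.Agent.Grot
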