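import Crest.Agent.Grot.Shapes

/-!
Row 248 chunk B1: sections of theory maps with filler lifting; induction on arrows of a coherator.
-/

set_option autoImplicit false

open CategoryTheory CategoryTheory.Limits Opposite Crest.GeometryTopology.Coherator
open Crest.GeometryTopology.Coherator.GlobTheory

universe v w u

namespace Crest.Agent.Grot

/-- every filler downstairs of the image of an admissible pair lifts to a filler upstairs -/
def FillerLifting {D C : GlobTheory.{u}} (q : TheoryMap D C) : Prop :=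
  ∀ (p : D.Admissible) (z : C.arr (Shape.globe (p.n + 1)) p.shape), IsFillerAlong q p z →
    ∃ w : D.arr (Shape.globe (p.n + 1)) p.shape,
      IsFillerAlong (TheoryMap.id D) p w ∧ q.map w = z

/-- the image of an admissible pair -/
def mapAdm {B D : GlobTheory.{u}} (F : TheoryMap B D) (p : B.Admissible) : D.Admissible where
  n := p.n
  shape := p.shape
  dim_le := p.dim_le
  lower := F.map p.lower
  upper := F.map p.upper
  parallel := by
    obtain ⟨n, S, hd, l, u, hp⟩ := p
    cases n with
    | zero => trivial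
    | succ n =>
      refine ⟨?_, ?_⟩
      · rw [← F.map_ofShape, ← F.map_seq, ← F.map_seq]
        exact congrArg F.map hp.1
      · rw [← F.map_ofShape, ← F.map_seq, ← F.map_seq]
        exact congrArg F.map hp.2

theorem comp_assoc {A B C D : GlobTheory.{u}} (F : TheoryMap A B) (G : TheoryMap B C)
    (H : TheoryMap C D) : (F.comp G).comp H = F.comp (G.comp H) := rfl

theorem comp_id' {A B : GlobTheory.{u}} (F : TheoryMap A B) : F.comp (TheoryMap.id B) = F := rfl

theorem isFillerAlong_comp {B D E : GlobTheory.{u}} {F : TheoryMap B D} (G : TheoryMap D E)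
    {p : B.Admissible} {z : D.arr (Shape.globe (p.n + 1)) p.shape} (h : IsFillerAlong F p z) :
    IsFillerAlong (F.comp G) p (G.map z) := by
  refine ⟨?_, ?_⟩
  · rw [← G.map_ofShape, ← G.map_seq, h.1]; rfl
  · rw [← G.map_ofShape, ← G.map_seq, h.2]; rfl

/-- one step of the section. -/
theorem section_step {C : GlobTheory.{u}} (t : C.Tower) {D : GlobTheory.{u}}
    (q : TheoryMap D C) (hq : FillerLifting q) (r : ℕ) (s : TheoryMap (t.stage r) D)
    (hs : s.comp q = t.toEnd r) :
    ∃ s' : TheoryMap (t.stage (r + 1)) D, s'.comp q = t.toEnd (r + 1) ∧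
      (t.next r).comp s' = s := by
  obtain ⟨hfill, hfree⟩ := t.free r
  have hz : ∀ g : t.gen r, IsFillerAlong (t.toEnd r) (t.prob r g)
      ((t.toEnd (r + 1)).map (t.fill r g)) := by
    intro g
    have h := isFillerAlong_comp (t.toEnd (r + 1)) (hfill g)
    rw [t.toEnd_comm] at h
    exact h
  have hw : ∀ g : t.gen r, ∃ w : D.arr (Shape.globe ((t.prob r g).n + 1)) (t.prob r g).shape,
      IsFillerAlong s (t.prob r g) w ∧ q.map w = (t.toEnd (r + 1)).map (t.fill r g) := by
    intro g
    obtain ⟨w, hw1, hw2⟩ := hq (mapAdm s (t.prob r g)) ((t.toEnd (r + 1)).map (t.fill r g)) (by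
      have h := hz g
      rw [← hs] at h
      exact h)
    exact ⟨w, hw1, hw2⟩
  choose w hw1 hw2 using hw
  obtain ⟨s', ⟨hs1, hs2⟩, -⟩ := hfree D s w hw1
  refine ⟨s', ?_, hs1⟩
  obtain ⟨H, -, hH⟩ := hfree C (t.toEnd r) _ hz
  rw [hH (s'.comp q) ⟨?_, fun g => ?_⟩, hH (t.toEnd (r + 1)) ⟨t.toEnd_comm r, fun g => rfl⟩]
  · rw [← comp_assoc, hs1, hs]
  · change q.map (s'.map (t.fill r g)) = _
    rw [hs2, hw2]

/-- the stages of the section. -/
noncomputable def sectionStage {C : GlobTheory.{u}} (t : C.Tower) {D : GlobTheory.{u}}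
    (q : TheoryMap D C) (hq : FillerLifting q) :
    (r : ℕ) → {s : TheoryMap (t.stage r) D // s.comp q = t.toEnd r}
  | 0 => ⟨(t.stage_zero D).some.default, by
      have h := (t.stage_zero C).some
      rw [h.uniq (((t.stage_zero D).some.default).comp q), h.uniq (t.toEnd 0)]⟩
  | r + 1 =>
    let s := sectionStage t q hq r
    ⟨(section_step t q hq r s.1 s.2).choose, (section_step t q hq r s.1 s.2).choose_spec.1⟩

theorem exists_section {C : GlobTheory.{u}} (hC : Nonempty C.Tower) {D : GlobTheory.{u}}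
    (q : TheoryMap D C) (hq : FillerLifting q) :
    ∃ s : TheoryMap C D, s.comp q = TheoryMap.id C := by
  obtain ⟨t⟩ := hC
  have hcomm : ∀ r, (t.next r).comp (sectionStage t q hq (r + 1)).1 = (sectionStage t q hq r).1 :=
    fun r => (section_step t q hq r _ (sectionStage t q hq r).2).choose_spec.2
  obtain ⟨s, hs, -⟩ := t.colim D (fun r => (sectionStage t q hq r).1) hcomm
  refine ⟨s, ?_⟩
  obtain ⟨H, -, hH⟩ := t.colim C t.toEnd t.toEnd_comm
  rw [hH (s.comp q) fun r => ?_, hH (TheoryMap.id C) fun r => rfl]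
  have h1 : (t.toEnd r).comp (s.comp q) = ((t.toEnd r).comp s).comp q := rfl
  have h2 : (t.toEnd r).comp s = (sectionStage t q hq r).1 := hs r
  rw [h1, h2, (sectionStage t q hq r).2]

/-- the subtheory of arrows satisfying `P` -/
def subPre (C : GlobTheory.{u}) (P : ∀ {S T : Shape}, C.arr S T → Prop)
    (hof : ∀ {S T : Shape} (f : S ⟶ T), P (C.ofShape f))
    (hseq : ∀ {S T U : Shape} (f : C.arr S T) (g : C.arr T U), P f → P g → P (C.seq f g)) :
    PreTheory.{u} where
  arr S T := {f : C.arr S T // P f}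
  one S := ⟨C.one S, by rw [← C.ofShape_id]; exact hof _⟩
  seq f g := ⟨C.seq f.1 g.1, hseq _ _ f.2 g.2⟩
  one_seq f := Subtype.ext (C.one_seq _)
  seq_one f := Subtype.ext (C.seq_one _)
  seq_assoc f g h := Subtype.ext (C.seq_assoc _ _ _)
  ofShape f := ⟨C.ofShape f, hof f⟩
  ofShape_id S := Subtype.ext (C.ofShape_id S)
  ofShape_comp f g := Subtype.ext (C.ofShape_comp f g)

/-- elementary form of the pushout property of the designated squares. -/
theorem pushout_elim (C : PreTheory.{u}) {S : Shape} {b h : ℕ} {hb : b < S.last} {hh : b < h}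
    (H : IsPushout (C.incl.map (S.hinge hb)) (C.incl.map (Shape.faceMap hh false))
      (C.incl.map (S.inLeft b h hb hh)) (C.incl.map (S.inRight b h hb hh))) {T : Shape}
    (f : C.arr S T) (g : C.arr (Shape.globe h) T)
    (hfg : C.seq (C.ofShape (S.hinge hb)) f = C.seq (C.ofShape (Shape.faceMap hh false)) g) :
    ∃! k : C.arr (S.glue b h hb hh) T, C.seq (C.ofShape (S.inLeft b h hb hh)) k = f ∧
      C.seq (C.ofShape (S.inRight b h hb hh)) k = g := by
  let f' : C.incl.obj S ⟶ (⟨T⟩ : C.Ob) := f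
  let g' : C.incl.obj (Shape.globe h) ⟶ (⟨T⟩ : C.Ob) := g
  have hfg' : C.incl.map (S.hinge hb) ≫ f' = C.incl.map (Shape.faceMap hh false) ≫ g' := hfg
  refine ⟨H.desc f' g' hfg', ⟨H.inl_desc f' g' hfg', H.inr_desc f' g' hfg'⟩, ?_⟩
  rintro k ⟨h1, h2⟩
  let k' : C.incl.obj (S.glue b h hb hh) ⟶ (⟨T⟩ : C.Ob) := k
  have : k' = H.desc f' g' hfg' := by
    apply H.hom_ext
    · rw [H.inl_desc]; exact h1
    · rw [H.inr_desc]; exact h2
  exact this

theorem pushout_intro (C : PreTheory.{u}) {S : Shape} {b h : ℕ} {hb : b < S.last} {hh : b < h}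
    (hw : C.seq (C.ofShape (S.hinge hb)) (C.ofShape (S.inLeft b h hb hh)) =
      C.seq (C.ofShape (Shape.faceMap hh false)) (C.ofShape (S.inRight b h hb hh)))
    (H : ∀ {T : Shape} (f : C.arr S T) (g : C.arr (Shape.globe h) T),
      C.seq (C.ofShape (S.hinge hb)) f = C.seq (C.ofShape (Shape.faceMap hh false)) g →
      ∃! k : C.arr (S.glue b h hb hh) T, C.seq (C.ofShape (S.inLeft b h hb hh)) k = f ∧
        C.seq (C.ofShape (S.inRight b h hb hh)) k = g) :
    IsPushout (C.incl.map (S.hinge hb)) (C.incl.map (Shape.faceMap hh false))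
      (C.incl.map (S.inLeft b h hb hh)) (C.incl.map (S.inRight b h hb hh)) := by
  refine ⟨⟨hw⟩, ⟨PushoutCocone.IsColimit.mk _ (fun s => (H (T := s.pt.shape) s.inl s.inr
    s.condition).choose) (fun s => ?_) (fun s => ?_) (fun s m h1 h2 => ?_)⟩⟩
  · exact (H (T := s.pt.shape) s.inl s.inr s.condition).choose_spec.1.1
  · exact (H (T := s.pt.shape) s.inl s.inr s.condition).choose_spec.1.2
  · exact (H (T := s.pt.shape) s.inl s.inr s.condition).choose_spec.2 m ⟨h1, h2⟩

/-- induction principle for the arrows of a coherator -/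
theorem arrow_induction {C : GlobTheory.{u}} (hC : Nonempty C.Tower)
    (P : ∀ {S T : Shape}, C.arr S T → Prop)
    (hof : ∀ {S T : Shape} (f : S ⟶ T), P (C.ofShape f))
    (hseq : ∀ {S T U : Shape} (f : C.arr S T) (g : C.arr T U), P f → P g → P (C.seq f g))
    (hglue : ∀ (S : Shape) (b h : ℕ) (hb : b < S.last) (hh : b < h) {T : Shape}
      (f : C.arr (S.glue b h hb hh) T), P (C.seq (C.ofShape (S.inLeft b h hb hh)) f) →
      P (C.seq (C.ofShape (S.inRight b h hb hh)) f) → P f)
    (hfill : ∀ (m : ℕ) (S : Shape), S.dim ≤ m + 1 → ∀ z : C.arr (Shape.globe (m + 1)) S,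
      P (C.seq (C.ofShape (Shape.σ m)) z) → P (C.seq (C.ofShape (Shape.τ m)) z) → P z) :
    ∀ {S T : Shape} (f : C.arr S T), P f := by
  let D : GlobTheory.{u} :=
    { toPreTheory := subPre C P hof hseq
      respectsSums := by
        intro S b h hb hh
        refine pushout_intro _ ?_ ?_
        · apply Subtype.ext
          have h1 := (C.respectsSums S b h hb hh).w
          exact h1
        · intro T f g hfg
          obtain ⟨k, ⟨h1, h2⟩, hk⟩ := pushout_elim C.toPreTheory (C.respectsSums S b h hb hh)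
            f.1 g.1 (congrArg Subtype.val hfg)
          refine ⟨⟨k, hglue S b h hb hh k (by rw [h1]; exact f.2) (by rw [h2]; exact g.2)⟩,
            ⟨Subtype.ext h1, Subtype.ext h2⟩, ?_⟩
          rintro k' ⟨h3, h4⟩
          exact Subtype.ext (hk k'.1 ⟨congrArg Subtype.val h3, congrArg Subtype.val h4⟩) }
  let q : TheoryMap D C :=
    { map := fun f => f.1
      map_one := fun _ => rfl
      map_seq := fun _ _ => rfl
      map_ofShape := fun _ => rfl }
  have hq : FillerLifting q := by
    intro p z hz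
    refine ⟨⟨z, hfill p.n p.shape p.dim_le z ?_ ?_⟩, ⟨Subtype.ext hz.1, Subtype.ext hz.2⟩, rfl⟩
    · rw [hz.1]; exact p.lower.2
    · rw [hz.2]; exact p.upper.2
  obtain ⟨s, hs⟩ := exists_section hC q hq
  intro S T f
  have h1 : (s.comp q).map f = (TheoryMap.id C).map f := by rw [hs]
  have h2 : (s.map f).1 = f := h1
  rw [← h2]
  exact (s.map f).2

end Crest.Agent.Grot
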