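import Crest.Agent.Grot.Cosk
import Crest.Agent.Grot.Colim

/-!
Row 248 chunk B3: the category `TModel C K` of `K`-truncated models, its reflector and the functor
`RK : Shape ⥤ TModel C K`.
-/

set_option autoImplicit false
set_option linter.style.haveILetI false

open CategoryTheory CategoryTheory.Limits Opposite Crest.GeometryTopology.Coherator
open Crest.GeometryTopology.Coherator.GlobTheory

universe v w u

namespace Crest.Agent.Grot

/-- models, chaotic above dimension `K` -/
abbrev TModel (C : GlobTheory.{u}) (K : ℕ) :=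
  ObjectProperty.FullSubcategory (fun X : GlobModel C => Chaotic K X)

/-- the inclusion of truncated models -/
abbrev tincl (C : GlobTheory.{u}) (K : ℕ) : TModel C K ⥤ GlobModel C :=
  ObjectProperty.ι _

theorem isRightAdjoint_tincl {C : GlobTheory.{u}} (hC : C.IsCoheratorTheory) (K : ℕ) :
    (tincl C K).IsRightAdjoint := by
  haveI : ∀ X : GlobModel C, HasInitial (StructuredArrow X (tincl C K)) := by
    intro X
    obtain ⟨Y, η, hY, -, hu⟩ := exists_cosk hC K X
    let A : StructuredArrow X (tincl C K) := StructuredArrow.mk (Y := (⟨Y, hY⟩ : TModel C K)) η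
    have hA : IsInitial A := by
      refine IsInitial.ofUniqueHom
        (fun B => StructuredArrow.homMk ⟨(hu B.right.obj B.right.property B.hom).choose⟩
          (hu B.right.obj B.right.property B.hom).choose_spec.1) ?_
      intro B m
      apply StructuredArrow.hom_ext
      apply ObjectProperty.hom_ext
      exact (hu B.right.obj B.right.property B.hom).choose_spec.2 _ (StructuredArrow.w m)
    exact hA.hasInitial
  exact isRightAdjointOfStructuredArrowInitials _

/-- the reflector -/
noncomputable def tcosk {C : GlobTheory.{u}} (hC : C.IsCoheratorTheory) (K : ℕ) :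
    GlobModel C ⥤ TModel C K :=
  haveI := isRightAdjoint_tincl hC K
  (tincl C K).leftAdjoint

noncomputable def tadj {C : GlobTheory.{u}} (hC : C.IsCoheratorTheory) (K : ℕ) :
    tcosk hC K ⊣ tincl C K :=
  haveI := isRightAdjoint_tincl hC K
  Adjunction.ofIsRightAdjoint _

/-- the unit is bijective on cells of dimension at most `K` -/
theorem tadj_unit_bijective {C : GlobTheory.{u}} (hC : C.IsCoheratorTheory) (K : ℕ)
    (X : GlobModel C) (l : ℕ) (hl : l ≤ K) :
    Function.Bijective ((GlobModel.cellsMap ((tadj hC K).unit.app X)).app l) := by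
  obtain ⟨Y, η, hY, hb, hu⟩ := exists_cosk hC K X
  set e := (tadj hC K).unit.app X with he
  set Z := (tcosk hC K).obj X with hZ
  obtain ⟨g, hg, -⟩ := hu Z.obj Z.property e
  let Y' : TModel C K := ⟨Y, hY⟩
  let g' : Z ⟶ Y' := ((tadj hC K).homEquiv X Y').symm η
  have hg' : e ≫ g'.hom = η := by
    have := (tadj hC K).homEquiv_unit X Y' g'
    rw [← ObjectProperty.ι_map]
    rw [← this]
    exact Equiv.apply_symm_apply _ _
  have h1 : g ≫ g'.hom = 𝟙 Y := by
    obtain ⟨d, -, hd⟩ := hu Y hY η
    have e1 : η ≫ (g ≫ g'.hom) = η := by rw [← Category.assoc, hg, hg']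
    have e2 : η ≫ 𝟙 Y = η := Category.comp_id _
    rw [hd _ e1, hd _ e2]
  have h2 : g' ≫ (⟨g⟩ : Y' ⟶ Z) = 𝟙 Z := by
    apply ((tadj hC K).homEquiv X Z).injective
    rw [(tadj hC K).homEquiv_unit, (tadj hC K).homEquiv_unit]
    show e ≫ (g'.hom ≫ g) = e ≫ 𝟙 Z.obj
    rw [← Category.assoc, hg', hg]
    exact (Category.comp_id _).symm
  have h2' : g'.hom ≫ g = 𝟙 Z.obj := congrArg (fun f => f.hom) h2
  have hgb : Function.Bijective ((GlobModel.cellsMap g).app l) := by
    rw [Function.bijective_iff_has_inverse]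
    refine ⟨(GlobModel.cellsMap g'.hom).app l, fun x => ?_, fun x => ?_⟩
    · have := congrArg (fun f : Y ⟶ Y => (GlobModel.cellsMap f).app l x) h1
      exact this
    · have := congrArg (fun f : Z.obj ⟶ Z.obj => (GlobModel.cellsMap f).app l x) h2'
      exact this
  have h3 : (GlobModel.cellsMap e).app l = (GlobModel.cellsMap g).app l ∘ (GlobModel.cellsMap η).app l := by
    rw [← hg]
    rfl
  rw [h3]
  exact hgb.comp (hb l hl)

theorem hasColimits_TModel {C : GlobTheory.{u}} (hC : C.IsCoheratorTheory) (K : ℕ) :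
    HasColimitsOfSize.{u, u} (TModel C K) := by
  haveI := isRightAdjoint_tincl hC K
  haveI := hasColimits_globModel C
  haveI : Reflective (tincl C K) :=
    { L := (tincl C K).leftAdjoint
      adj := Adjunction.ofIsRightAdjoint _ }
  exact hasColimits_of_reflective (tincl C K)

/-- the terminal model -/
def ptModel (C : GlobTheory.{u}) : GlobModel C where
  functor := (Functor.const _).obj PUnit.{u + 1}
  sums S b h hb hh := by
    rw [Types.isPullback_iff]
    exact ⟨rfl, fun _ _ _ => rfl, fun _ _ _ => ⟨PUnit.unit, rfl, rfl⟩⟩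

theorem hasTerminal_TModel (C : GlobTheory.{u}) (K : ℕ) : HasTerminal (TModel C K) := by
  let T : TModel C K := ⟨ptModel C, fun l _ x y _ => ⟨PUnit.unit, ⟨rfl, rfl⟩, fun _ _ => rfl⟩⟩
  have hT : IsTerminal T := by
    refine IsTerminal.ofUniqueHom (fun X => ⟨{ app := fun _ => ↾fun _ => PUnit.unit }⟩) ?_
    intro X m
    apply ObjectProperty.hom_ext
    apply NatTrans.ext
    funext
    rfl
  exact hT.hasTerminal

/-- free models, as a functor on the theory -/
noncomputable def freeF (C : GlobTheory.{u}) : C.Ob ⥤ GlobModel C where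
  obj S := GlobModel.freeOn C S.shape
  map f := yoneda.map f
  map_id S := yoneda.map_id S
  map_comp f g := yoneda.map_comp f g

/-- free truncated models, as a functor on the theory -/
noncomputable def RC {C : GlobTheory.{u}} (hC : C.IsCoheratorTheory) (K : ℕ) : C.Ob ⥤ TModel C K :=
  freeF C ⋙ tcosk hC K

/-- free truncated models on shapes -/
noncomputable def RK {C : GlobTheory.{u}} (hC : C.IsCoheratorTheory) (K : ℕ) :
    Shape ⥤ TModel C K :=
  C.incl ⋙ RC hC K

/-- maps out of the free truncated model on `S` are `S`-tuples -/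
noncomputable def homRC {C : GlobTheory.{u}} (hC : C.IsCoheratorTheory) (K : ℕ) (S : C.Ob)
    (Y : TModel C K) : ((RC hC K).obj S ⟶ Y) ≃ Y.obj.functor.obj (op S) :=
  ((tadj hC K).homEquiv _ _).trans yonedaEquiv

theorem homRC_naturality_left {C : GlobTheory.{u}} (hC : C.IsCoheratorTheory) (K : ℕ)
    {S T : C.Ob} (o : S ⟶ T) (Y : TModel C K) (f : (RC hC K).obj T ⟶ Y) :
    homRC hC K S Y ((RC hC K).map o ≫ f) = Y.obj.functor.map o.op (homRC hC K T Y f) := by
  have h1 := (tadj hC K).homEquiv_naturality_left ((freeF C).map o) f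
  show yonedaEquiv (((tadj hC K).homEquiv _ _) ((tcosk hC K).map ((freeF C).map o) ≫ f)) = _
  rw [h1]
  exact (yonedaEquiv_naturality _ _).symm

theorem homRC_naturality_right {C : GlobTheory.{u}} (hC : C.IsCoheratorTheory) (K : ℕ)
    (S : C.Ob) {Y Z : TModel C K} (f : (RC hC K).obj S ⟶ Y) (g : Y ⟶ Z) :
    homRC hC K S Z (f ≫ g) = g.hom.app (op S) (homRC hC K S Y f) := by
  have h1 := (tadj hC K).homEquiv_naturality_right f g
  show yonedaEquiv (((tadj hC K).homEquiv _ _) (f ≫ g)) = _
  rw [h1]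
  rfl

theorem isPushout_of_existsUnique {𝓒 : Type w} [Category.{v} 𝓒] {A B D E : 𝓒} {f : A ⟶ B}
    {g : A ⟶ D} {inl : B ⟶ E} {inr : D ⟶ E} (hw : f ≫ inl = g ≫ inr)
    (h : ∀ {Z : 𝓒} (a : B ⟶ Z) (b : D ⟶ Z), f ≫ a = g ≫ b →
      ∃! d : E ⟶ Z, inl ≫ d = a ∧ inr ≫ d = b) : IsPushout f g inl inr :=
  ⟨⟨hw⟩, ⟨PushoutCocone.IsColimit.mk hw
    (fun s => (h s.inl s.inr s.condition).choose)
    (fun s => (h s.inl s.inr s.condition).choose_spec.1.1)
    (fun s => (h s.inl s.inr s.condition).choose_spec.1.2)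
    (fun s m h1 h2 => (h s.inl s.inr s.condition).choose_spec.2 m ⟨h1, h2⟩)⟩⟩

theorem glues_RK {C : GlobTheory.{u}} (hC : C.IsCoheratorTheory) (K : ℕ) : Glues (RK hC K) := by
  intro S b h hb hh
  refine isPushout_of_existsUnique ?_ ?_
  · show (RC hC K).map (C.incl.map (S.hinge hb)) ≫ (RC hC K).map (C.incl.map (S.inLeft b h hb hh))
      = (RC hC K).map (C.incl.map (Shape.faceMap hh false)) ≫
        (RC hC K).map (C.incl.map (S.inRight b h hb hh))
    rw [← (RC hC K).map_comp, ← (RC hC K).map_comp, (C.respectsSums S b h hb hh).w]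
  · intro Z x y hxy
    have hp := Z.obj.sums S b h hb hh
    have hc : Z.obj.functor.map (C.incl.map (S.hinge hb)).op (homRC hC K _ Z x) =
        Z.obj.functor.map (C.incl.map (Shape.faceMap hh false)).op (homRC hC K _ Z y) := by
      exact (homRC_naturality_left hC K (C.incl.map (S.hinge hb)) Z x).symm.trans
        ((congrArg _ hxy).trans
          (homRC_naturality_left hC K (C.incl.map (Shape.faceMap hh false)) Z y))
    obtain ⟨z, hz1, hz2⟩ := Types.exists_of_isPullback hp _ _ hc
    refine ⟨(homRC hC K _ Z).symm z, ⟨?_, ?_⟩, ?_⟩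
    · apply (homRC hC K _ Z).injective
      refine (homRC_naturality_left hC K (C.incl.map (S.inLeft b h hb hh)) Z _).trans ?_
      rw [Equiv.apply_symm_apply]
      exact hz1
    · apply (homRC hC K _ Z).injective
      refine (homRC_naturality_left hC K (C.incl.map (S.inRight b h hb hh)) Z _).trans ?_
      rw [Equiv.apply_symm_apply]
      exact hz2
    · rintro m ⟨h1, h2⟩
      apply (homRC hC K _ Z).injective
      rw [Equiv.apply_symm_apply]
      apply Types.ext_of_isPullback hp
      · rw [hz1, ← h1]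
        exact (homRC_naturality_left hC K (C.incl.map (S.inLeft b h hb hh)) Z m).symm
      · rw [hz2, ← h2]
        exact (homRC_naturality_left hC K (C.incl.map (S.inRight b h hb hh)) Z m).symm

/-- the cell named by a map out of a disk -/
noncomputable def cl {C : GlobTheory.{u}} (hC : C.IsCoheratorTheory) (K : ℕ) {l : ℕ}
    {Y : TModel C K} (x : dk (RK hC K) l ⟶ Y) : Y.obj.cells.cell l :=
  homRC hC K (C.incl.obj (Shape.globe l)) Y x

theorem cl_bijective {C : GlobTheory.{u}} (hC : C.IsCoheratorTheory) (K l : ℕ)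
    (Y : TModel C K) : Function.Bijective (cl hC K (l := l) (Y := Y)) :=
  (homRC hC K (C.incl.obj (Shape.globe l)) Y).bijective

theorem cl_sg {C : GlobTheory.{u}} (hC : C.IsCoheratorTheory) (K : ℕ) {l : ℕ}
    {Y : TModel C K} (x : dk (RK hC K) (l + 1) ⟶ Y) :
    cl hC K (sg (RK hC K) l ≫ x) = Y.obj.cells.src l (cl hC K x) :=
  homRC_naturality_left hC K (C.incl.map (Shape.σ l)) Y x

theorem cl_tg {C : GlobTheory.{u}} (hC : C.IsCoheratorTheory) (K : ℕ) {l : ℕ}
    {Y : TModel C K} (x : dk (RK hC K) (l + 1) ⟶ Y) :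
    cl hC K (tg (RK hC K) l ≫ x) = Y.obj.cells.tgt l (cl hC K x) :=
  homRC_naturality_left hC K (C.incl.map (Shape.τ l)) Y x

theorem cl_par {C : GlobTheory.{u}} (hC : C.IsCoheratorTheory) (K : ℕ) {l : ℕ}
    {Y : TModel C K} (x y : dk (RK hC K) l ⟶ Y) :
    Par (RK hC K) x y ↔ Y.obj.cells.AreParallel l (cl hC K x) (cl hC K y) := by
  cases l with
  | zero => exact Iff.rfl
  | succ l =>
    show (sg (RK hC K) l ≫ x = sg (RK hC K) l ≫ y ∧ tg (RK hC K) l ≫ x = tg (RK hC K) l ≫ y) ↔
      (Y.obj.cells.src l (cl hC K x) = Y.obj.cells.src l (cl hC K y) ∧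
        Y.obj.cells.tgt l (cl hC K x) = Y.obj.cells.tgt l (cl hC K y))
    rw [← cl_sg, ← cl_sg, ← cl_tg, ← cl_tg, (cl_bijective hC K l Y).injective.eq_iff,
      (cl_bijective hC K l Y).injective.eq_iff]

theorem cl_hty {C : GlobTheory.{u}} (hC : C.IsCoheratorTheory) (K : ℕ) {l : ℕ}
    {Y : TModel C K} (x y : dk (RK hC K) l ⟶ Y) :
    Hty (RK hC K) x y ↔ Y.obj.cells.Step l (cl hC K x) (cl hC K y) := by
  constructor
  · rintro ⟨h, rfl, rfl⟩
    exact ⟨cl hC K h, (cl_sg hC K h).symm, (cl_tg hC K h).symm⟩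
  · rintro ⟨z, h1, h2⟩
    obtain ⟨h, rfl⟩ := (cl_bijective hC K (l + 1) Y).surjective z
    rw [← cl_sg] at h1
    rw [← cl_tg] at h2
    exact ⟨h, (cl_bijective hC K l Y).injective h1, (cl_bijective hC K l Y).injective h2⟩

theorem rdata_RK {C : GlobTheory.{u}} (hC : C.IsCoheratorTheory) (K : ℕ) : RData (RK hC K) := by
  refine ⟨glues_RK hC K, ?_⟩
  intro S l hl x y hxy
  rw [cl_hty]
  rw [cl_par] at hxy
  rcases Nat.lt_or_ge l K with hlK | hlK
  · -- cells of low dimension come from the free model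
    set η := (tadj hC K).unit.app (GlobModel.freeOn C S) with hη
    have hb : ∀ k, k ≤ K → Function.Bijective ((GlobModel.cellsMap η).app k) :=
      fun k hk => tadj_unit_bijective hC K _ k hk
    obtain ⟨ox, hox⟩ := (hb l hlK.le).surjective (cl hC K x)
    obtain ⟨oy, hoy⟩ := (hb l hlK.le).surjective (cl hC K y)
    have hpar : C.OpsParallel l (ox : C.arr (Shape.globe l) S) (oy : C.arr (Shape.globe l) S) := by
      cases l with
      | zero => trivial
      | succ l =>
        have hxy' : ((RK hC K).obj S).obj.cells.src l (cl hC K x) =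
            ((RK hC K).obj S).obj.cells.src l (cl hC K y) ∧
            ((RK hC K).obj S).obj.cells.tgt l (cl hC K x) =
            ((RK hC K).obj S).obj.cells.tgt l (cl hC K y) := hxy
        refine ⟨?_, ?_⟩
        · apply (hb l (by omega)).injective
          exact ((GlobModel.cellsMap η).app_src l ox).trans
            (((congrArg _ hox).trans (hxy'.1.trans (congrArg _ hoy).symm)).trans
              ((GlobModel.cellsMap η).app_src l oy).symm)
        · apply (hb l (by omega)).injective
          exact ((GlobModel.cellsMap η).app_tgt l ox).trans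
            (((congrArg _ hox).trans (hxy'.2.trans (congrArg _ hoy).symm)).trans
              ((GlobModel.cellsMap η).app_tgt l oy).symm)
    obtain ⟨z, hz1, hz2⟩ := hC.2 ⟨l, S, hl, ox, oy, hpar⟩
    refine ⟨(GlobModel.cellsMap η).app (l + 1) z, ?_, ?_⟩
    · exact (((GlobModel.cellsMap η).app_src l z).symm.trans (congrArg _ hz1)).trans hox
    · exact (((GlobModel.cellsMap η).app_tgt l z).symm.trans (congrArg _ hz2)).trans hoy
  · obtain ⟨z, hz, -⟩ := ((RK hC K).obj S).property l hlK _ _ hxy
    exact ⟨z, hz⟩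

theorem isIso_sg_RK {C : GlobTheory.{u}} (hC : C.IsCoheratorTheory) (K m : ℕ) (hm : K + 1 ≤ m) :
    IsIso (sg (RK hC K) m) := by
  obtain ⟨k, rfl⟩ : ∃ k, m = k + 1 := ⟨m - 1, by omega⟩
  have hk : K ≤ k := by omega
  apply isIso_of_coyoneda_map_bijective
  intro T
  have hpar : ∀ (x y : T.obj.cells.cell (k + 1)),
      T.obj.cells.AreParallel (k + 1) x y → x = y := by
    intro x y hxy
    have h1 : T.obj.cells.AreParallel k (T.obj.cells.src k x) (T.obj.cells.tgt k x) := by
      cases k with
      | zero => trivial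
      | succ k => exact ⟨T.obj.cells.src_src k x, T.obj.cells.tgt_tgt k x⟩
    obtain ⟨z, -, hz⟩ := T.property k hk _ _ h1
    rw [hz x ⟨rfl, rfl⟩, hz y ⟨hxy.1.symm, hxy.2.symm⟩]
  have htgt : ∀ z : T.obj.cells.cell (k + 2), T.obj.cells.tgt (k + 1) z = T.obj.cells.src (k + 1) z := by
    intro z
    apply hpar
    exact ⟨(T.obj.cells.src_src k z).symm, (T.obj.cells.tgt_tgt k z).symm⟩
  constructor
  · intro f g hfg
    apply (cl_bijective hC K (k + 2) T).injective
    have hs : T.obj.cells.src (k + 1) (cl hC K f) = T.obj.cells.src (k + 1) (cl hC K g) := by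
      rw [← cl_sg, ← cl_sg]
      exact congrArg _ hfg
    have ht : T.obj.cells.tgt (k + 1) (cl hC K f) = T.obj.cells.tgt (k + 1) (cl hC K g) := by
      rw [htgt, htgt, hs]
    have h1 : T.obj.cells.AreParallel (k + 1) (T.obj.cells.src (k + 1) (cl hC K f))
        (T.obj.cells.tgt (k + 1) (cl hC K f)) :=
      ⟨T.obj.cells.src_src k _, T.obj.cells.tgt_tgt k _⟩
    obtain ⟨z, -, hz⟩ := T.property (k + 1) (by omega) _ _ h1
    rw [hz _ ⟨rfl, rfl⟩, hz (cl hC K g) ⟨hs.symm, ht.symm⟩]
  · intro x
    obtain ⟨z, ⟨hz1, -⟩, -⟩ := T.property (k + 1) (by omega) (cl hC K x) (cl hC K x) ⟨rfl, rfl⟩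
    obtain ⟨f, rfl⟩ := (cl_bijective hC K (k + 2) T).surjective z
    refine ⟨f, ?_⟩
    apply (cl_bijective hC K (k + 1) T).injective
    rw [cl_sg]
    exact hz1

end Crest.Agent.Grot
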