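import Crest.Agent.Grot.CylDef
import Crest.Agent.Grot.Trunc
import Crest.Agent.Grot.GoodLemmas

/-!
Row 248 chunk G: the path object argument.
-/

set_option autoImplicit false

open CategoryTheory CategoryTheory.Limits Opposite Crest.GeometryTopology.Coherator
open Crest.GeometryTopology.Coherator.GlobTheory

universe v w u

namespace Crest.Agent.Grot

/-- the action of operations on free objects -/
noncomputable def rm {C : GlobTheory.{u}} (hC : C.IsCoheratorTheory) (K : ℕ) {S T : Shape}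
    (o : C.arr S T) : (RK hC K).obj S ⟶ (RK hC K).obj T :=
  (RC hC K).map (X := ⟨S⟩) (Y := ⟨T⟩) o

theorem rm_one {C : GlobTheory.{u}} (hC : C.IsCoheratorTheory) (K : ℕ) (S : Shape) :
    rm hC K (C.one S) = 𝟙 _ :=
  (RC hC K).map_id (⟨S⟩ : C.Ob)

theorem rm_seq {C : GlobTheory.{u}} (hC : C.IsCoheratorTheory) (K : ℕ) {S T U : Shape}
    (f : C.arr S T) (g : C.arr T U) : rm hC K (C.seq f g) = rm hC K f ≫ rm hC K g :=
  (RC hC K).map_comp (X := ⟨S⟩) (Y := ⟨T⟩) (Z := ⟨U⟩) f g

theorem rm_ofShape {C : GlobTheory.{u}} (hC : C.IsCoheratorTheory) (K : ℕ) {S T : Shape}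
    (f : S ⟶ T) : rm hC K (C.ofShape f) = (RK hC K).map f := rfl

section PathTheory

variable {C : GlobTheory.{u}} {hC : C.IsCoheratorTheory} {K n : ℕ}

/-- arrows of the theory of operations acting on cylinders -/
structure PArr (cyl : Cyl (RK hC K) n) (S T : Shape) : Type u where
  op : C.arr S T
  cy : cyl.E.obj S ⟶ cyl.E.obj T
  w0 : cyl.i0.app S ≫ cy = rm hC K op ≫ cyl.i0.app T
  w1 : cyl.i1.app S ≫ cy = rm hC K op ≫ cyl.i1.app T

theorem PArr.ext' {cyl : Cyl (RK hC K) n} {S T : Shape} {f g : PArr cyl S T}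
    (h1 : f.op = g.op) (h2 : f.cy = g.cy) : f = g := by
  cases f; cases g; cases h1; cases h2; rfl

/-- the pretheory of operations acting on cylinders -/
noncomputable def pathPre (cyl : Cyl (RK hC K) n) : PreTheory.{u} where
  arr S T := PArr cyl S T
  one S := ⟨C.one S, 𝟙 _, by rw [rm_one, Category.comp_id, Category.id_comp],
    by rw [rm_one, Category.comp_id, Category.id_comp]⟩
  seq {S T U} f g := ⟨C.seq f.op g.op, f.cy ≫ g.cy, by
      rw [rm_seq, ← Category.assoc, f.w0, Category.assoc, g.w0, Category.assoc], by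
      rw [rm_seq, ← Category.assoc, f.w1, Category.assoc, g.w1, Category.assoc]⟩
  one_seq f := PArr.ext' (C.one_seq _) (Category.id_comp _)
  seq_one f := PArr.ext' (C.seq_one _) (Category.comp_id _)
  seq_assoc f g h := PArr.ext' (C.seq_assoc _ _ _) (Category.assoc _ _ _)
  ofShape {S T} f := ⟨C.ofShape f, cyl.E.map f, (cyl.i0.naturality f).symm, (cyl.i1.naturality f).symm⟩
  ofShape_id S := PArr.ext' (C.ofShape_id S) (cyl.E.map_id S)
  ofShape_comp f g := PArr.ext' (C.ofShape_comp f g) (cyl.E.map_comp f g)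

/-- the theory of operations acting on cylinders -/
noncomputable def pathTheory (cyl : Cyl (RK hC K) n) : GlobTheory.{u} where
  toPreTheory := pathPre cyl
  respectsSums := by
    intro S b h hb hh
    have hG := cyl.glues S b h hb hh
    have hR := (rdata_RK hC K).glue S b h hb hh
    refine pushout_intro _ ?_ ?_
    · exact PArr.ext' (C.respectsSums S b h hb hh).w hG.w
    · intro T f g hfg
      obtain ⟨k, ⟨h1, h2⟩, hk⟩ := pushout_elim C.toPreTheory (C.respectsSums S b h hb hh)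
        f.op g.op (congrArg PArr.op hfg)
      have hcy : cyl.E.map (S.hinge hb) ≫ f.cy = cyl.E.map (Shape.faceMap hh false) ≫ g.cy :=
        congrArg PArr.cy hfg
      have hf1 : (RK hC K).map (S.inLeft b h hb hh) ≫ rm hC K k = rm hC K f.op := by
        rw [← h1, rm_seq, rm_ofShape]
      have hg1 : (RK hC K).map (S.inRight b h hb hh) ≫ rm hC K k = rm hC K g.op := by
        rw [← h2, rm_seq, rm_ofShape]
      refine ⟨⟨k, hG.desc f.cy g.cy hcy, ?_, ?_⟩, ⟨PArr.ext' h1 (hG.inl_desc _ _ _),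
        PArr.ext' h2 (hG.inr_desc _ _ _)⟩, ?_⟩
      · apply hR.hom_ext
        · rw [← Category.assoc, cyl.i0.naturality, Category.assoc, hG.inl_desc, f.w0, ← hf1,
            Category.assoc]
        · rw [← Category.assoc, cyl.i0.naturality, Category.assoc, hG.inr_desc, g.w0, ← hg1,
            Category.assoc]
      · apply hR.hom_ext
        · rw [← Category.assoc, cyl.i1.naturality, Category.assoc, hG.inl_desc, f.w1, ← hf1,
            Category.assoc]
        · rw [← Category.assoc, cyl.i1.naturality, Category.assoc, hG.inr_desc, g.w1, ← hg1,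
            Category.assoc]
      · rintro k' ⟨h3, h4⟩
        refine PArr.ext' (hk k'.op ⟨congrArg PArr.op h3, congrArg PArr.op h4⟩) ?_
        apply hG.hom_ext
        · rw [hG.inl_desc]; exact congrArg PArr.cy h3
        · rw [hG.inr_desc]; exact congrArg PArr.cy h4

/-- forgetting the action on cylinders -/
noncomputable def pathForget (cyl : Cyl (RK hC K) n) : TheoryMap (pathTheory cyl) C where
  map f := f.op
  map_one _ := rfl
  map_seq _ _ := rfl
  map_ofShape _ := rfl

theorem path_fillerLifting (cyl : Cyl (RK hC K) n) : FillerLifting (pathForget cyl) := by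
  intro p z hz
  obtain ⟨l, S, hd, lo, up, hp⟩ := p
  change C.arr (Shape.globe (l + 1)) S at z
  change (pathTheory cyl).OpsParallel l lo up at hp
  change PArr cyl (Shape.globe l) S at lo
  change PArr cyl (Shape.globe l) S at up
  obtain ⟨hz1, hz2⟩ := hz
  change C.seq (C.ofShape (Shape.σ l)) z = lo.op at hz1
  change C.seq (C.ofShape (Shape.τ l)) z = up.op at hz2
  have hpar : EPar cyl.E lo.cy up.cy := by
    cases l with
    | zero => trivial
    | succ l => exact ⟨congrArg PArr.cy hp.1, congrArg PArr.cy hp.2⟩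
  have hs : ∀ i : RK hC K ⟶ cyl.E, sg (RK hC K) l ≫ rm hC K z ≫ i.app S =
      rm hC K lo.op ≫ i.app S := by
    intro i
    rw [← hz1, rm_seq, rm_ofShape, Category.assoc]
  have ht : ∀ i : RK hC K ⟶ cyl.E, tg (RK hC K) l ≫ rm hC K z ≫ i.app S =
      rm hC K up.op ≫ i.app S := by
    intro i
    rw [← hz2, rm_seq, rm_ofShape, Category.assoc]
  rcases Nat.lt_or_ge (l + 1) n with hlt | hge
  · -- constant cylinders
    obtain ⟨e, he1, he2, he3⟩ := cyl.extTF lo.cy up.cy hpar
      (rm hC K z ≫ cyl.i0.app S) (by rw [hs, lo.w0]) (by rw [ht, up.w0])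
    have e1 : cyl.i0.app (Shape.globe (l + 1)) = cyl.i1.app (Shape.globe (l + 1)) :=
      cyl.low _ hlt
    have e2 : cyl.i0.app S = cyl.i1.app S := cyl.low _ (lt_of_le_of_lt hd hlt)
    refine ⟨⟨z, e, he3, ?_⟩, ⟨PArr.ext' hz1 he1, PArr.ext' hz2 he2⟩, rfl⟩
    rw [← e1, ← e2]
    exact he3
  · obtain ⟨e, he1, he2, he3, he4⟩ := cyl.ext hge (cyl.ctr S (l + 1) (by
        change S.dim ≤ l + 1 at hd
        omega) hge) lo.cy up.cy hpar
      (rm hC K z ≫ cyl.i0.app S) (rm hC K z ≫ cyl.i1.app S)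
      (by rw [hs, lo.w0]) (by rw [ht, up.w0]) (by rw [hs, lo.w1]) (by rw [ht, up.w1])
    exact ⟨⟨z, e, he3, he4⟩, ⟨PArr.ext' hz1 he1, PArr.ext' hz2 he2⟩, rfl⟩

end PathTheory

section Cells

variable {C : GlobTheory.{u}} (hC : C.IsCoheratorTheory) (K : ℕ)

/-- maps out of the free truncated model on `S` are `S`-tuples -/
noncomputable def hm (S : Shape) (Y : TModel C K) :
    ((RK hC K).obj S ⟶ Y) ≃ Y.obj.functor.obj (op (C.incl.obj S)) :=
  homRC hC K (C.incl.obj S) Y

theorem hm_left {S T : Shape} (o : C.arr S T) (Y : TModel C K) (f : (RK hC K).obj T ⟶ Y) :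
    hm hC K S Y (rm hC K o ≫ f) =
      Y.obj.functor.map (Quiver.Hom.op (X := C.incl.obj S) (Y := C.incl.obj T) o)
        (hm hC K T Y f) :=
  homRC_naturality_left hC K (S := C.incl.obj S) (T := C.incl.obj T) o Y f

theorem hm_right (S : Shape) {Y Z : TModel C K} (f : (RK hC K).obj S ⟶ Y) (g : Y ⟶ Z) :
    hm hC K S Z (f ≫ g) = g.hom.app (op (C.incl.obj S)) (hm hC K S Y f) :=
  homRC_naturality_right hC K (C.incl.obj S) f g

/-- cells as maps out of disks -/
noncomputable def ce (Y : TModel C K) (l : ℕ) :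
    (dk (RK hC K) l ⟶ Y) ≃ Y.obj.cells.cell l :=
  hm hC K (Shape.globe l) Y

theorem ce_src (Y : TModel C K) (l : ℕ) (z : dk (RK hC K) (l + 1) ⟶ Y) :
    Y.obj.cells.src l (ce hC K Y (l + 1) z) = ce hC K Y l (sg (RK hC K) l ≫ z) :=
  (hm_left hC K (C.ofShape (Shape.σ l)) Y z).symm

theorem ce_tgt (Y : TModel C K) (l : ℕ) (z : dk (RK hC K) (l + 1) ⟶ Y) :
    Y.obj.cells.tgt l (ce hC K Y (l + 1) z) = ce hC K Y l (tg (RK hC K) l ≫ z) :=
  (hm_left hC K (C.ofShape (Shape.τ l)) Y z).symm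

theorem ce_par (Y : TModel C K) (l : ℕ) (x y : dk (RK hC K) l ⟶ Y) (h : Par (RK hC K) x y) :
    Y.obj.cells.AreParallel l (ce hC K Y l x) (ce hC K Y l y) := by
  cases l with
  | zero => trivial
  | succ l =>
    refine ⟨?_, ?_⟩
    · rw [ce_src, ce_src, h.1]
    · rw [ce_tgt, ce_tgt, h.2]

theorem tm_hty (Y : TModel C K) (l : ℕ) (hl : K ≤ l) : Ctr (RK hC K) l Y := by
  intro x y h
  obtain ⟨z, ⟨h1, h2⟩, -⟩ := Y.property l hl _ _ (ce_par hC K Y l x y h)
  refine ⟨(ce hC K Y (l + 1)).symm z, ?_, ?_⟩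
  · apply (ce hC K Y l).injective
    rw [← ce_src, Equiv.apply_symm_apply, h1]
  · apply (ce hC K Y l).injective
    rw [← ce_tgt, Equiv.apply_symm_apply, h2]

theorem tm_uniq (Y : TModel C K) (l : ℕ) (hl : K ≤ l) (x y : dk (RK hC K) (l + 1) ⟶ Y)
    (h : Par (RK hC K) x y) : x = y := by
  apply (ce hC K Y (l + 1)).injective
  refine (Y.property l hl _ _ (ce_par hC K Y l _ _ (par_faces x))).unique
    ⟨ce_src hC K Y l x, ce_tgt hC K Y l x⟩ ⟨?_, ?_⟩
  · rw [ce_src, h.1]
  · rw [ce_tgt, h.2]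

end Cells

section PathObject

variable {C : GlobTheory.{u}} {hC : C.IsCoheratorTheory} {K n : ℕ} (cyl : Cyl (RK hC K) n)

/-- a section of `pathForget` -/
noncomputable def actS : TheoryMap C (pathTheory cyl) :=
  (exists_section hC.1 (pathForget cyl) (path_fillerLifting cyl)).choose

/-- the action of an operation on cylinders -/
noncomputable def em {S T : Shape} (o : C.arr S T) : cyl.E.obj S ⟶ cyl.E.obj T :=
  ((actS cyl).map o : PArr cyl S T).cy

theorem actS_op {S T : Shape} (o : C.arr S T) : ((actS cyl).map o : PArr cyl S T).op = o := by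
  have h := (exists_section hC.1 (pathForget cyl) (path_fillerLifting cyl)).choose_spec
  have : ((actS cyl).comp (pathForget cyl)).map o = (TheoryMap.id C).map o := by
    unfold actS; rw [h]
  exact this

theorem em_ofShape {S T : Shape} (f : S ⟶ T) : em cyl (C.ofShape f) = cyl.E.map f :=
  congrArg PArr.cy ((actS cyl).map_ofShape f)

theorem em_one (S : Shape) : em cyl (C.one S) = 𝟙 _ :=
  congrArg PArr.cy ((actS cyl).map_one S)

theorem em_seq {S T U : Shape} (f : C.arr S T) (g : C.arr T U) :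
    em cyl (C.seq f g) = em cyl f ≫ em cyl g :=
  congrArg PArr.cy ((actS cyl).map_seq f g)

theorem i0_em {S T : Shape} (o : C.arr S T) :
    cyl.i0.app S ≫ em cyl o = rm hC K o ≫ cyl.i0.app T := by
  have h := ((actS cyl).map o : PArr cyl S T).w0
  rw [actS_op] at h
  exact h

theorem i1_em {S T : Shape} (o : C.arr S T) :
    cyl.i1.app S ≫ em cyl o = rm hC K o ≫ cyl.i1.app T := by
  have h := ((actS cyl).map o : PArr cyl S T).w1
  rw [actS_op] at h
  exact h

/-- operations act on cylinders -/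
noncomputable def Et : C.Ob ⥤ TModel C K where
  obj S := cyl.E.obj S.shape
  map {S T} o := em cyl (S := S.shape) (T := T.shape) o
  map_id S := em_one cyl S.shape
  map_comp {S T U} f g := em_seq cyl (S := S.shape) (T := T.shape) (U := U.shape) f g

/-- the model of cylinders in `Y` -/
noncomputable def PYm (Y : TModel C K) : GlobModel C where
  functor := (Et cyl).op ⋙ yoneda.obj Y
  sums S b h hb hh := by
    have h1 : IsPushout ((Et cyl).map (C.incl.map (S.hinge hb)))
        ((Et cyl).map (C.incl.map (Shape.faceMap hh false)))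
        ((Et cyl).map (C.incl.map (S.inLeft b h hb hh)))
        ((Et cyl).map (C.incl.map (S.inRight b h hb hh))) := by
      have h2 := cyl.glues S b h hb hh
      rw [← em_ofShape, ← em_ofShape, ← em_ofShape, ← em_ofShape] at h2
      exact h2
    exact (h1.op.map (yoneda.obj Y)).flip

theorem PYm_src (Y : TModel C K) (l : ℕ) (z : cyl.E.obj (Shape.globe (l + 1)) ⟶ Y) :
    (PYm cyl Y).cells.src l z = cyl.E.map (Shape.σ l) ≫ z := by
  rw [← em_ofShape]
  rfl

theorem PYm_tgt (Y : TModel C K) (l : ℕ) (z : cyl.E.obj (Shape.globe (l + 1)) ⟶ Y) :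
    (PYm cyl Y).cells.tgt l z = cyl.E.map (Shape.τ l) ≫ z := by
  rw [← em_ofShape]
  rfl

theorem PYm_par (Y : TModel C K) (l : ℕ) (x y : cyl.E.obj (Shape.globe l) ⟶ Y)
    (h : (PYm cyl Y).cells.AreParallel l x y) : EPar cyl.E x y := by
  cases l with
  | zero => trivial
  | succ l => 
    obtain ⟨h1, h2⟩ := h
    rw [PYm_src, PYm_src] at h1
    rw [PYm_tgt, PYm_tgt] at h2
    exact ⟨h1, h2⟩

theorem EPar.i0 {Y : TModel C K} {l : ℕ} {x y : cyl.E.obj (Shape.globe l) ⟶ Y}
    (h : EPar cyl.E x y) (i : RK hC K ⟶ cyl.E) : Par (RK hC K) (i.app _ ≫ x) (i.app _ ≫ y) := by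
  cases l with
  | zero => trivial
  | succ l =>
    obtain ⟨h1, h2⟩ := h
    change cyl.E.map _ ≫ x = cyl.E.map _ ≫ y at h1
    change cyl.E.map _ ≫ x = cyl.E.map _ ≫ y at h2
    refine ⟨?_, ?_⟩
    · rw [← Category.assoc, i.naturality, ← Category.assoc, i.naturality, Category.assoc, h1,
        Category.assoc]
    · rw [← Category.assoc, i.naturality, ← Category.assoc, i.naturality, Category.assoc, h2,
        Category.assoc]

theorem PYm_chaotic (Y : TModel C K) : Chaotic K (PYm cyl Y) := by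
  intro l hl x y hxy
  change cyl.E.obj (Shape.globe l) ⟶ Y at x
  change cyl.E.obj (Shape.globe l) ⟶ Y at y
  have hp := PYm_par cyl Y l x y hxy
  obtain ⟨x0, h1, h2⟩ := tm_hty hC K Y l hl _ _ (EPar.i0 cyl hp cyl.i0)
  obtain ⟨e, he1, he2, he3⟩ := cyl.extTF x y hp x0 h1 h2
  refine ⟨e, ⟨?_, ?_⟩, ?_⟩
  · exact (PYm_src cyl Y l e).trans he1
  · exact (PYm_tgt cyl Y l e).trans he2
  · rintro e' ⟨h3, h4⟩
    change cyl.E.obj (Shape.globe (l + 1)) ⟶ Y at e'
    have h5 : cyl.E.map (Shape.σ l) ≫ e' = x := (PYm_src cyl Y l e').symm.trans h3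
    have h6 : cyl.E.map (Shape.τ l) ≫ e' = y := (PYm_tgt cyl Y l e').symm.trans h4
    refine cyl.uniq (fun a b => tm_uniq hC K Y l hl a b)
      (fun a b => tm_uniq hC K Y (l + 1) (by omega) a b) e' e ⟨?_, ?_⟩
    · exact h5.trans he1.symm
    · exact h6.trans he2.symm

/-- the path object -/
noncomputable def PY (Y : TModel C K) : TModel C K := ⟨PYm cyl Y, PYm_chaotic cyl Y⟩

/-- maps to the path object are maps out of cylinders -/
noncomputable def th (S : Shape) (Y : TModel C K) :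
    ((RK hC K).obj S ⟶ PY cyl Y) ≃ (cyl.E.obj S ⟶ Y) :=
  hm hC K S (PY cyl Y)

theorem th_left {S T : Shape} (o : C.arr S T) (Y : TModel C K) (x : (RK hC K).obj T ⟶ PY cyl Y) :
    th cyl S Y (rm hC K o ≫ x) = em cyl o ≫ th cyl T Y x :=
  hm_left hC K o (PY cyl Y) x

theorem th_map {S T : Shape} (f : S ⟶ T) (Y : TModel C K) (x : (RK hC K).obj T ⟶ PY cyl Y) :
    th cyl S Y ((RK hC K).map f ≫ x) = cyl.E.map f ≫ th cyl T Y x := by
  rw [← em_ofShape, ← th_left, rm_ofShape]

/-- evaluation of paths -/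
noncomputable def evn (i : RK hC K ⟶ cyl.E)
    (hi : ∀ {S T : Shape} (o : C.arr S T), i.app S ≫ em cyl o = rm hC K o ≫ i.app T)
    (Y : TModel C K) : PY cyl Y ⟶ Y :=
  ObjectProperty.homMk (X := PY cyl Y) (Y := Y)
    ({ app := fun S => ↾(fun e => hm hC K S.unop.shape Y (i.app S.unop.shape ≫ e))
       naturality := by
        intro T S o
        ext e
        change cyl.E.obj T.unop.shape ⟶ Y at e
        change hm hC K S.unop.shape Y (i.app S.unop.shape ≫ (em cyl o.unop ≫ e)) =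
          Y.obj.functor.map o (hm hC K T.unop.shape Y (i.app T.unop.shape ≫ e))
        rw [← Category.assoc, hi, Category.assoc, hm_left]
        rfl } : (PYm cyl Y).functor ⟶ Y.obj.functor)

theorem ev_right (i : RK hC K ⟶ cyl.E)
    (hi : ∀ {S T : Shape} (o : C.arr S T), i.app S ≫ em cyl o = rm hC K o ≫ i.app T)
    (Y : TModel C K) {S : Shape} (x : (RK hC K).obj S ⟶ PY cyl Y) :
    x ≫ evn cyl i hi Y = i.app S ≫ th cyl S Y x := by
  apply (hm hC K S Y).injective
  rw [hm_right]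
  rfl

/-- functoriality of the path object -/
noncomputable def Pg {Y Z : TModel C K} (g : Y ⟶ Z) : PY cyl Y ⟶ PY cyl Z :=
  ObjectProperty.homMk (X := PY cyl Y) (Y := PY cyl Z)
    (Functor.whiskerLeft (Et cyl).op (yoneda.map g) : (PYm cyl Y).functor ⟶ (PYm cyl Z).functor)

theorem th_right {S : Shape} {Y Z : TModel C K} (g : Y ⟶ Z) (x : (RK hC K).obj S ⟶ PY cyl Y) :
    th cyl S Z (x ≫ Pg cyl g) = th cyl S Y x ≫ g := by
  exact hm_right hC K S x (Pg cyl g)

theorem Pg_ev (i : RK hC K ⟶ cyl.E)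
    (hi : ∀ {S T : Shape} (o : C.arr S T), i.app S ≫ em cyl o = rm hC K o ≫ i.app T)
    {Y Z : TModel C K} (g : Y ⟶ Z) :
    Pg cyl g ≫ evn cyl i hi Z = evn cyl i hi Y ≫ g := by
  apply ObjectProperty.hom_ext
  refine NatTrans.ext (funext fun S => ?_)
  refine TypeCat.Hom.ext (TypeCat.Fun.ext (funext fun e => ?_))
  change cyl.E.obj S.unop.shape ⟶ Y at e
  change hm hC K S.unop.shape Z (i.app S.unop.shape ≫ (e ≫ g)) =
    g.hom.app S (hm hC K S.unop.shape Y (i.app S.unop.shape ≫ e))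
  rw [← Category.assoc, hm_right]
  rfl

/-- source evaluation -/
noncomputable abbrev ev0 (Y : TModel C K) : PY cyl Y ⟶ Y := evn cyl cyl.i0 (i0_em cyl) Y

/-- target evaluation -/
noncomputable abbrev ev1 (Y : TModel C K) : PY cyl Y ⟶ Y := evn cyl cyl.i1 (i1_em cyl) Y

theorem th_par {Y : TModel C K} {l : ℕ} {x y : dk (RK hC K) l ⟶ PY cyl Y}
    (h : Par (RK hC K) x y) : EPar cyl.E (th cyl _ Y x) (th cyl _ Y y) := by
  cases l with
  | zero => trivial
  | succ l =>
    refine ⟨?_, ?_⟩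
    · change cyl.E.map _ ≫ _ = cyl.E.map _ ≫ _
      rw [← th_map, ← th_map, h.1]
    · change cyl.E.map _ ≫ _ = cyl.E.map _ ≫ _
      rw [← th_map, ← th_map, h.2]

theorem tf_ev0 (Y : TModel C K) : TF (RK hC K) (ev0 cyl Y) where
  zero b := by
    obtain ⟨e, he⟩ := cyl.extTF_zero b
    refine ⟨(th cyl _ Y).symm e, ?_⟩
    rw [ev_right, Equiv.apply_symm_apply, he]
  succ l x y hxy b h1 h2 := by
    obtain ⟨e, he1, he2, he3⟩ := cyl.extTF (th cyl _ Y x) (th cyl _ Y y) (th_par cyl hxy) b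
      (by rw [h1, ev_right]) (by rw [h2, ev_right])
    refine ⟨(th cyl _ Y).symm e, ?_, ?_, ?_⟩
    · apply (th cyl _ Y).injective
      rw [th_map, Equiv.apply_symm_apply, he1]
    · apply (th cyl _ Y).injective
      rw [th_map, Equiv.apply_symm_apply, he2]
    · rw [ev_right, Equiv.apply_symm_apply, he3]

theorem EPar.comp {Y Z : TModel C K} {l : ℕ} {x y : cyl.E.obj (Shape.globe l) ⟶ Y}
    (h : EPar cyl.E x y) (m : Y ⟶ Z) : EPar cyl.E (x ≫ m) (y ≫ m) :=
  Par.comp h m

end PathObject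

theorem plg_of_cyl {C : GlobTheory.{u}} (hC : C.IsCoheratorTheory) (K n : ℕ) (hn : n ≤ K)
    (cyl : Cyl (RK hC K) n) : PLG (RK hC K) n := by
  intro X X' a j b hX sq l Δ m hm
  obtain ⟨sX, hsX⟩ := hX (ev0 cyl X) (tf_ev0 cyl X) (𝟙 X)
  have hR := rdata_RK hC K
  have hun1 : sg (RK hC K) n ≫ hR.un n = 𝟙 _ := hR.sg_un n
  have hun2 : tg (RK hC K) n ≫ hR.un n = 𝟙 _ := hR.tg_un n
  set un := hR.un n with hun
  -- the retraction up to homotopy
  let ρ : X' ⟶ X := sq.desc (sX ≫ ev1 cyl X) (un ≫ a ≫ sX ≫ ev1 cyl X) (by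
    rw [← Category.assoc (sg (RK hC K) n), hun1, Category.id_comp])
  have hjρ : j ≫ ρ = sX ≫ ev1 cyl X := sq.inl_desc _ _ _
  have hbρ : b ≫ ρ = un ≫ a ≫ sX ≫ ev1 cyl X := sq.inr_desc _ _ _
  let hh : cyl.E.obj (Shape.globe n) ⟶ X' := th cyl _ X' (a ≫ sX ≫ Pg cyl j)
  have hh0 : cyl.i0.app _ ≫ hh = a ≫ j := by
    have := ev_right cyl cyl.i0 (i0_em cyl) X' (a ≫ sX ≫ Pg cyl j)
    rw [← this]
    simp only [Category.assoc]
    rw [Pg_ev, ← Category.assoc sX, hsX, Category.id_comp]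
  have hh1 : cyl.i1.app _ ≫ hh = a ≫ sX ≫ ev1 cyl X ≫ j := by
    have := ev_right cyl cyl.i1 (i1_em cyl) X' (a ≫ sX ≫ Pg cyl j)
    rw [← this]
    simp only [Category.assoc]
    rw [Pg_ev]
  obtain ⟨c, hc1, hc2, hc3⟩ := cyl.sect un hun1 hun2 hh b (by rw [hh0, sq.w])
  let s : X' ⟶ PY cyl X' := sq.desc (sX ≫ Pg cyl j) ((th cyl _ X').symm c) (by
    apply (th cyl _ X').injective
    rw [th_map, Equiv.apply_symm_apply, hc1])
  have hjs : j ≫ s = sX ≫ Pg cyl j := sq.inl_desc _ _ _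
  have hbs : b ≫ s = (th cyl _ X').symm c := sq.inr_desc _ _ _
  have hs0 : s ≫ ev0 cyl X' = 𝟙 X' := by
    apply sq.hom_ext
    · rw [← Category.assoc, hjs, Category.assoc, Pg_ev, ← Category.assoc, hsX, Category.id_comp,
        Category.comp_id]
    · rw [← Category.assoc, hbs, ev_right, Equiv.apply_symm_apply, hc2, Category.comp_id]
  have hs1 : s ≫ ev1 cyl X' = ρ ≫ j := by
    apply sq.hom_ext
    · rw [← Category.assoc, hjs, Category.assoc, Pg_ev, ← Category.assoc, ← Category.assoc, hjρ]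
    · rw [← Category.assoc, hbs, ev_right, Equiv.apply_symm_apply, hc3, hh1, ← Category.assoc b,
        hbρ]
      simp only [Category.assoc]
  intro u v huv huvm
  have key0 : ∀ w : dk (RK hC K) l ⟶ X', cyl.i0.app _ ≫ th cyl _ X' (w ≫ s) = w := by
    intro w
    rw [← ev_right cyl cyl.i0 (i0_em cyl), Category.assoc, hs0, Category.comp_id]
  have key1 : ∀ w : dk (RK hC K) l ⟶ X', cyl.i1.app _ ≫ th cyl _ X' (w ≫ s) = (w ≫ ρ) ≫ j := by
    intro w
    rw [← ev_right cyl cyl.i1 (i1_em cyl), Category.assoc, hs1, Category.assoc]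
  rcases Nat.lt_or_ge l n with hl | hl
  · have e : cyl.i0.app (Shape.globe l) = cyl.i1.app (Shape.globe l) := cyl.low _ hl
    have hw : ∀ w : dk (RK hC K) l ⟶ X', (w ≫ ρ) ≫ j = w := by
      intro w
      rw [← key1, ← e, key0]
    have h1 : Hty (RK hC K) (u ≫ ρ) (v ≫ ρ) := by
      apply hm _ _ (huv.comp ρ)
      rw [← Category.assoc, hw, ← Category.assoc, hw]
      exact huvm
    have h2 := h1.comp j
    rw [hw, hw] at h2
    exact h2
  · have hp : EPar cyl.E (th cyl _ X' (u ≫ s)) (th cyl _ X' (v ≫ s)) := th_par cyl (huv.comp s)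
    have h1 : Hty (RK hC K) (u ≫ ρ) (v ≫ ρ) := by
      apply hm _ _ (huv.comp ρ)
      have h2 := (cyl.c1 hl _ _ (EPar.comp cyl hp m)).1 (by
        rw [← Category.assoc, key0, ← Category.assoc, key0]
        exact huvm)
      rw [← Category.assoc, key1, ← Category.assoc, key1] at h2
      simpa only [Category.assoc] using h2
    have h2 := h1.comp j
    rw [← key1, ← key1] at h2
    have h3 := (cyl.c1 hl _ _ hp).2 h2
    rw [key0, key0] at h3
    exact h3

end Crest.Agent.Grot
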