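import Crest.Agent.Grot.Basic

/-!
Row 248 chunk A: combinatorics of the category of shapes; natural transformations determined on
globes; realization of a coglobular object.
-/

set_option autoImplicit false

open CategoryTheory CategoryTheory.Limits Opposite Crest.GeometryTopology.Coherator
open Crest.GeometryTopology.Coherator.GlobPsh

universe v w u

namespace Crest.Agent.Grot

theorem globeRepFace_comp {a b c : ℕ} (h₁ : a < b) (h₂ : b < c) (s t : Bool) :
    globeRepFace h₁ s ≫ globeRepFace h₂ t = globeRepFace (h₁.trans h₂) s := by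
  exact (yoneda.map_comp (GlobeObj.faceArrow h₁ s) (GlobeObj.faceArrow h₂ t)).symm

/-- faces compose to the face named by the first (lowest) factor -/
theorem faceMap_comp {a b c : ℕ} (h₁ : a < b) (h₂ : b < c) (s t : Bool) :
    Shape.faceMap h₁ s ≫ Shape.faceMap h₂ t = Shape.faceMap (h₁.trans h₂) s :=
  globeRepFace_comp h₁ h₂ s t

/-- the hinge of a glued shape -/
theorem hinge_glue (S : Shape) (b h : ℕ) (hb : b < S.last) (hh : b < h) {c : ℕ} (hc : c < h) :
    (S.glue b h hb hh).hinge (b := c) hc = Shape.faceMap hc true ≫ S.inRight b h hb hh := by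
  rfl

theorem hinge_inLeft (S : Shape) (b h : ℕ) (hb : b < S.last) (hh : b < h) :
    S.hinge hb ≫ S.inLeft b h hb hh = Shape.faceMap hh false ≫ S.inRight b h hb hh :=
  pushout.condition (f := globeRepFace hb true ≫ S.apex) (g := globeRepFace hh false)

/-- a face of the hinge on the target side is a hinge -/
theorem faceMap_true_hinge (S : Shape) {b c : ℕ} (hb : b < S.last) (hc : c < b) :
    Shape.faceMap hc true ≫ S.hinge hb = S.hinge (hc.trans hb) := by
  show globeRepFace hc true ≫ (globeRepFace hb true ≫ S.apex) = globeRepFace _ true ≫ S.apex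
  rw [← Category.assoc, globeRepFace_comp]

/-- map of globes attached to an arrow -/
noncomputable def arr {m h : ℕ} (f : GlobeObj.Arrow m h) : Shape.globe m ⟶ Shape.globe h :=
  (yoneda.map (show GlobeObj.mk m ⟶ GlobeObj.mk h from f) : globeRep m ⟶ globeRep h)

theorem arr_refl (m : ℕ) : arr (.refl m) = 𝟙 (Shape.globe m) := by
  exact yoneda.map_id _

theorem arr_pole {m h : ℕ} (lt : m < h) (up : Bool) : arr (.pole lt up) = Shape.faceMap lt up :=
  rfl

theorem arr_surj {m h : ℕ} (x : Shape.globe m ⟶ Shape.globe h) : ∃ f, arr f = x :=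
  yoneda.map_surjective (show yoneda.obj (GlobeObj.mk m) ⟶ yoneda.obj (GlobeObj.mk h) from x)

/-- maps between globes are the identity or a face -/
theorem cell_globe {m h : ℕ} (x : Shape.globe m ⟶ Shape.globe h) :
    (∃ e : m = h, x = eqToHom (by rw [e])) ∨
      ∃ (hlt : m < h) (s : Bool), x = Shape.faceMap hlt s := by
  obtain ⟨f, rfl⟩ := arr_surj x
  cases f with
  | refl => left; exact ⟨rfl, arr_refl _⟩
  | pole lt up => right; exact ⟨lt, up, rfl⟩

/-- the functor from shapes to globular sets -/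
noncomputable def pshF : Shape ⥤ GlobPsh.{0} where
  obj S := S.psh
  map f := f
  map_id _ := rfl
  map_comp _ _ := rfl

instance : pshF.Full := ⟨fun f => ⟨f, rfl⟩⟩
instance : pshF.Faithful := ⟨fun h => h⟩

theorem glues_pshF : Glues pshF := by
  intro S b h hb hh
  exact IsPushout.of_hasPushout (globeRepFace hb true ≫ S.apex) (globeRepFace hh false)

/-- the identity functor of shapes has the designated pushouts -/
theorem glues_id : Glues (𝟭 Shape) := by
  intro S b h hb hh
  have := glues_pshF S b h hb hh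
  exact IsPushout.of_map pshF (hinge_inLeft S b h hb hh) this

theorem cell_psh {m : ℕ} {A B D : GlobPsh.{0}} (f : A ⟶ B) (g : A ⟶ D)
    (x : yoneda.obj (GlobeObj.mk m) ⟶ pushout f g) :
    (∃ y, y ≫ pushout.inl f g = x) ∨ (∃ y, y ≫ pushout.inr f g = x) := by
  obtain ⟨j, y, hy⟩ := Types.jointly_surjective _
    (isColimitOfPreserves ((evaluation _ _).obj (op (GlobeObj.mk m)))
      (colimit.isColimit (span f g))) (yonedaEquiv x)
  rcases j with _ | _ | _
  · left
    refine ⟨yonedaEquiv.symm (f.app _ y), ?_⟩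
    apply yonedaEquiv.injective
    rw [← hy, yonedaEquiv_comp, Equiv.apply_symm_apply]
    have h := pushout.condition (f := f) (g := g)
    have h2 : colimit.ι (span f g) WalkingSpan.zero = f ≫ pushout.inl f g := by
      exact (colimit.w (span f g) WalkingSpan.Hom.fst).symm
    show _ = (colimit.ι (span f g) WalkingSpan.zero).app _ y
    rw [h2]
    rfl
  · left
    obtain ⟨y', hy'⟩ : ∃ y' : B.obj (op (GlobeObj.mk m)),
      (pushout.inl f g).app _ y' = yonedaEquiv x := ⟨y, hy⟩
    refine ⟨yonedaEquiv.symm y', ?_⟩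
    apply yonedaEquiv.injective
    rw [← hy', yonedaEquiv_comp, Equiv.apply_symm_apply]
  · right
    obtain ⟨y', hy'⟩ : ∃ y' : D.obj (op (GlobeObj.mk m)),
      (pushout.inr f g).app _ y' = yonedaEquiv x := ⟨y, hy⟩
    refine ⟨yonedaEquiv.symm y', ?_⟩
    apply yonedaEquiv.injective
    rw [← hy', yonedaEquiv_comp, Equiv.apply_symm_apply]

/-- a cell of a glued shape comes from one of the two sides -/
theorem cell_glue (S : Shape) (b h : ℕ) (hb : b < S.last) (hh : b < h) {m : ℕ}
    (x : Shape.globe m ⟶ S.glue b h hb hh) :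
    (∃ y : Shape.globe m ⟶ S, y ≫ S.inLeft b h hb hh = x) ∨
      (∃ y : Shape.globe m ⟶ Shape.globe h, y ≫ S.inRight b h hb hh = x) :=
  cell_psh (globeRepFace hb true ≫ S.apex) (globeRepFace hh false) x

/-- the last globe of a shape, as a map of shapes -/
noncomputable def apexS (S : Shape) : Shape.globe S.last ⟶ S := S.apex

theorem hinge_eq (S : Shape) {b : ℕ} (hb : b < S.last) :
    S.hinge hb = Shape.faceMap hb true ≫ apexS S := rfl

theorem apexS_glue (S : Shape) (b h : ℕ) (hb : b < S.last) (hh : b < h) :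
    apexS (S.glue b h hb hh) = S.inRight b h hb hh := rfl

theorem apexS_globe (m : ℕ) : apexS (Shape.globe m) = 𝟙 _ := rfl

/-- induction on shapes -/
theorem shape_ind {motive : Shape → Prop} (h0 : ∀ m, motive (Shape.globe m))
    (h1 : ∀ (S : Shape) (b h : ℕ) (hb : b < S.last) (hh : b < h), motive S →
      motive (S.glue b h hb hh)) (S : Shape) : motive S := by
  obtain ⟨l, P⟩ := S
  induction P with
  | single h => exact h0 h
  | glue P b h hb hh ih => exact h1 ⟨_, P⟩ b h hb hh ih

section segNat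

variable {𝓒 : Type w} [Category.{v} 𝓒] {F G : Shape ⥤ 𝓒}

/-- maps out of `F.obj S` are determined on cells -/
theorem hom_ext_cells (hF : Glues F) (S : Shape) {Y : 𝓒} (f g : F.obj S ⟶ Y)
    (h : ∀ (m : ℕ) (x : Shape.globe m ⟶ S), F.map x ≫ f = F.map x ≫ g) : f = g := by
  induction S using shape_ind with
  | h0 m => simpa using h m (𝟙 _)
  | h1 S b h' hb hh ih =>
    apply (hF S b h' hb hh).hom_ext
    · apply ih
      intro m x
      simpa using h m (x ≫ S.inLeft b h' hb hh)
    · exact h h' (S.inRight b h' hb hh)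

/-- extension of a levelwise map to all shapes -/
theorem exists_comp (hF : Glues F)
    (α : ∀ l : ℕ, F.obj (Shape.globe l) ⟶ G.obj (Shape.globe l))
    (hα : ∀ (m h : ℕ) (x : Shape.globe m ⟶ Shape.globe h), F.map x ≫ α h = α m ≫ G.map x)
    (S : Shape) : ∃ β : F.obj S ⟶ G.obj S,
      ∀ (m : ℕ) (x : Shape.globe m ⟶ S), F.map x ≫ β = α m ≫ G.map x := by
  induction S using shape_ind with
  | h0 m => exact ⟨α m, fun k x => hα k m x⟩
  | h1 S b h hb hh ih =>
    obtain ⟨β, hβ⟩ := ih
    have hsq := hF S b h hb hh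
    have hcomm : F.map (S.hinge hb) ≫ β ≫ G.map (S.inLeft b h hb hh) =
        F.map (Shape.faceMap hh false) ≫ α h ≫ G.map (S.inRight b h hb hh) := by
      rw [← Category.assoc, hβ, ← Category.assoc (F.map (Shape.faceMap hh false)), hα,
        Category.assoc, Category.assoc, ← G.map_comp, ← G.map_comp, hinge_inLeft]
    refine ⟨hsq.desc (β ≫ G.map (S.inLeft b h hb hh)) (α h ≫ G.map (S.inRight b h hb hh)) hcomm, ?_⟩
    intro m x
    rcases cell_glue S b h hb hh x with ⟨y, rfl⟩ | ⟨y, rfl⟩
    · rw [F.map_comp, Category.assoc, hsq.inl_desc, ← Category.assoc, hβ, Category.assoc,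
        ← G.map_comp]
    · rw [F.map_comp, Category.assoc, hsq.inr_desc, ← Category.assoc, hα, Category.assoc,
        ← G.map_comp]

theorem segNat_aux (hF : Glues F)
    (α : ∀ l : ℕ, F.obj (Shape.globe l) ⟶ G.obj (Shape.globe l))
    (hα : ∀ (m h : ℕ) (x : Shape.globe m ⟶ Shape.globe h), F.map x ≫ α h = α m ≫ G.map x) :
    ∃! β : F ⟶ G, ∀ l, β.app (Shape.globe l) = α l := by
  choose β hβ using exists_comp (F := F) (G := G) hF α hα
  refine ⟨⟨fun S => β S, ?_⟩, ?_, ?_⟩
  · intro S T f
    apply hom_ext_cells hF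
    intro m x
    rw [← Category.assoc, ← F.map_comp, hβ, ← Category.assoc, hβ, Category.assoc, ← G.map_comp]
  · intro l
    have := hβ (Shape.globe l) l (𝟙 _)
    simpa using this
  · intro γ hγ
    ext S
    apply hom_ext_cells hF
    intro m x
    show F.map x ≫ γ.app S = F.map x ≫ β S
    rw [hβ, γ.naturality, hγ]

end segNat

/-- natural transformations out of a functor with designated pushouts are determined on globes -/
theorem segNat {𝓒 : Type w} [Category.{v} 𝓒] (F G : Shape ⥤ 𝓒) (hF : Glues F)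
    (α : GlobTheory.globeShapes ⋙ F ⟶ GlobTheory.globeShapes ⋙ G) :
    ∃! β : F ⟶ G, Functor.whiskerLeft GlobTheory.globeShapes β = α := by
  have h := segNat_aux (F := F) (G := G) hF (fun l => α.app (GlobeObj.mk l)) (by
    intro m h x
    obtain ⟨f, rfl⟩ := arr_surj x
    exact α.naturality (show GlobeObj.mk m ⟶ GlobeObj.mk h from f))
  obtain ⟨β, hβ, hu⟩ := h
  refine ⟨β, ?_, ?_⟩
  · ext g
    exact hβ g.dim
  · intro γ hγ
    apply hu
    intro l
    have := congrArg (fun (t : GlobTheory.globeShapes ⋙ F ⟶ GlobTheory.globeShapes ⋙ G) =>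
      t.app (GlobeObj.mk l)) hγ
    exact this

theorem pole_induction {motive : ∀ (m h : ℕ), (Shape.globe m ⟶ Shape.globe h) → Prop}
    (hid : ∀ m, motive m m (𝟙 _))
    (hcomp : ∀ (m h k : ℕ) (x : Shape.globe m ⟶ Shape.globe h) (y : Shape.globe h ⟶ Shape.globe k),
      motive m h x → motive h k y → motive m k (x ≫ y))
    (hσ : ∀ m, motive m (m + 1) (Shape.σ m)) (hτ : ∀ m, motive m (m + 1) (Shape.τ m))
    {m h : ℕ} (x : Shape.globe m ⟶ Shape.globe h) : motive m h x := by
  rcases cell_globe x with ⟨rfl, rfl⟩ | ⟨hlt, s, rfl⟩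
  · exact hid m
  · obtain ⟨d, rfl⟩ : ∃ d, h = m + 1 + d := ⟨h - (m + 1), by omega⟩
    induction d with
    | zero =>
      cases s
      · exact hσ m
      · exact hτ m
    | succ d ih =>
      have := faceMap_comp (show m < m + 1 + d by omega)
        (show m + 1 + d < m + 1 + (d + 1) by omega) s false
      rw [← this]
      exact hcomp _ _ _ _ _ (ih (by omega)) (hσ _)

/-- levelwise form of `segNat`: compatible maps on globes extend uniquely -/
theorem segNat' {𝓒 : Type w} [Category.{v} 𝓒] (F G : Shape ⥤ 𝓒) (hF : Glues F)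
    (α : ∀ l : ℕ, F.obj (Shape.globe l) ⟶ G.obj (Shape.globe l))
    (hs : ∀ l, F.map (Shape.σ l) ≫ α (l + 1) = α l ≫ G.map (Shape.σ l))
    (ht : ∀ l, F.map (Shape.τ l) ≫ α (l + 1) = α l ≫ G.map (Shape.τ l)) :
    ∃! β : F ⟶ G, ∀ l, β.app (Shape.globe l) = α l := by
  apply segNat_aux hF
  intro m h x
  refine pole_induction (motive := fun m h x => F.map x ≫ α h = α m ≫ G.map x) ?_ ?_ hs ht x
  · intro m; simp
  · intro m h k x y hx hy
    rw [F.map_comp, Category.assoc, hy, ← Category.assoc, hx, Category.assoc, ← G.map_comp]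

section real

variable {𝓒 : Type w} [Category.{v} 𝓒] (A : ℕ → 𝓒) (s t : ∀ l, A l ⟶ A (l + 1))

/-- a face of a coglobular object -/
noncomputable def poleMap {m h : ℕ} (lt : m < h) (b : Bool) : A m ⟶ A h :=
  (if b then t m else s m) ≫ (Functor.ofSequence s).map (homOfLE (show m + 1 ≤ h from lt))

theorem poleMap_zero (m : ℕ) (b : Bool) :
    poleMap A s t (Nat.lt_succ_self m) b = if b then t m else s m := by
  unfold poleMap
  have : homOfLE (show m + 1 ≤ m + 1 from Nat.lt_succ_self m) = 𝟙 (m + 1) := rfl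
  rw [this, (Functor.ofSequence s).map_id]
  exact Category.comp_id _

theorem poleMap_succ {m h : ℕ} (lt : m < h) (b : Bool) :
    poleMap A s t (Nat.lt_succ_of_lt lt) b = poleMap A s t lt b ≫ s h := by
  unfold poleMap
  have : homOfLE (show m + 1 ≤ h + 1 from Nat.lt_succ_of_lt lt) =
    homOfLE (show m + 1 ≤ h from lt) ≫ homOfLE (Nat.le_add_right h 1) := rfl
  rw [this, (Functor.ofSequence s).map_comp, Functor.ofSequence_map_homOfLE_succ]
  exact (Category.assoc _ _ _).symm

variable (hs : ∀ l, s l ≫ s (l + 1) = s l ≫ t (l + 1)) (ht : ∀ l, t l ≫ s (l + 1) = t l ≫ t (l + 1))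

include hs ht in
theorem poleMap_t {m h : ℕ} (lt : m < h) (b : Bool) :
    poleMap A s t lt b ≫ t h = poleMap A s t lt b ≫ s h := by
  obtain ⟨d, rfl⟩ : ∃ d, h = m + 1 + d := ⟨h - (m + 1), by omega⟩
  cases d with
  | zero =>
    rw [poleMap_zero]
    cases b
    · exact (hs m).symm
    · exact (ht m).symm
  | succ d =>
    have h1 := poleMap_succ A s t (show m < m + 1 + d by omega) b
    rw [show poleMap A s t lt b = poleMap A s t (show m < m + 1 + d by omega) b ≫ s _ from h1,
      Category.assoc, Category.assoc]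
    exact congrArg (fun z => poleMap A s t (show m < m + 1 + d by omega) b ≫ z)
      (hs (m + 1 + d)).symm

include hs ht in
theorem poleMap_comp {m h k : ℕ} (lt : m < h) (lt' : h < k) (b b' : Bool) :
    poleMap A s t lt b ≫ poleMap A s t lt' b' = poleMap A s t (lt.trans lt') b := by
  obtain ⟨d, rfl⟩ : ∃ d, k = h + 1 + d := ⟨k - (h + 1), by omega⟩
  induction d with
  | zero =>
    rw [show poleMap A s t lt' b' = _ from poleMap_zero A s t h b',
      show poleMap A s t (lt.trans lt') b = _ from poleMap_succ A s t lt b]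
    cases b'
    · rfl
    · exact poleMap_t A s t hs ht lt b
  | succ d ih =>
    rw [show poleMap A s t lt' b' = _ from poleMap_succ A s t (show h < h + 1 + d by omega) b',
      show poleMap A s t (lt.trans lt') b = _ from
        poleMap_succ A s t (show m < h + 1 + d by omega) b, ← Category.assoc, ih]

/-- the map attached to an arrow of globes -/
noncomputable def arrMap : {m h : ℕ} → GlobeObj.Arrow m h → (A m ⟶ A h)
  | _, _, .refl _ => 𝟙 _
  | _, _, .pole lt b => poleMap A s t lt b

/-- the functor attached to a coglobular object -/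
noncomputable def globFun : GlobeObj ⥤ 𝓒 where
  obj g := A g.dim
  map {a b} f := arrMap A s t (show GlobeObj.Arrow a.dim b.dim from f)
  map_id g := rfl
  map_comp {a b c} f g := by
    have key : ∀ {m n k : ℕ} (f : GlobeObj.Arrow m n) (g : GlobeObj.Arrow n k),
        arrMap A s t (f.seq g) = arrMap A s t f ≫ arrMap A s t g := by
      intro m n k f g
      cases f with
      | refl => simp [arrMap, GlobeObj.Arrow.seq]
      | pole lt b =>
        cases g with
        | refl => simp [arrMap, GlobeObj.Arrow.seq]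
        | pole lt' b' => exact (poleMap_comp A s t hs ht lt lt' b b').symm
    exact key (show GlobeObj.Arrow a.dim b.dim from f) (show GlobeObj.Arrow b.dim c.dim from g)

end real

theorem Glues.comp {𝓒 : Type w} [Category.{v} 𝓒] {𝓓 : Type*} [Category* 𝓓] {F : Shape ⥤ 𝓒}
    (hF : Glues F) (L : 𝓒 ⥤ 𝓓) [PreservesColimitsOfShape WalkingSpan L] : Glues (F ⋙ L) := by
  intro S b h hb hh
  exact (hF S b h hb hh).map L

/-- realization of a coglobular object given levelwise -/
theorem exists_real {𝓒 : Type w} [Category.{u} 𝓒] [HasColimitsOfSize.{u, u} 𝓒]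
    (A : ℕ → 𝓒) (s t : ∀ l, A l ⟶ A (l + 1))
    (hs : ∀ l, s l ≫ s (l + 1) = s l ≫ t (l + 1)) (ht : ∀ l, t l ≫ s (l + 1) = t l ≫ t (l + 1)) :
    ∃ (F : Shape ⥤ 𝓒) (i : ∀ l, F.obj (Shape.globe l) ≅ A l), Glues F ∧
      (∀ l, F.map (Shape.σ l) ≫ (i (l + 1)).hom = (i l).hom ≫ s l) ∧
      (∀ l, F.map (Shape.τ l) ≫ (i (l + 1)).hom = (i l).hom ≫ t l) := by
  have : HasColimitsOfSize.{0, u} 𝓒 := hasColimitsOfSizeShrink.{0, u, u, u} 𝓒
  let A' : GlobeObj ⥤ 𝓒 := globFun A s t hs ht
  let L : (GlobeObjᵒᵖ ⥤ Type u) ⥤ 𝓒 := (uliftYoneda.{u}).leftKanExtension A'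
  have : PreservesColimitsOfSize.{0, 0} L :=
    Presheaf.preservesColimitsOfSize_leftKanExtension.{0} A'
  let W : GlobPsh.{0} ⥤ GlobPsh.{u} :=
    (Functor.whiskeringRight _ _ _).obj uliftFunctor.{u, 0}
  have : PreservesColimitsOfSize.{0, 0} W := inferInstance
  have e : uliftYoneda.{u} ⋙ L ≅ A' := Presheaf.isExtensionAlongULiftYoneda.{0} A'
  refine ⟨pshF ⋙ W ⋙ L, fun l => e.app (GlobeObj.mk l), ?_, ?_, ?_⟩
  · exact (glues_pshF.comp W).comp L
  · intro l
    refine (e.hom.naturality (GlobeObj.σ l)).trans ?_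
    congr 1
    exact poleMap_zero A s t l false
  · intro l
    refine (e.hom.naturality (GlobeObj.τ l)).trans ?_
    congr 1
    exact poleMap_zero A s t l true

end Crest.Agent.Grot
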